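import Crest.Agent.R287.Phase2

/-! Phase 1 as an algorithm, and its specification. -/

set_option autoImplicit false

namespace Crest.Agent.R287

abbrev Tab := List (Str × ℕ)
abbrev St := ℕ × Tab × List (Str × Str)

def look (t : Tab) (v : Str) : ℕ := (t.lookup v).getD 0

/-- The nonempty substrings of the input. -/
def subs (S : List Str) : List Str :=
  ((S.flatMap fun s => s.tails.flatMap fun t => t.inits).filter (fun v => decide (v ≠ []))).dedup

section Defs
open Classical
variable (S : List Str)

noncomputable def newY (st : St) : List (Str × Str) :=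
  ((subs S).filter fun y => decide (Seed S.flatten.toFinset (subs S) (look st.2.1) st.2.2 y ∧
    y.length - Wt S.flatten.toFinset (subs S) (look st.2.1) y = st.1 ∧ st.1 < y.length)).map
    fun y => (y, y.drop (Wt S.flatten.toFinset (subs S) (look st.2.1) y))

noncomputable def val (st : St) (v : Str) : ℕ :=
  max (max (if Mx S v then 1 else 0)
    (max (LS S.flatten.toFinset (look st.2.1) v) (RS S.flatten.toFinset (look st.2.1) v)))
    (if ∃ p ∈ newY S st, p.2 = v then
      min (LS S.flatten.toFinset (look st.2.1) v) (RS S.flatten.toFinset (look st.2.1) v) + 1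
    else 0)

noncomputable def step1 (st : St) : St :=
  (st.1 - 1, (((subs S).filter fun v => decide (v.length = st.1)).map fun v => (v, val S st v)) ++
    st.2.1, newY S st ++ st.2.2)

noncomputable def st1 (n : ℕ) : St := (step1 S)^[n] (S.flatten.length, [], [])

noncomputable def finM : Str → ℕ := look (st1 S S.flatten.length).2.1
noncomputable def finY : List (Str × Str) := (st1 S S.flatten.length).2.2

/-- The approximate shortest common superstring. -/
noncomputable def scs : Str := output S.flatten.toFinset (subs S) (finM S) (finY S)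

end Defs

variable {S : List Str}

theorem mem_subs {v : Str} : v ∈ subs S ↔ v ≠ [] ∧ ∃ s ∈ S, v <:+: s := by
  simp only [subs, List.mem_dedup, List.mem_filter, List.mem_flatMap, List.mem_tails,
    List.mem_inits, decide_eq_true_eq, List.infix_iff_prefix_suffix]
  tauto

theorem infix_flatten {s : Str} (hs : s ∈ S) : s <:+: S.flatten := List.infix_of_mem_flatten hs

theorem length_of_mem_subs {v : Str} (h : v ∈ subs S) :
    0 < v.length ∧ v.length ≤ S.flatten.length := by
  obtain ⟨h1, s, h2, h3⟩ := mem_subs.1 h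
  exact ⟨List.length_pos_iff.2 h1, (h3.trans (infix_flatten h2)).length_le⟩

theorem look_append (l : List Str) (f : Str → ℕ) (t : Tab) (v : Str) :
    look (l.map (fun x => (x, f x)) ++ t) v = if v ∈ l then f v else look t v := by
  induction l with
  | nil => simp
  | cons x l ih =>
    unfold look at ih ⊢
    by_cases h : v = x
    · subst h; simp
    · have : (v == x) = false := by simpa using h
      simp only [List.map_cons, List.cons_append, List.lookup_cons, this, ih, List.mem_cons, h,
        false_or]

theorem st1_succ (n : ℕ) : st1 S (n + 1) = step1 S (st1 S n) := Function.iterate_succ_apply' _ _ _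

theorem st1_fst (n : ℕ) : (st1 S n).1 = S.flatten.length - n := by
  induction n with
  | zero => rfl
  | succ n ih => rw [st1_succ, step1, ih]; omega

theorem look_succ (n : ℕ) (v : Str) : look (st1 S (n + 1)).2.1 v =
    if v ∈ subs S ∧ v.length = S.flatten.length - n then val S (st1 S n) v
    else look (st1 S n).2.1 v := by
  rw [st1_succ, step1, look_append]
  simp [st1_fst]

theorem mem_succ (n : ℕ) (p : Str × Str) :
    p ∈ (st1 S (n + 1)).2.2 ↔ p ∈ newY S (st1 S n) ∨ p ∈ (st1 S n).2.2 := by
  rw [st1_succ, step1]; simp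

theorem mem_newY {st : St} {p : Str × Str} : p ∈ newY S st ↔ p.1 ∈ subs S ∧
    (Seed S.flatten.toFinset (subs S) (look st.2.1) st.2.2 p.1 ∧
    p.1.length - Wt S.flatten.toFinset (subs S) (look st.2.1) p.1 = st.1 ∧ st.1 < p.1.length) ∧
    p.2 = p.1.drop (Wt S.flatten.toFinset (subs S) (look st.2.1) p.1) := by
  obtain ⟨y, x⟩ := p
  simp only [newY, List.mem_map, List.mem_filter, decide_eq_true_eq, Prod.mk.injEq]
  constructor
  · rintro ⟨z, h1, rfl, rfl⟩; exact ⟨h1.1, h1.2, rfl⟩
  · rintro ⟨h1, h2, rfl⟩; exact ⟨y, ⟨h1, h2⟩, rfl, rfl⟩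

theorem length_newY {st : St} {p : Str × Str} (h : p ∈ newY S st) : p.2.length = st.1 := by
  obtain ⟨_, h1, h2⟩ := mem_newY.1 h
  rw [h2, List.length_drop, h1.2.1]

theorem look_pos (n : ℕ) (v : Str) (h : 0 < look (st1 S n).2.1 v) : v ∈ subs S := by
  induction n with
  | zero => simp [st1, look] at h
  | succ n ih =>
    rw [look_succ] at h
    split_ifs at h with h1
    · exact h1.1
    · exact ih h

theorem look_stable {n m : ℕ} (h : n ≤ m) (v : Str) (hv : S.flatten.length - n < v.length) :
    look (st1 S n).2.1 v = look (st1 S m).2.1 v := by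
  induction m, h using Nat.le_induction with
  | base => rfl
  | succ m _ ih => rw [look_succ, if_neg (by omega), ih]

theorem mem_stable {n m : ℕ} (h : n ≤ m) (p : Str × Str)
    (hv : S.flatten.length - n < p.2.length) : p ∈ (st1 S n).2.2 ↔ p ∈ (st1 S m).2.2 := by
  induction m, h using Nat.le_induction with
  | base => rfl
  | succ m _ ih =>
    rw [mem_succ, ← ih, iff_or_self]
    intro h1
    have := length_newY h1
    rw [st1_fst] at this
    omega

theorem mem_st1 {n : ℕ} {p : Str × Str} :
    p ∈ (st1 S n).2.2 ↔ ∃ j < n, p ∈ newY S (st1 S j) := by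
  induction n with
  | zero => simp [st1]
  | succ n ih => rw [mem_succ, ih, Nat.exists_lt_succ_right, or_comm]

theorem mem_finY {p : Str × Str} : p ∈ finY S ↔ 0 < p.2.length ∧ p.2.length ≤ S.flatten.length ∧
    p ∈ newY S (st1 S (S.flatten.length - p.2.length)) := by
  rw [finY, mem_st1]
  constructor
  · rintro ⟨j, h1, h2⟩
    have := length_newY h2
    rw [st1_fst] at this
    exact ⟨by omega, by omega, by rwa [show S.flatten.length - p.2.length = j by omega]⟩
  · rintro ⟨h1, h2, h3⟩
    exact ⟨_, by omega, h3⟩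

theorem finM_val {v : Str} (h : v ∈ subs S) :
    finM S v = val S (st1 S (S.flatten.length - v.length)) v := by
  have := length_of_mem_subs h
  rw [finM, ← look_stable (n := S.flatten.length - v.length + 1) (by omega) v (by omega),
    look_succ, if_pos ⟨h, by omega⟩]

theorem finM_agree {k : ℕ} (hk : k ≤ S.flatten.length) (v : Str) (hv : k < v.length) :
    look (st1 S (S.flatten.length - k)).2.1 v = finM S v :=
  look_stable (by omega) v (by omega)

theorem finY_agree {k : ℕ} (hk : k ≤ S.flatten.length) (p : Str × Str) (hv : k < p.2.length) :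
    p ∈ (st1 S (S.flatten.length - k)).2.2 ↔ p ∈ finY S :=
  mem_stable (by omega) p (by omega)

open Classical in
theorem finM_eq {v : Str} (h : v ∈ subs S) :
    finM S v = max (max (if Mx S v then 1 else 0)
      (max (LS S.flatten.toFinset (finM S) v) (RS S.flatten.toFinset (finM S) v)))
      (if ∃ y, (y, v) ∈ finY S then
        min (LS S.flatten.toFinset (finM S) v) (RS S.flatten.toFinset (finM S) v) + 1 else 0) := by
  have hl := length_of_mem_subs h
  rw [finM_val h, val, LS_congr (finM_agree hl.2) le_rfl, RS_congr (finM_agree hl.2) le_rfl]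
  congr 1
  apply if_congr _ rfl rfl
  constructor
  · rintro ⟨⟨y, x⟩, h1, rfl⟩
    exact ⟨y, mem_finY.2 ⟨hl.1, hl.2, h1⟩⟩
  · rintro ⟨y, h1⟩
    exact ⟨_, (mem_finY.1 h1).2.2, rfl⟩

theorem circ_fin (S : List Str) : Circ S.flatten.toFinset (subs S) (finM S) := by
  have supp : ∀ v, 0 < finM S v → v ∈ subs S := look_pos _
  refine ⟨List.nodup_dedup _, supp, by simp [mem_subs], ?_, ?_, ?_⟩
  · intro v hv a ha
    obtain ⟨_, s, h1, h2⟩ := mem_subs.1 hv
    exact List.mem_toFinset.2 ((h2.trans (infix_flatten h1)).subset ha)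
  · intro v hv
    by_cases h : v ∈ subs S
    · rw [finM_eq h]; omega
    · refine le_trans (le_of_eq (Finset.sum_eq_zero fun a _ => ?_)) (Nat.zero_le _)
      by_contra h1
      obtain ⟨_, s, h2, h3⟩ := mem_subs.1 (supp (a :: v) (by omega))
      exact h (mem_subs.2 ⟨hv, s, h2, (List.suffix_cons _ _).isInfix.trans h3⟩)
  · intro v hv
    by_cases h : v ∈ subs S
    · rw [finM_eq h]; omega
    · refine le_trans (le_of_eq (Finset.sum_eq_zero fun a _ => ?_)) (Nat.zero_le _)
      by_contra h1
      obtain ⟨_, s, h2, h3⟩ := mem_subs.1 (supp (v ++ [a]) (by omega))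
      exact h (mem_subs.2 ⟨hv, s, h2, (List.prefix_append _ _).isInfix.trans h3⟩)

theorem spec_fin (S : List Str) : Spec S.flatten.toFinset (subs S) (finM S) (finY S) S := by
  have hC := circ_fin S
  refine ⟨hC, fun s hs => ?_, fun v hv => (mem_subs.1 hv).2, fun p hp => ?_, fun v => ?_,
    fun p hp => ?_, fun y hy => ?_⟩
  · rw [finM_eq (mem_subs.2 ⟨hs.2.1, s, hs.1, List.infix_rfl⟩), if_pos hs]; omega
  · obtain ⟨h1, _, h3⟩ := mem_finY.1 hp
    obtain ⟨h4, _, h5⟩ := mem_newY.1 h3
    obtain ⟨_, s, h6, h7⟩ := mem_subs.1 h4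
    have h8 : p.2 ∈ subs S := mem_subs.2 ⟨List.length_pos_iff.1 h1, s, h6,
      (h5 ▸ (List.drop_suffix _ _).isInfix).trans h7⟩
    rw [finM_eq h8, if_pos (show ∃ y, (y, p.2) ∈ finY S from ⟨p.1, hp⟩)]; omega
  · by_cases h : v ∈ subs S
    · have := finM_eq h
      split_ifs at this with h1 h2 h2
      · by_cases h3 : finM S v ≤ 1
        · exact Or.inr (Or.inr (Or.inl ⟨h3, h1⟩))
        · obtain ⟨y, h2⟩ := h2
          by_cases h4 : finM S v ≤ min (LS S.flatten.toFinset (finM S) v)
            (RS S.flatten.toFinset (finM S) v) + 1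
          · exact Or.inr (Or.inr (Or.inr ⟨y, h2, h4⟩))
          · omega
      · by_cases h3 : finM S v ≤ 1
        · exact Or.inr (Or.inr (Or.inl ⟨h3, h1⟩))
        · omega
      · obtain ⟨y, h2⟩ := h2
        by_cases h4 : finM S v ≤ min (LS S.flatten.toFinset (finM S) v)
          (RS S.flatten.toFinset (finM S) v) + 1
        · exact Or.inr (Or.inr (Or.inr ⟨y, h2, h4⟩))
        · omega
      · omega
    · left
      by_contra h1
      exact h (hC.supp v (by omega))
  · obtain ⟨_, h2, h3⟩ := mem_finY.1 hp
    obtain ⟨_, ⟨h4, h5, h6⟩, h7⟩ := mem_newY.1 h3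
    rw [st1_fst] at h5 h6
    obtain ⟨h8, h9⟩ := h4.congr (k := p.2.length) (finM_agree h2) (finY_agree h2) (by omega)
      (by omega)
    exact ⟨h8, by rw [h9]; exact h7⟩
  · have h1 := hC.wt_pos hy.2.1
    have h2 := hy.2.2.1
    have h3 : y ∈ subs S := by
      rcases hC.mem_of_act hy.2.1 with rfl | h3
      · simp at h2
      · exact h3
    have h4 := length_of_mem_subs h3
    have h5 : y.length - Wt S.flatten.toFinset (subs S) (finM S) y ≤ S.flatten.length := by omega
    obtain ⟨h8, h9⟩ := hy.congr (fun v hv => (finM_agree h5 v hv).symm)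
      (fun p hp => (finY_agree h5 p hp).symm) rfl (by omega)
    refine mem_finY.2 ⟨by simp; omega, by simp only [List.length_drop]; omega, ?_⟩
    simp only [List.length_drop]
    refine mem_newY.2 ⟨h3, ⟨h8, ?_, ?_⟩, by rw [h9]⟩
    · rw [h9, st1_fst]; simp only; omega
    · rw [st1_fst]; simp only; omega

theorem scs_spec (S : List Str) : (∀ s ∈ S, s <:+: scs S) ∧
    ∀ T' : Str, (∀ s ∈ S, s <:+: T') → (scs S).length ≤ 2 * T'.length :=
  (spec_fin S).output_spec fun _ hs _ ha => List.mem_toFinset.2 ((infix_flatten hs).subset ha)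

theorem finM_le (S : List Str) (v : Str) : finM S v ≤ S.flatten.length + 1 := by
  refine ((spec_fin S).le_occ (T := S.flatten) (fun _ => infix_flatten) (by simp) v).trans ?_
  simpa [occ] using List.countP_le_length (l := S.flatten.tails) (p := fun t => decide (v <+: t))

end Crest.Agent.R287
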