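import Crest.Agent.R287.Str

/-! Circulations on the hierarchical graph given by occurrence counts `M`. -/

set_option autoImplicit false

namespace Crest.Agent.R287

section Defs
variable (A : Finset ℕ) (V : List Str) (M : Str → ℕ)

def LS (v : Str) : ℕ := ∑ a ∈ A, M (a :: v)
def RS (v : Str) : ℕ := ∑ b ∈ A, M (v ++ [b])
/-- There is an up arc into `v`. -/
def Up (v : Str) : Prop := LS A M v < M v
/-- There is a down arc out of `v`. -/
def Dn (v : Str) : Prop := RS A M v < M v
/-- There is an arc from `u` to `v`. -/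
def Adj (u v : Str) : Prop := (Up A M v ∧ u = v.dropLast) ∨ (Dn A M u ∧ v = u.tail)
/-- Same connected component. -/
def Cn : Str → Str → Prop := Relation.EqvGen (Adj A M)
/-- Active vertex. -/
def Act (u : Str) : Prop := ∃ v, Adj A M u v ∨ Adj A M v u
open Classical in
/-- Weight of the component of `u`: the number of its up arcs. -/
noncomputable def Wt (u : Str) : ℕ :=
  ((V.filter (fun v => decide (Cn A M u v))).map (fun v => M v - LS A M v)).sum
/-- The component of `u` is expensive. -/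
def Exp (u : Str) : Prop := ∀ v, Cn A M u v → Wt A V M u < v.length
/-- The arcs, with multiplicity. -/
def arcs : List Arc :=
  V.flatMap (fun v => List.replicate (M v - LS A M v) (true, v) ++
    List.replicate (M v - RS A M v) (false, v))

/-- `M` is a feasible count function supported on `V`. -/
structure Circ : Prop where
  nodup : V.Nodup
  supp : ∀ v, 0 < M v → v ∈ V
  nil : [] ∉ V
  letters : ∀ v ∈ V, ∀ a ∈ v, a ∈ A
  ls : ∀ v, v ≠ [] → LS A M v ≤ M v
  rs : ∀ v, v ≠ [] → RS A M v ≤ M v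

end Defs

variable {A : Finset ℕ} {V : List Str} {M : Str → ℕ}

theorem Cn.refl (u : Str) : Cn A M u u := Relation.EqvGen.refl u
theorem Cn.symm {u v : Str} (h : Cn A M u v) : Cn A M v u := Relation.EqvGen.symm _ _ h
theorem Cn.trans {u v w : Str} (h : Cn A M u v) (h' : Cn A M v w) : Cn A M u w :=
  Relation.EqvGen.trans _ _ _ h h'
theorem Adj.cn {u v : Str} (h : Adj A M u v) : Cn A M u v := Relation.EqvGen.rel _ _ h

/-- Induction principle: a predicate preserved by arcs in both directions spreads. -/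
theorem Cn.spread {u v : Str} (h : Cn A M u v) (P : Str → Prop)
    (hP : ∀ a b, Adj A M a b → (P a ↔ P b)) : P u ↔ P v := by
  induction h with
  | rel a b h => exact hP a b h
  | refl => rfl
  | symm a b _ ih => exact ih.symm
  | trans a b c _ _ ih1 ih2 => exact ih1.trans ih2

theorem Cn.ind {u v : Str} (h : Cn A M u v) (P : Str → Prop) (hu : P u)
    (hP : ∀ a b, Cn A M u a → P a → (Adj A M a b ∨ Adj A M b a) → P b) : P v := by
  have := (h.spread (fun a => Cn A M u a ∧ P a) (fun a b hab =>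
    ⟨fun h => ⟨h.1.trans hab.cn, hP a b h.1 h.2 (Or.inl hab)⟩,
     fun h => ⟨h.1.trans hab.cn.symm, hP b a h.1 h.2 (Or.inr hab)⟩⟩)).1 ⟨Cn.refl u, hu⟩
  exact this.2

theorem Cn.act {u v : Str} (h : Cn A M u v) (hu : Act A M u) : Act A M v :=
  h.ind _ hu (fun a _ _ _ h => ⟨a, h.symm⟩)

theorem Cn.eq_or_act {u v : Str} (h : Cn A M u v) : u = v ∨ Act A M v :=
  h.ind (fun v => u = v ∨ Act A M v) (Or.inl rfl) (fun a _ _ _ h => Or.inr ⟨a, h.symm⟩)

theorem Cn.wt {u v : Str} (h : Cn A M u v) : Wt A V M u = Wt A V M v := by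
  unfold Wt
  congr 2
  apply List.filter_congr
  intro w _
  simp only [decide_eq_decide]
  exact ⟨fun h' => h.symm.trans h', fun h' => h.trans h'⟩

theorem Cn.exp {u v : Str} (h : Cn A M u v) (hu : Exp A V M u) : Exp A V M v := fun w hw => by
  rw [← h.wt]; exact hu w (h.trans hw)

theorem Up.adj {v : Str} (h : Up A M v) : Adj A M v.dropLast v := Or.inl ⟨h, rfl⟩
theorem Dn.adj {v : Str} (h : Dn A M v) : Adj A M v v.tail := Or.inr ⟨h, rfl⟩
theorem Up.act {v : Str} (h : Up A M v) : Act A M v := ⟨_, Or.inr h.adj⟩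
theorem Dn.act {v : Str} (h : Dn A M v) : Act A M v := ⟨_, Or.inl h.adj⟩
theorem Up.pos {v : Str} (h : Up A M v) : 0 < M v := lt_of_le_of_lt (Nat.zero_le _) h
theorem Dn.pos {v : Str} (h : Dn A M v) : 0 < M v := lt_of_le_of_lt (Nat.zero_le _) h

namespace Circ

theorem M_nil (h : Circ A V M) : M [] = 0 := by
  by_contra h'
  exact h.nil (h.supp _ (Nat.pos_of_ne_zero h'))

theorem ne_nil (h : Circ A V M) {v : Str} (hv : 0 < M v) : v ≠ [] := by
  rintro rfl; simp [h.M_nil] at hv

theorem le_LS (h : Circ A V M) (a : ℕ) (v : Str) : M (a :: v) ≤ LS A M v := by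
  rcases Nat.eq_zero_or_pos (M (a :: v)) with h0 | h0
  · omega
  · exact Finset.single_le_sum (f := fun a => M (a :: v)) (fun _ _ => Nat.zero_le _)
      (h.letters _ (h.supp _ h0) a List.mem_cons_self)

theorem le_RS (h : Circ A V M) (b : ℕ) (v : Str) : M (v ++ [b]) ≤ RS A M v := by
  rcases Nat.eq_zero_or_pos (M (v ++ [b])) with h0 | h0
  · omega
  · exact Finset.single_le_sum (f := fun b => M (v ++ [b])) (fun _ _ => Nat.zero_le _)
      (h.letters _ (h.supp _ h0) b (by simp))

theorem mem_of_adj (h : Circ A V M) {u v : Str} (huv : Adj A M u v) :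
    (u = [] ∨ u ∈ V) ∧ (v = [] ∨ v ∈ V) := by
  rcases huv with ⟨h1, rfl⟩ | ⟨h1, rfl⟩
  · refine ⟨?_, Or.inr (h.supp _ h1.pos)⟩
    by_cases h2 : v.dropLast = []
    · exact Or.inl h2
    · right
      apply h.supp
      have h3 := h.rs _ h2
      have h4 := h.le_RS (v.getLast (h.ne_nil h1.pos)) v.dropLast
      rw [List.dropLast_append_getLast] at h4
      have := h1.pos
      omega
  · refine ⟨Or.inr (h.supp _ h1.pos), ?_⟩
    by_cases h2 : u.tail = []
    · exact Or.inl h2
    · right
      apply h.supp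
      have h3 := h.ls _ h2
      have h4 := h.le_LS (u.head (h.ne_nil h1.pos)) u.tail
      rw [List.cons_head_tail] at h4
      have := h1.pos
      omega

theorem mem_of_act (h : Circ A V M) {u : Str} (hu : Act A M u) : u = [] ∨ u ∈ V := by
  obtain ⟨v, h1 | h1⟩ := hu
  · exact (h.mem_of_adj h1).1
  · exact (h.mem_of_adj h1).2

theorem mem_arcs (h : Circ A V M) (e : Arc) :
    e ∈ arcs A V M ↔ (e.1 = true ∧ Up A M e.2) ∨ (e.1 = false ∧ Dn A M e.2) := by
  obtain ⟨b, v⟩ := e
  simp only [arcs, List.mem_flatMap, List.mem_append, List.mem_replicate, Prod.mk.injEq, Up, Dn]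
  constructor
  · rintro ⟨w, _, ⟨h1, rfl, rfl⟩ | ⟨h1, rfl, rfl⟩⟩
    · left; exact ⟨rfl, by omega⟩
    · right; exact ⟨rfl, by omega⟩
  · rintro (⟨rfl, h1⟩ | ⟨rfl, h1⟩)
    · exact ⟨v, h.supp _ (by omega), Or.inl ⟨by omega, rfl, rfl⟩⟩
    · exact ⟨v, h.supp _ (by omega), Or.inr ⟨by omega, rfl, rfl⟩⟩

theorem adj_of_mem (h : Circ A V M) {e : Arc} (he : e ∈ arcs A V M) :
    Adj A M (src e) (tgt e) ∧ e.2 ≠ [] := by
  obtain ⟨b, v⟩ := e
  rcases (h.mem_arcs _).1 he with ⟨h1, h2⟩ | ⟨h1, h2⟩
  · simp only at h1 h2; subst h1; exact ⟨h2.adj, h.ne_nil h2.pos⟩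
  · simp only at h1 h2; subst h1; exact ⟨h2.adj, h.ne_nil h2.pos⟩

theorem exists_arc (h : Circ A V M) {u v : Str} (huv : Adj A M u v) :
    ∃ e ∈ arcs A V M, src e = u ∧ tgt e = v := by
  rcases huv with ⟨h1, rfl⟩ | ⟨h1, rfl⟩
  · exact ⟨(true, v), (h.mem_arcs _).2 (Or.inl ⟨rfl, h1⟩), rfl, rfl⟩
  · exact ⟨(false, u), (h.mem_arcs _).2 (Or.inr ⟨rfl, h1⟩), rfl, rfl⟩

theorem sum_dropLast (h : Circ A V M) (f : Str → ℕ) (hf : ∀ v, 0 < f v → v ∈ V) (w : Str) :
    ∑ v ∈ V.toFinset, (if v.dropLast = w then f v else 0) = ∑ b ∈ A, f (w ++ [b]) := by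
  rw [← Finset.sum_filter, ← Finset.sum_image (s := A) (g := fun b => w ++ [b]) (f := f)
    (by intro a _ b _ hab; simpa using hab)]
  apply Finset.sum_subset
  · intro v hv
    simp only [Finset.mem_filter, List.mem_toFinset, Finset.mem_image] at hv ⊢
    have hne : v ≠ [] := by rintro rfl; exact h.nil hv.1
    exact ⟨v.getLast hne, h.letters _ hv.1 _ (List.getLast_mem hne),
      by rw [← hv.2, List.dropLast_append_getLast]⟩
  · intro v hv hv'
    simp only [Finset.mem_filter, List.mem_toFinset, Finset.mem_image] at hv hv'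
    obtain ⟨b, _, rfl⟩ := hv
    by_contra h0
    exact hv' ⟨hf _ (Nat.pos_of_ne_zero h0), by simp⟩

theorem sum_tail (h : Circ A V M) (f : Str → ℕ) (hf : ∀ v, 0 < f v → v ∈ V) (w : Str) :
    ∑ v ∈ V.toFinset, (if v.tail = w then f v else 0) = ∑ a ∈ A, f (a :: w) := by
  rw [← Finset.sum_filter, ← Finset.sum_image (s := A) (g := fun a => a :: w) (f := f)
    (by intro a _ b _ hab; simpa using hab)]
  apply Finset.sum_subset
  · intro v hv
    simp only [Finset.mem_filter, List.mem_toFinset, Finset.mem_image] at hv ⊢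
    have hne : v ≠ [] := by rintro rfl; exact h.nil hv.1
    exact ⟨v.head hne, h.letters _ hv.1 _ (List.head_mem hne),
      by rw [← hv.2, List.cons_head_tail]⟩
  · intro v hv hv'
    simp only [Finset.mem_filter, List.mem_toFinset, Finset.mem_image] at hv hv'
    obtain ⟨b, _, rfl⟩ := hv
    by_contra h0
    exact hv' ⟨hf _ (Nat.pos_of_ne_zero h0), by simp⟩

theorem sum_self (f : Str → ℕ) (hf : ∀ v, 0 < f v → v ∈ V) (w : Str) :
    ∑ v ∈ V.toFinset, (if v = w then f v else 0) = f w := by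
  rw [Finset.sum_ite_eq']
  split_ifs with h1
  · rfl
  · by_contra h0
    exact h1 (List.mem_toFinset.2 (hf _ (by omega)))

theorem countP_arcs (h : Circ A V M) (p : Arc → Bool) :
    (arcs A V M).countP p = ∑ v ∈ V.toFinset, ((if p (true, v) then M v - LS A M v else 0) +
      (if p (false, v) then M v - RS A M v else 0)) := by
  rw [List.sum_toFinset _ h.nodup, arcs, List.countP_flatMap]
  congr 1
  apply List.map_congr_left
  intro v _
  simp [List.countP_replicate]

theorem balanced (h : Circ A V M) :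
    ((arcs A V M).map src).Perm ((arcs A V M).map tgt) := by
  rw [List.perm_iff_count]
  intro w
  rw [List.count_eq_countP, List.count_eq_countP, List.countP_map, List.countP_map,
    h.countP_arcs, h.countP_arcs]
  simp only [Function.comp, src_true, src_false, tgt_true, tgt_false, beq_iff_eq,
    Finset.sum_add_distrib]
  have s1 : ∀ v, 0 < M v - LS A M v → v ∈ V := fun v hv => h.supp v (by omega)
  have s2 : ∀ v, 0 < M v - RS A M v → v ∈ V := fun v hv => h.supp v (by omega)
  rw [h.sum_dropLast _ s1, h.sum_tail _ s2, sum_self _ s1, sum_self _ s2]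
  have e1 : ∑ b ∈ A, (M (w ++ [b]) - LS A M (w ++ [b])) + ∑ b ∈ A, LS A M (w ++ [b]) =
      RS A M w := by
    rw [← Finset.sum_add_distrib]
    apply Finset.sum_congr rfl
    intro b _
    have := h.ls (w ++ [b]) (by simp)
    omega
  have e2 : ∑ a ∈ A, (M (a :: w) - RS A M (a :: w)) + ∑ a ∈ A, RS A M (a :: w) =
      LS A M w := by
    rw [← Finset.sum_add_distrib]
    apply Finset.sum_congr rfl
    intro b _
    have := h.rs (b :: w) (by simp)
    omega
  have e3 : ∑ b ∈ A, LS A M (w ++ [b]) = ∑ a ∈ A, RS A M (a :: w) := by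
    unfold LS RS
    rw [Finset.sum_comm]
    rfl
  by_cases hw : w = []
  · subst hw
    have e4 : LS A M [] = RS A M [] := rfl
    have := h.M_nil
    omega
  · have := h.ls w hw
    have := h.rs w hw
    omega

theorem exists_out (h : Circ A V M) {u : Str} (hu : Act A M u) : ∃ v, Adj A M u v := by
  obtain ⟨v, h1 | h1⟩ := hu
  · exact ⟨v, h1⟩
  · obtain ⟨e, he, _, h3⟩ := h.exists_arc h1
    have : u ∈ (arcs A V M).map src :=
      h.balanced.symm.subset (List.mem_map.2 ⟨e, he, h3⟩)
    obtain ⟨f, hf, rfl⟩ := List.mem_map.1 this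
    exact ⟨_, (h.adj_of_mem hf).1⟩

theorem exists_in (h : Circ A V M) {u : Str} (hu : Act A M u) : ∃ v, Adj A M v u := by
  obtain ⟨v, h1 | h1⟩ := hu
  · obtain ⟨e, he, h3, _⟩ := h.exists_arc h1
    have : u ∈ (arcs A V M).map tgt :=
      h.balanced.subset (List.mem_map.2 ⟨e, he, h3⟩)
    obtain ⟨f, hf, rfl⟩ := List.mem_map.1 this
    exact ⟨_, (h.adj_of_mem hf).1⟩
  · exact ⟨v, h1⟩

/-- Total number of up arcs equals the number of letters counted by `M`. -/
theorem ups_arcs (h : Circ A V M) : ups (arcs A V M) = ∑ a ∈ A, M [a] := by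
  rw [ups, h.countP_arcs]
  simp only [if_true, Bool.false_eq_true, if_false, add_zero]
  have e1 : ∑ v ∈ V.toFinset, (M v - LS A M v) + ∑ v ∈ V.toFinset, LS A M v =
      ∑ v ∈ V.toFinset, M v := by
    rw [← Finset.sum_add_distrib]
    apply Finset.sum_congr rfl
    intro v hv
    have := h.ls v (by rintro rfl; exact h.nil (List.mem_toFinset.1 hv))
    omega
  have e2 : ∀ w, LS A M w = ∑ v ∈ V.toFinset, (if v.tail = w then M v else 0) :=
    fun w => (h.sum_tail M h.supp w).symm
  have e3 : ∑ w ∈ V.toFinset, LS A M w + LS A M [] = ∑ v ∈ V.toFinset, M v := by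
    simp only [e2]
    rw [Finset.sum_comm, ← Finset.sum_add_distrib]
    apply Finset.sum_congr rfl
    intro v hv
    rw [Finset.sum_ite_eq]
    have hne : v ≠ [] := by rintro rfl; exact h.nil (List.mem_toFinset.1 hv)
    by_cases h1 : v.tail = []
    · rw [if_pos h1, if_neg (by rw [h1]; simpa using h.nil)]; simp
    · rw [if_neg h1]
      split_ifs with h2
      · rfl
      · have h3 := h.ls _ h1
        have h4 := h.le_LS (v.head hne) v.tail
        rw [List.cons_head_tail] at h4
        by_contra h5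
        exact h2 (List.mem_toFinset.2 (h.supp _ (by omega)))
  have e4 : LS A M [] = ∑ a ∈ A, M [a] := rfl
  omega

/-- The Euler tour of a component. -/
theorem exists_tour (h : Circ A V M) (s : Str) :
    ∃ es : List Arc, IsWalk src tgt s es s ∧ ups es = Wt A V M s ∧
      (∀ e ∈ es, e ∈ arcs A V M) ∧ ∀ e ∈ arcs A V M, Cn A M s (src e) → e ∈ es := by
  classical
  obtain ⟨h1, ⟨rest, h2, h3⟩, h4⟩ := hier_main (src := src) (tgt := tgt) s _ h.balanced
  generalize (hier src tgt s (arcs A V M)).2.1 = post at h1 h2 h3 h4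
  have hsub : ∀ e ∈ post, e ∈ arcs A V M := fun e he => h2.subset (List.mem_append_left _ he)
  have hX : ∀ v, Cn A M s v → (v = s ∨ ∃ f ∈ post, v = tgt f) := by
    intro v hv
    refine hv.ind (fun v => v = s ∨ ∃ f ∈ post, v = tgt f) (Or.inl rfl) ?_
    intro a b _ ha hab
    rcases hab with hab | hab
    · obtain ⟨e, he, rfl, rfl⟩ := h.exists_arc hab
      exact (h4 e he (Or.inl ha)).2.2
    · obtain ⟨e, he, rfl, rfl⟩ := h.exists_arc hab
      exact (h4 e he (Or.inr ha)).2.1
  have hY : ∀ e ∈ post, Cn A M s (src e) ∧ Cn A M s (tgt e) :=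
    h1.all_tgt _ (fun e he hs => hs.trans (h.adj_of_mem (hsub e he)).1.cn) (Cn.refl s)
  refine ⟨post, h1, ?_, hsub, fun e he hs => (h4 e he (Or.inl (hX _ hs))).1⟩
  have e1 := h2.countP_eq (fun e => e.1 && decide (Cn A M s e.2))
  rw [h.countP_arcs, List.countP_append] at e1
  have e2 : rest.countP (fun e => e.1 && decide (Cn A M s e.2)) = 0 := by
    rw [List.countP_eq_zero]
    rintro ⟨b, v⟩ he
    simp only [Bool.and_eq_true, decide_eq_true_eq, not_and]
    rintro rfl hc
    exact (h3 _ he).2 (hX _ hc)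
  have e3 : post.countP (fun e => e.1 && decide (Cn A M s e.2)) = ups post := by
    apply List.countP_congr
    rintro ⟨b, v⟩ he
    simp only [Bool.and_eq_true, decide_eq_true_eq, and_iff_left_iff_imp]
    rintro rfl
    exact (hY _ he).2
  rw [e2, e3] at e1
  simp only [Bool.true_and, decide_eq_true_eq, Bool.false_and, Bool.false_eq_true, if_false,
    add_zero] at e1
  rw [e1, Wt, ← Finset.sum_filter, ← List.sum_toFinset _ (h.nodup.filter _)]
  congr 1
  ext v
  simp

end Circ

end Crest.Agent.R287
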