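import Crest.Agent.R287.Circ

/-! Expensive components live on the cylinder of a periodic word. -/

set_option autoImplicit false

namespace Crest.Agent.R287

theorem spell_cons_true (w : Str) (es : List Arc) :
    spell ((true, w) :: es) = w.drop (w.length - 1) ++ spell es := by simp [spell]

theorem spell_cons_false (w : Str) (es : List Arc) :
    spell ((false, w) :: es) = spell es := by simp [spell]

theorem IsWalk.length_eq {u v : Str} {es : List Arc} (h : IsWalk src tgt u es v)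
    (hne : ∀ e ∈ es, e.2 ≠ []) :
    v.length + es.length = u.length + 2 * ups es ∧ (spell es).length = ups es := by
  induction es generalizing u with
  | nil => simp at h; simp [h, spell]
  | cons e es ih =>
    obtain ⟨h1, h2⟩ := h
    obtain ⟨b, w⟩ := e
    have hw : 0 < w.length := List.length_pos_iff.2 (hne _ List.mem_cons_self)
    obtain ⟨i1, i2⟩ := ih h2 (fun e he => hne e (List.mem_cons_of_mem _ he))
    cases b
    · simp only [src_false, tgt_false, List.length_tail] at h1 i1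
      subst h1
      simp only [spell_cons_false, List.length_cons, ups_cons_false]
      omega
    · simp only [src_true, tgt_true] at h1 i1
      subst h1
      simp only [spell_cons_true, List.length_cons, ups_cons_true, List.length_append,
        List.length_drop, List.length_dropLast]
      omega

theorem IsWalk.lift {ξ : ℤ → ℕ} {es : List Arc} {l r : ℤ} {v : Str}
    (h : IsWalk src tgt (win ξ l r) es v) (hlr : l ≤ r) (hne : ∀ e ∈ es, e.2 ≠ [])
    (hs : spell es = win ξ r (r + ups es)) :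
    v = win ξ (l + es.length - ups es) (r + ups es) ∧
      ∀ e ∈ es, ∃ l' r', l' < r' ∧ e.2 = win ξ l' r' := by
  induction es generalizing l r with
  | nil => simp at h; simp [h]
  | cons e es ih =>
    obtain ⟨h1, h2⟩ := h
    obtain ⟨b, w⟩ := e
    have hw : w ≠ [] := hne _ List.mem_cons_self
    have hne' : ∀ e ∈ es, e.2 ≠ [] := fun e he => hne e (List.mem_cons_of_mem _ he)
    cases b
    · simp only [src_false, tgt_false] at h1 h2
      have hlt : l < r := by
        by_contra h3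
        apply hw
        rw [h1]
        apply List.eq_nil_of_length_eq_zero
        simp; omega
      rw [h1, win_eq_cons ξ hlt, List.tail_cons] at h2
      obtain ⟨i1, i2⟩ := ih h2 (by omega) hne' (by simpa [spell_cons_false] using hs)
      refine ⟨?_, ?_⟩
      · rw [i1]; simp only [List.length_cons, ups_cons_false]; congr 1; push_cast; ring
      · intro e he
        rcases List.mem_cons.1 he with rfl | he
        · exact ⟨l, r, hlt, h1⟩
        · exact i2 e he
    · simp only [src_true, tgt_true] at h1 h2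
      have hw' : 0 < w.length := List.length_pos_iff.2 hw
      rw [spell_cons_true, ups_cons_true, win_eq_cons ξ (by push_cast; omega)] at hs
      have h3 : (w.drop (w.length - 1)).length = [ξ r].length := by simp; omega
      have h4 := List.append_inj (s₂ := [ξ r]) hs h3
      have h5 : w = win ξ l (r + 1) := by
        rw [win_succ_right ξ hlr, ← h1, ← h4.1, dropLast_append_drop]
      rw [h5] at h2
      obtain ⟨i1, i2⟩ := ih h2 (by omega) hne' (by rw [h4.2]; congr 1; push_cast; ring)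
      refine ⟨?_, ?_⟩
      · rw [i1]; simp only [List.length_cons, ups_cons_true]; congr 1 <;> push_cast <;> ring
      · intro e he
        rcases List.mem_cons.1 he with rfl | he
        · exact ⟨l, r + 1, by omega, h5⟩
        · exact i2 e he

variable {A : Finset ℕ} {V : List Str} {M : Str → ℕ}

theorem Circ.wt_pos (h : Circ A V M) {s : Str} (hs : Act A M s) : 0 < Wt A V M s := by
  obtain ⟨es, h1, h2, h3, h4⟩ := h.exists_tour s
  obtain ⟨v, hv⟩ := h.exists_out hs
  obtain ⟨e, he, rfl, _⟩ := h.exists_arc hv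
  have := List.length_pos_of_mem (h4 e he (Cn.refl _))
  have := (h1.length_eq (fun e he => (h.adj_of_mem (h3 e he)).2)).1
  omega

theorem Circ.tour_win (h : Circ A V M) {ξ : ℤ → ℕ} {l r : ℤ}
    (hW : l + Wt A V M (win ξ l r) ≤ r) :
    (∀ i, l ≤ i → i + Wt A V M (win ξ l r) < r → ξ (i + Wt A V M (win ξ l r)) = ξ i) ∧
    (Per ξ (Wt A V M (win ξ l r)) → ∀ e ∈ arcs A V M, Cn A M (win ξ l r) (src e) →
      ∃ l' r', l' < r' ∧ e.2 = win ξ l' r') := by
  obtain ⟨es, h1, h2, h3, h4⟩ := h.exists_tour (win ξ l r)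
  have hne : ∀ e ∈ es, e.2 ≠ [] := fun e he => (h.adj_of_mem (h3 e he)).2
  obtain ⟨h5, h6⟩ := h1.length_eq hne
  rw [← h2] at hW ⊢
  have hlr : l ≤ r := by omega
  obtain ⟨ζ, hζ⟩ := exists_win (win ξ l r ++ spell es) l
  have hlen : l + ((win ξ l r ++ spell es).length : ℕ) = r + ups es := by
    simp [h6]; omega
  rw [hlen] at hζ
  have e1 : win ζ l r = win ξ l r := by
    have := take_win ζ (l := l) (r := r + ups es) (r - l).toNat (by omega)
    rw [hζ, show l + ((r - l).toNat : ℕ) = r by omega] at this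
    rw [← this, List.take_left' (by simp)]
  have e2 : spell es = win ζ r (r + ups es) := by
    have := drop_win ζ (l := l) (r := r + ups es) (r - l).toNat
    rw [hζ, show l + ((r - l).toNat : ℕ) = r by omega] at this
    rw [← this, List.drop_left' (by simp)]
  have e3 := ((e1 ▸ h1 : IsWalk src tgt (win ζ l r) es (win ζ l r)).lift hlr hne e2).1
  rw [win_eq_iff (by omega)] at e3
  have e4 : ∀ i, l ≤ i → i < r → ζ i = ζ (i + ups es) := by
    intro i a b; rw [e3 i a b]; congr 1; omega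
  have e5 : ∀ i, l ≤ i → i < r → ζ i = ξ i := by
    intro i a b; simpa using (win_eq_iff rfl).1 e1 i a b
  refine ⟨fun i a b => ?_, fun hp e he hc => ?_⟩
  · rw [← e5 _ (by omega) b, ← e4 i a (by omega), e5 i a (by omega)]
  · refine (h1.lift hlr hne ?_).2 e (h4 e he hc)
    rw [e2]
    apply win_congr
    intro i a b
    have := e4 (i - ups es) (by omega) (by omega)
    rw [show i - ups es + ups es = i by ring] at this
    rw [← this, e5 _ (by omega) (by omega), ← hp (i - ups es)]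
    congr 1; ring

/-- `ξ` is a periodic word carrying the expensive active component of `s`. -/
structure Cyl (A : Finset ℕ) (V : List Str) (M : Str → ℕ) (s : Str) (ξ : ℤ → ℕ) : Prop where
  circ : Circ A V M
  act : Act A M s
  exp : Exp A V M s
  per : Per ξ (Wt A V M s)
  mem : ∃ l r, Cn A M s (win ξ l r)

theorem Exp.len {s : Str} (h : Exp A V M s) {ξ : ℤ → ℕ} {l r : ℤ} (hc : Cn A M s (win ξ l r)) :
    l + Wt A V M s < r := by
  have := h _ hc
  simp only [length_win] at this
  omega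

/-- A window in an expensive component has the weight as a period. -/
theorem Circ.per_win (h : Circ A V M) {ξ : ℤ → ℕ} {l r : ℤ} (he : Exp A V M (win ξ l r)) :
    ∀ i, l ≤ i → i + Wt A V M (win ξ l r) < r → ξ (i + Wt A V M (win ξ l r)) = ξ i :=
  (h.tour_win (he.len (Cn.refl _)).le).1

/-- Existence of the cylinder through a given window, agreeing with `ξ` on any larger window on
which `ξ` has the right period. -/
theorem Circ.exists_cyl (h : Circ A V M) {ξ : ℤ → ℕ} {l r a b : ℤ} (ha : Act A M (win ξ l r))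
    (he : Exp A V M (win ξ l r)) (hl : a ≤ l) (hr : r ≤ b)
    (hp : ∀ i, a ≤ i → i + Wt A V M (win ξ l r) < b → ξ (i + Wt A V M (win ξ l r)) = ξ i) :
    ∃ ζ, Cyl A V M (win ξ l r) ζ ∧ ∀ i, a ≤ i → i < b → ζ i = ξ i := by
  obtain ⟨ζ, h1, h2⟩ := exists_per_ext ξ _ (h.wt_pos ha) a b hp
  refine ⟨ζ, ⟨h, ha, he, h1, l, r, ?_⟩, h2⟩
  rw [win_congr (ζ := ξ) (fun i a b => h2 i (by omega) (by omega))]
  exact Cn.refl _

namespace Cyl
variable {s : Str} {ξ : ℤ → ℕ}

theorem wpos (h : Cyl A V M s ξ) : 0 < Wt A V M s := h.circ.wt_pos h.act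

theorem len (h : Cyl A V M s ξ) {l r : ℤ} (hc : Cn A M s (win ξ l r)) :
    l + Wt A V M s < r := h.exp.len hc

theorem of_cn (h : Cyl A V M s ξ) {t : Str} (hc : Cn A M s t) : Cyl A V M t ξ :=
  ⟨h.circ, hc.act h.act, hc.exp h.exp, hc.wt ▸ h.per, by
    obtain ⟨l, r, h1⟩ := h.mem; exact ⟨l, r, hc.symm.trans h1⟩⟩

theorem top_win (h : Cyl A V M s ξ) {v : Str} (hv : Up A M v ∨ Dn A M v) (hc : Cn A M s v) :
    ∃ l r, l < r ∧ v = win ξ l r := by
  obtain ⟨l, r, h1⟩ := h.mem
  have h2 := (h.circ.tour_win (ξ := ξ) (l := l) (r := r)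
    (by rw [← h1.wt]; exact (h.len h1).le)).2 (h1.wt ▸ h.per)
  rcases hv with hv | hv
  · exact h2 (true, v) ((h.circ.mem_arcs _).2 (Or.inl ⟨rfl, hv⟩))
      ((h1.symm.trans hc).trans hv.adj.cn.symm)
  · exact h2 (false, v) ((h.circ.mem_arcs _).2 (Or.inr ⟨rfl, hv⟩)) (h1.symm.trans hc)

theorem align (h : Cyl A V M s ξ) {l r l' r' : ℤ} (hc : Cn A M s (win ξ l r))
    (he : win ξ l r = win ξ l' r') : r - l = r' - l' ∧ ∀ i, ξ i = ξ (i + (l' - l)) := by
  have h1 := h.len hc
  have h2 : r - l = r' - l' := by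
    have := congrArg List.length he
    simp only [length_win] at this
    omega
  refine ⟨h2, ?_⟩
  rw [win_eq_iff h2] at he
  have := Per.ext (ζ := fun i => ξ (i + (l' - l))) h.wpos h.per
    (fun i => by simp only; rw [← h.per (i + (l' - l))]; congr 1; ring) l
    (fun i a b => he i a (by omega))
  exact fun i => congrFun this i

theorem upAl (h : Cyl A V M s ξ) {l r : ℤ} {b : ℕ} (hc : Cn A M s (win ξ l r))
    (hu : Up A M (win ξ l r ++ [b])) : b = ξ r := by
  obtain ⟨l', r', h1, h2⟩ := h.top_win (Or.inl hu) (hc.trans (by simpa using hu.adj.cn))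
  rw [win_eq_concat ξ h1] at h2
  obtain ⟨h3, h4⟩ := List.append_inj' h2 rfl
  obtain ⟨h5, h6⟩ := h.align hc h3
  rw [h6 r, show r + (l' - l) = r' - 1 by omega]
  simpa using h4

theorem dnAl (h : Cyl A V M s ξ) {l r : ℤ} {a : ℕ} (hc : Cn A M s (win ξ l r))
    (hu : Dn A M (a :: win ξ l r)) : a = ξ (l - 1) := by
  obtain ⟨l', r', h1, h2⟩ := h.top_win (Or.inr hu) (hc.trans (by simpa using hu.adj.cn.symm))
  rw [win_eq_cons ξ h1] at h2
  obtain ⟨h3, h4⟩ := List.cons.inj h2
  obtain ⟨h5, h6⟩ := h.align hc h4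
  rw [h6 (l - 1), show l - 1 + (l' + 1 - l) = l' by omega, h3]

theorem out_step (h : Cyl A V M s ξ) {l r : ℤ} (hc : Cn A M s (win ξ l r)) :
    (Dn A M (win ξ l r) ∧ Cn A M s (win ξ (l + 1) r)) ∨
    (Up A M (win ξ l (r + 1)) ∧ Cn A M s (win ξ l (r + 1))) := by
  have hl := h.len hc
  obtain ⟨v, hv⟩ := h.circ.exists_out (hc.act h.act)
  have hv' := hc.trans hv.cn
  rcases hv with ⟨h1, h2⟩ | ⟨h1, h2⟩
  · right
    have hne := h.circ.ne_nil h1.pos
    have h3 : v = win ξ l r ++ [v.getLast hne] := by rw [h2, List.dropLast_append_getLast]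
    have h4 := h.upAl hc (h3 ▸ h1)
    rw [win_succ_right ξ (by omega), ← h4, ← h3]
    exact ⟨h1, hv'⟩
  · left
    rw [h2, win_eq_cons ξ (by omega), List.tail_cons] at hv'
    exact ⟨h1, hv'⟩

theorem in_step (h : Cyl A V M s ξ) {l r : ℤ} (hc : Cn A M s (win ξ l r)) :
    (Dn A M (win ξ (l - 1) r) ∧ Cn A M s (win ξ (l - 1) r)) ∨
    (Up A M (win ξ l r) ∧ Cn A M s (win ξ l (r - 1))) := by
  have hl := h.len hc
  obtain ⟨v, hv⟩ := h.circ.exists_in (hc.act h.act)
  have hv' := hc.trans hv.cn.symm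
  rcases hv with ⟨h1, h2⟩ | ⟨h1, h2⟩
  · right
    rw [h2, win_eq_concat ξ (by omega), List.dropLast_concat] at hv'
    exact ⟨h1, hv'⟩
  · left
    have hne := h.circ.ne_nil h1.pos
    have h3 : v = v.head hne :: win ξ l r := by rw [h2, List.cons_head_tail]
    have h4 := h.dnAl hc (h3 ▸ h1)
    rw [win_pred_left ξ (by omega), ← h4, ← h3]
    exact ⟨h1, hv'⟩

/-- Neighbours of a lifted vertex are lifted neighbours. -/
theorem adj_lift (h : Cyl A V M s ξ) {l r : ℤ} (hc : Cn A M s (win ξ l r)) {v : Str}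
    (hv : Adj A M (win ξ l r) v ∨ Adj A M v (win ξ l r)) :
    v = win ξ (l + 1) r ∨ v = win ξ l (r + 1) ∨ v = win ξ (l - 1) r ∨ v = win ξ l (r - 1) := by
  have hl := h.len hc
  rcases hv with (⟨h1, h2⟩ | ⟨h1, h2⟩) | (⟨h1, h2⟩ | ⟨h1, h2⟩)
  · right; left
    have hne := h.circ.ne_nil h1.pos
    have h3 : v = win ξ l r ++ [v.getLast hne] := by rw [h2, List.dropLast_append_getLast]
    have h4 := h.upAl hc (h3 ▸ h1)
    rw [win_succ_right ξ (by omega), ← h4, ← h3]
  · left
    rw [h2, win_eq_cons ξ (by omega), List.tail_cons]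
  · right; right; right
    rw [h2, win_eq_concat ξ (by omega), List.dropLast_concat]
  · right; right; left
    have hne := h.circ.ne_nil h1.pos
    have h3 : v = v.head hne :: win ξ l r := by rw [h2, List.cons_head_tail]
    have h4 := h.dnAl hc (h3 ▸ h1)
    rw [win_pred_left ξ (by omega), ← h4, ← h3]

theorem lift (h : Cyl A V M s ξ) {v : Str} (hc : Cn A M s v) : ∃ l r, v = win ξ l r := by
  obtain ⟨l, r, h1⟩ := h.mem
  refine (h1.symm.trans hc).ind (fun v => ∃ l r, v = win ξ l r) ⟨l, r, rfl⟩ ?_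
  rintro a b h2 ⟨l', r', rfl⟩ h3
  rcases h.adj_lift (h1.trans h2) h3 with h4 | h4 | h4 | h4 <;> exact ⟨_, _, h4⟩

theorem shift (h : Cyl A V M s ξ) {l r : ℤ} (hc : Cn A M s (win ξ l r)) (j : ℤ) :
    Cn A M s (win ξ (l + j * Wt A V M s) (r + j * Wt A V M s)) := by
  rw [h.per.win_shift]; exact hc

theorem forward_ind (h : Cyl A V M s ξ) (P : ℤ → ℤ → Prop)
    (h1 : ∀ a b, Cn A M s (win ξ a b) → P a b → Cn A M s (win ξ (a + 1) b) → P (a + 1) b)
    (h2 : ∀ a b, Cn A M s (win ξ a b) → P a b → Cn A M s (win ξ a (b + 1)) → P a (b + 1))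
    {l r c : ℤ} (hc : Cn A M s (win ξ l r)) (hP : P l r) (hrc : r ≤ c) :
    ∃ l', l ≤ l' ∧ Cn A M s (win ξ l' c) ∧ P l' c := by
  have key : ∀ n : ℕ, ∀ l r, (r - l).toNat ≤ n → Cn A M s (win ξ l r) → P l r →
      ∃ l', l ≤ l' ∧ Cn A M s (win ξ l' (r + 1)) ∧ P l' (r + 1) := by
    intro n
    induction n with
    | zero => intro l r a b; have := h.len b; omega
    | succ n ih =>
      intro l r a b c
      rcases h.out_step b with ⟨_, d⟩ | ⟨_, d⟩
      · obtain ⟨l', e1, e2⟩ := ih (l + 1) r (by omega) d (h1 _ _ b c d)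
        exact ⟨l', by omega, e2⟩
      · exact ⟨l, le_rfl, d, h2 _ _ b c d⟩
  induction c, hrc using Int.le_induction with
  | base => exact ⟨l, le_rfl, hc, hP⟩
  | succ c _ ih =>
    obtain ⟨l', e1, e2, e3⟩ := ih
    obtain ⟨l'', e4, e5⟩ := key _ l' c le_rfl e2 e3
    exact ⟨l'', by omega, e5⟩

theorem forward (h : Cyl A V M s ξ) {l r c : ℤ} (hc : Cn A M s (win ξ l r)) (hrc : r ≤ c) :
    ∃ l', l ≤ l' ∧ Cn A M s (win ξ l' c) := by
  obtain ⟨l', h1, h2, _⟩ := h.forward_ind (fun _ _ => True) (by simp) (by simp) hc trivial hrc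
  exact ⟨l', h1, h2⟩

theorem backward (h : Cyl A V M s ξ) {l r a : ℤ} (hc : Cn A M s (win ξ l r)) (hal : a ≤ l) :
    ∃ r', r' ≤ r ∧ Cn A M s (win ξ a r') := by
  have key : ∀ n : ℕ, ∀ l r, (r - l).toNat ≤ n → Cn A M s (win ξ l r) →
      ∃ r', r' ≤ r ∧ Cn A M s (win ξ (l - 1) r') := by
    intro n
    induction n with
    | zero => intro l r a b; have := h.len b; omega
    | succ n ih =>
      intro l r a b
      rcases h.in_step b with ⟨_, d⟩ | ⟨_, d⟩
      · exact ⟨r, le_rfl, d⟩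
      · obtain ⟨r', e1, e2⟩ := ih l (r - 1) (by omega) d
        exact ⟨r', by omega, e2⟩
  induction a, hal using Int.le_induction_down with
  | base => exact ⟨r, le_rfl, hc⟩
  | pred c _ ih =>
    obtain ⟨r', e1, e2⟩ := ih
    obtain ⟨r'', e4, e5⟩ := key _ c r' le_rfl e2
    exact ⟨r'', by omega, e5⟩

theorem exists_first (h : Cyl A V M s ξ) (a : ℤ) :
    ∃ c, Cn A M s (win ξ a c) ∧ ∀ c', Cn A M s (win ξ a c') → c ≤ c' := by
  obtain ⟨l, r, h1⟩ := h.mem
  obtain ⟨j, h2, _⟩ := exists_shift _ h.wpos a l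
  obtain ⟨r', _, h3⟩ := h.backward (h.shift h1 j) h2
  classical
  exact Int.exists_least_of_bdd (P := fun c => Cn A M s (win ξ a c))
    ⟨a, fun z hz => by have := h.len hz; omega⟩ ⟨r', h3⟩

theorem exists_last (h : Cyl A V M s ξ) (c : ℤ) :
    ∃ a, Cn A M s (win ξ a c) ∧ ∀ a', Cn A M s (win ξ a' c) → a' ≤ a := by
  obtain ⟨l, r, h1⟩ := h.mem
  obtain ⟨j, _, h2⟩ := exists_shift _ h.wpos (c - Wt A V M s) r
  obtain ⟨l', _, h3⟩ := h.forward (c := c) (h.shift h1 j) (by omega)
  classical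
  exact Int.exists_greatest_of_bdd (P := fun a => Cn A M s (win ξ a c))
    ⟨c, fun z hz => by have := h.len hz; omega⟩ ⟨l', h3⟩

theorem exists_top (h : Cyl A V M s ξ) :
    ∃ q, Cn A M s q ∧ Up A M q ∧ Dn A M q := by
  classical
  have hV : ∀ v, Cn A M s v → v ∈ V := by
    intro v hv
    rcases h.circ.mem_of_act (hv.act h.act) with rfl | h1
    · have := h.exp _ hv; simp at this
    · exact h1
  obtain ⟨q, h1, h2⟩ := Finset.exists_max_image (V.toFinset.filter (fun v => Cn A M s v))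
    List.length ⟨s, by simp [hV s (Cn.refl s), Cn.refl]⟩
  simp only [Finset.mem_filter, List.mem_toFinset, and_imp] at h1 h2
  obtain ⟨l, r, rfl⟩ := h.lift h1.2
  have hl := h.len h1.2
  refine ⟨_, h1.2, ?_, ?_⟩
  · rcases h.in_step h1.2 with ⟨_, d⟩ | ⟨d, _⟩
    · have := h2 _ (hV _ d) d
      simp only [length_win] at this; omega
    · exact d
  · rcases h.out_step h1.2 with ⟨d, _⟩ | ⟨_, d⟩
    · exact d
    · have := h2 _ (hV _ d) d
      simp only [length_win] at this; omega

/-- A position that contains a vertex of the component but is not within reach of it lies above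
the whole component. -/
theorem above (h : Cyl A V M s ξ) {a b : ℤ}
    (hn : ∀ l r, Cn A M s (win ξ l r) → l ≤ a → a ≤ l + Wt A V M s → r ≤ b →
      r + Wt A V M s < b)
    {l₀ r₀ : ℤ} (h0 : Cn A M s (win ξ l₀ r₀)) (ha : a ≤ l₀) (hb : r₀ ≤ b) :
    ∀ l r, Cn A M s (win ξ l r) → l ≤ a → r < b := by
  have hW := h.wpos
  obtain ⟨r₁, h1, h2⟩ := h.backward h0 ha
  have key : ∀ v, Cn A M s v → ∃ l r, v = win ξ l r ∧ l ≤ a ∧ a < l + Wt A V M s ∧
      r + Wt A V M s < b := by
    intro v hv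
    refine (h2.symm.trans hv).ind (fun v => ∃ l r, v = win ξ l r ∧ l ≤ a ∧
      a < l + Wt A V M s ∧ r + Wt A V M s < b)
      ⟨a, r₁, rfl, le_rfl, by omega, hn _ _ h2 le_rfl (by omega) (by omega)⟩ ?_
    rintro u w h3 ⟨l, r, rfl, h4, h5, h6⟩ h7
    have h8 := h2.trans h3
    have h9 : Cn A M s w := by
      rcases h7 with h7 | h7
      · exact h8.trans h7.cn
      · exact h8.trans h7.cn.symm
    rcases h.adj_lift h8 h7 with rfl | rfl | rfl | rfl
    · by_cases h10 : l + 1 ≤ a
      · exact ⟨l + 1, r, rfl, h10, by omega, h6⟩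
      · exact ⟨l + 1 + (-1) * Wt A V M s, r + (-1) * Wt A V M s,
          (h.per.win_shift _ _ _).symm, by omega, by omega, by omega⟩
    · exact ⟨l, r + 1, rfl, h4, h5, hn _ _ h9 h4 (by omega) (by omega)⟩
    · by_cases h10 : a < l - 1 + Wt A V M s
      · exact ⟨l - 1, r, rfl, by omega, h10, h6⟩
      · exact ⟨l - 1 + 1 * Wt A V M s, r + 1 * Wt A V M s,
          (h.per.win_shift _ _ _).symm, by omega, by omega,
          hn _ _ (h.shift h9 1) (by omega) (by omega) (by omega)⟩
    · exact ⟨l, r - 1, rfl, h4, h5, by omega⟩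
  intro l r h3 h4
  obtain ⟨l', r', h5, h6, h7, h8⟩ := key _ h3
  have h9 := (h.align h3 h5).1
  omega

end Cyl

end Crest.Agent.R287
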