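import Mathlib

/-! Hierholzer's algorithm on a list of arcs: a closed walk that exhausts every visited vertex. -/

set_option autoImplicit false

namespace Crest.Agent.R287

section Walk
variable {α β : Type} (src tgt : α → β)

/-- `IsWalk u es v`: the arcs `es` form a walk from `u` to `v`. -/
def IsWalk : β → List α → β → Prop
  | u, [], v => u = v
  | u, e :: es, v => src e = u ∧ IsWalk (tgt e) es v

variable {src tgt}

@[simp] theorem isWalk_nil {u v : β} : IsWalk src tgt u [] v ↔ u = v := Iff.rfl

@[simp] theorem isWalk_cons {u v : β} {e : α} {es : List α} :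
    IsWalk src tgt u (e :: es) v ↔ src e = u ∧ IsWalk src tgt (tgt e) es v := Iff.rfl

theorem IsWalk.append {u v w : β} {es fs : List α} (h : IsWalk src tgt u es v)
    (h' : IsWalk src tgt v fs w) : IsWalk src tgt u (es ++ fs) w := by
  induction es generalizing u with
  | nil => simp at h; subst h; simpa using h'
  | cons e es ih => exact ⟨h.1, ih h.2⟩

theorem IsWalk.perm {u v : β} {es : List α} (h : IsWalk src tgt u es v) :
    (v :: es.map src).Perm (u :: es.map tgt) := by
  induction es generalizing u with
  | nil => simp at h; subst h; simp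
  | cons e es ih =>
    obtain ⟨h1, h2⟩ := h
    have := ih h2
    simp only [List.map_cons]
    rw [h1]
    exact (List.Perm.swap _ _ _).trans (this.cons u)

theorem IsWalk.balanced {u : β} {es : List α} (h : IsWalk src tgt u es u) :
    (es.map src).Perm (es.map tgt) := (List.perm_cons u).1 h.perm

theorem IsWalk.closed {u v : β} {es : List α} (h : IsWalk src tgt u es v) (X : β → Prop)
    (hX : ∀ e ∈ es, X (src e) → X (tgt e)) (hu : X u) : X v := by
  induction es generalizing u with
  | nil => simp at h; subst h; exact hu
  | cons e es ih =>
    obtain ⟨h1, h2⟩ := h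
    exact ih h2 (fun f hf => hX f (List.mem_cons_of_mem _ hf))
      (hX e List.mem_cons_self (h1 ▸ hu))

theorem IsWalk.all_tgt {u v : β} {es : List α} (h : IsWalk src tgt u es v) (X : β → Prop)
    (hX : ∀ e ∈ es, X (src e) → X (tgt e)) (hu : X u) : ∀ e ∈ es, X (src e) ∧ X (tgt e) := by
  induction es generalizing u with
  | nil => simp
  | cons e es ih =>
    obtain ⟨h1, h2⟩ := h
    have h3 := hX e List.mem_cons_self (h1 ▸ hu)
    intro f hf
    rcases List.mem_cons.1 hf with rfl | hf
    · exact ⟨h1 ▸ hu, h3⟩
    · exact ih h2 (fun f hf => hX f (List.mem_cons_of_mem _ hf)) h3 f hf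

theorem IsWalk.src_mem {u v : β} {es : List α} (h : IsWalk src tgt u es v) :
    ∀ e ∈ es, src e = u ∨ ∃ f ∈ es, src e = tgt f := by
  induction es generalizing u with
  | nil => simp
  | cons e es ih =>
    obtain ⟨h1, h2⟩ := h
    intro f hf
    rcases List.mem_cons.1 hf with rfl | hf
    · exact Or.inl h1
    · rcases ih h2 f hf with h | ⟨g, hg, h⟩
      · exact Or.inr ⟨e, List.mem_cons_self, h⟩
      · exact Or.inr ⟨g, List.mem_cons_of_mem _ hg, h⟩

end Walk

section Hier
variable {α β : Type} [DecidableEq α] [DecidableEq β] (src tgt : α → β)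

/-- The current vertex: the end of the (reversed) stack. -/
def curV (s : β) (pre : List α) : β := (pre.head?.map tgt).getD s

/-- One step of Hierholzer's algorithm on the state (stack, finished circuit, unused arcs). -/
def hstep (s : β) (st : List α × List α × List α) : List α × List α × List α :=
  match st.2.2.find? (fun e => decide (src e = curV tgt s st.1)) with
  | some e => (e :: st.1, st.2.1, st.2.2.erase e)
  | none => (st.1.tail, st.1.take 1 ++ st.2.1, st.2.2)

/-- The circuit found by Hierholzer's algorithm from `s` in the arc list `E`. -/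
def hier (s : β) (E : List α) : List α × List α × List α :=
  (hstep src tgt s)^[2 * E.length] ([], [], E)

variable {src tgt}

/-- The invariant of the algorithm. -/
structure HInv (s : β) (E : List α) (st : List α × List α × List α) : Prop where
  pre : IsWalk src tgt s st.1.reverse (curV tgt s st.1)
  post : ∃ t, IsWalk src tgt t st.2.1 s ∧
    (t :: st.2.2.map src).Perm (curV tgt s st.1 :: st.2.2.map tgt)
  perm : (st.1 ++ st.2.1 ++ st.2.2).Perm E
  done : ∀ e ∈ st.2.2, ∀ f ∈ st.2.1, src e ≠ tgt f

omit [DecidableEq α] [DecidableEq β] in
theorem isWalk_snoc {u v : β} {es : List α} {e : α} :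
    IsWalk src tgt u (es ++ [e]) v ↔ IsWalk src tgt u es (src e) ∧ tgt e = v := by
  induction es generalizing u with
  | nil => simp [eq_comm]
  | cons f es ih => simp [ih, and_assoc]

theorem HInv.step {s : β} {E : List α} {st : List α × List α × List α}
    (h : HInv (src := src) (tgt := tgt) s E st) :
    HInv (src := src) (tgt := tgt) s E (hstep src tgt s st) := by
  obtain ⟨pre, post, rest⟩ := st
  obtain ⟨h1, ⟨t, h2, h3⟩, h4, h5⟩ := h
  simp only at h1 h2 h3 h4 h5
  unfold hstep
  cases hf : rest.find? (fun e => decide (src e = curV tgt s pre)) with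
  | some e =>
    have he : e ∈ rest := List.mem_of_find?_eq_some hf
    have hs : src e = curV tgt s pre := by simpa using List.find?_some hf
    have hp : rest.Perm (e :: rest.erase e) := List.perm_cons_erase he
    simp only
    refine ⟨?_, ⟨t, h2, ?_⟩, ?_, ?_⟩
    · simp only [List.reverse_cons, isWalk_snoc]
      exact ⟨hs ▸ h1, by simp [curV]⟩
    · have a1 := hp.map src
      have a2 := hp.map tgt
      simp only [List.map_cons] at a1 a2
      have a3 : (t :: src e :: (rest.erase e).map src).Perm
          (curV tgt s pre :: tgt e :: (rest.erase e).map tgt) :=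
        ((a1.cons t).symm.trans h3).trans (a2.cons _)
      rw [hs] at a3
      have a4 := (List.Perm.swap _ _ _).trans a3
      have a5 := (List.perm_cons _).1 a4
      simpa [curV] using a5
    · refine List.Perm.trans ?_ h4
      simp only [List.cons_append, List.append_assoc]
      refine List.Perm.trans ?_ (((hp.symm).append_left post).append_left pre)
      refine List.Perm.trans ?_ ((List.perm_middle.symm).append_left pre)
      exact List.perm_middle.symm
    · intro a ha
      exact h5 a (List.mem_of_mem_erase ha)
  | none =>
    have hn : ∀ e ∈ rest, src e ≠ curV tgt s pre := by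
      simpa using hf
    have ht : t = curV tgt s pre := by
      have : curV tgt s pre ∈ t :: rest.map src := h3.symm.subset List.mem_cons_self
      rcases List.mem_cons.1 this with h | h
      · exact h.symm
      · obtain ⟨e, he, h⟩ := List.mem_map.1 h
        exact absurd h (hn e he)
    simp only
    cases pre with
    | nil => exact ⟨by simpa using h1, ⟨t, by simpa using h2, by simpa using h3⟩,
        by simpa using h4, by simpa using h5⟩
    | cons e pre =>
      simp only [List.reverse_cons, isWalk_snoc] at h1
      have hc : curV tgt s (e :: pre) = tgt e := by simp [curV]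
      have hw : src e = curV tgt s pre := by
        have h6 := h1.1
        cases pre with
        | nil => simp at h6; simp [curV, h6]
        | cons f pre =>
          simp only [List.reverse_cons, isWalk_snoc] at h6
          simp [curV, h6.2]
      refine ⟨?_, ⟨src e, ?_, ?_⟩, ?_, ?_⟩
      · simpa [← hw] using h1.1
      · simp only [List.take_succ_cons, List.take_zero, List.cons_append, List.nil_append,
          isWalk_cons, true_and]
        rw [← hc, ← ht]; exact h2
      · simp only [List.tail_cons]
        rw [ht] at h3
        rw [hw]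
        exact ((List.perm_cons _).1 h3).cons _
      · refine List.Perm.trans ?_ h4
        simp only [List.tail_cons, List.take_succ_cons, List.take_zero, List.cons_append,
          List.nil_append, List.append_assoc]
        exact List.perm_middle
      · intro a ha f hf
        simp only [List.take_succ_cons, List.take_zero, List.cons_append, List.nil_append,
          List.mem_cons] at hf
        rcases hf with rfl | hf
        · rw [← hc]; exact hn a ha
        · exact h5 a ha f hf

/-- The state is final. -/
def HFin (s : β) (st : List α × List α × List α) : Prop :=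
  st.1 = [] ∧ ∀ e ∈ st.2.2, src e ≠ s

theorem hstep_measure (s : β) (st : List α × List α × List α) :
    (HFin (src := src) s st ∧ hstep src tgt s st = st) ∨
    2 * (hstep src tgt s st).2.2.length + (hstep src tgt s st).1.length + 1 ≤
      2 * st.2.2.length + st.1.length := by
  obtain ⟨pre, post, rest⟩ := st
  unfold hstep
  cases hf : rest.find? (fun e => decide (src e = curV tgt s pre)) with
  | some e =>
    right
    have he : e ∈ rest := List.mem_of_find?_eq_some hf
    have := List.length_erase_of_mem he
    have := List.length_pos_of_mem he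
    simp only [List.length_cons]
    omega
  | none =>
    simp only
    cases pre with
    | nil =>
      left
      refine ⟨⟨rfl, ?_⟩, by simp⟩
      intro e he
      have := List.find?_eq_none.1 hf e he
      intro h
      exact this (decide_eq_true (by simpa [curV] using h))
    | cons e pre => right; simp

theorem hiter_fin (s : β) (n : ℕ) (st : List α × List α × List α)
    (h : 2 * st.2.2.length + st.1.length ≤ n) :
    HFin (src := src) s ((hstep src tgt s)^[n] st) := by
  induction n generalizing st with
  | zero =>
    obtain ⟨pre, post, rest⟩ := st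
    simp only [Nat.le_zero, Nat.add_eq_zero_iff, Nat.mul_eq_zero, List.length_eq_zero_iff] at h
    simp [HFin, h.2, show rest = [] by simpa using h.1]
  | succ n ih =>
    rcases hstep_measure (src := src) (tgt := tgt) s st with ⟨h1, h2⟩ | h1
    · rw [Function.iterate_fixed h2]; exact h1
    · rw [Function.iterate_succ_apply]; exact ih _ (by omega)

theorem hier_spec (s : β) (E : List α) (hE : (E.map src).Perm (E.map tgt)) :
    IsWalk src tgt s (hier src tgt s E).2.1 s ∧
    ((hier src tgt s E).2.1 ++ (hier src tgt s E).2.2).Perm E ∧
    (∀ e ∈ (hier src tgt s E).2.2,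
      src e ≠ s ∧ tgt e ≠ s ∧ ∀ f ∈ (hier src tgt s E).2.1, src e ≠ tgt f ∧ tgt e ≠ tgt f) := by
  have hinv : HInv (src := src) (tgt := tgt) s E (hier src tgt s E) := by
    unfold hier
    generalize 2 * E.length = n
    induction n with
    | zero => exact ⟨by simp [curV], ⟨s, by simp, by simpa [curV] using hE⟩, by simp, by simp⟩
    | succ n ih => rw [Function.iterate_succ_apply']; exact ih.step
  have hfin : HFin (src := src) s (hier src tgt s E) := hiter_fin s _ _ (by simp)
  generalize hier src tgt s E = st at hinv hfin
  obtain ⟨pre, post, rest⟩ := st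
  obtain ⟨h1, ⟨t, h2, h3⟩, h4, h5⟩ := hinv
  obtain ⟨h6, h7⟩ := hfin
  simp only at h1 h2 h3 h4 h5 h6 h7 ⊢
  subst h6
  have hc : curV tgt s ([] : List α) = s := by simp [curV]
  rw [hc] at h3
  have ht : t = s := by
    have : s ∈ t :: rest.map src := h3.symm.subset List.mem_cons_self
    rcases List.mem_cons.1 this with h | h
    · exact h.symm
    · obtain ⟨e, he, h⟩ := List.mem_map.1 h
      exact absurd h (h7 e he)
  subst ht
  have h8 := (List.perm_cons _).1 h3
  have h9 : ∀ e ∈ rest, ∃ g ∈ rest, src g = tgt e := by
    intro e he
    have : tgt e ∈ rest.map src := h8.symm.subset (List.mem_map_of_mem he)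
    simpa using this
  refine ⟨h2, by simpa using h4, fun e he => ⟨h7 e he, ?_, fun f hf => ⟨h5 e he f hf, ?_⟩⟩⟩
  · obtain ⟨g, hg, h⟩ := h9 e he
    rw [← h]; exact h7 g hg
  · obtain ⟨g, hg, h⟩ := h9 e he
    rw [← h]; exact h5 g hg f hf

/-- Summary: a closed walk `post` from `s` whose arcs form a sub-multiset of `E`, such that every
arc of `E` touching a visited vertex has all its copies in `post`. -/
theorem hier_main (s : β) (E : List α) (hE : (E.map src).Perm (E.map tgt)) :
    let post := (hier src tgt s E).2.1
    let X : β → Prop := fun v => v = s ∨ ∃ f ∈ post, v = tgt f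
    IsWalk src tgt s post s ∧ (∃ rest, (post ++ rest).Perm E ∧
      ∀ e ∈ rest, ¬ X (src e) ∧ ¬ X (tgt e)) ∧
    (∀ e ∈ E, (X (src e) ∨ X (tgt e)) → e ∈ post ∧ X (src e) ∧ X (tgt e)) := by
  intro post X
  obtain ⟨h1, h2, h3⟩ := hier_spec (src := src) (tgt := tgt) s E hE
  have h4 : ∀ e ∈ (hier src tgt s E).2.2, ¬ X (src e) ∧ ¬ X (tgt e) := by
    intro e he
    obtain ⟨a, b, c⟩ := h3 e he
    constructor
    · rintro (h | ⟨f, hf, h⟩)
      · exact a h
      · exact (c f hf).1 h
    · rintro (h | ⟨f, hf, h⟩)
      · exact b h
      · exact (c f hf).2 h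
  refine ⟨h1, ⟨_, h2, h4⟩, fun e he hX => ?_⟩
  have : e ∈ post := by
    rcases List.mem_append.1 (h2.symm.subset he) with h | h
    · exact h
    · rcases hX with hX | hX
      · exact absurd hX (h4 e h).1
      · exact absurd hX (h4 e h).2
  exact ⟨this, h1.src_mem e this, Or.inr ⟨e, this, rfl⟩⟩

end Hier

end Crest.Agent.R287
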