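import Crest.Agent.R287.Geo

/-! Phase 1 never counts more occurrences than a superstring has. -/

set_option autoImplicit false

namespace Crest.Agent.R287

variable {S : List Str} {A : Finset ℕ} {V : List Str} {M : Str → ℕ} {Y : List (Str × Str)}
  {T : Str} {k : ℕ}

/-- The induction hypothesis above level `k`. -/
structure IH (A : Finset ℕ) (M : Str → ℕ) (T : Str) (k : ℕ) : Prop where
  letters : ∀ a ∈ T, a ∈ A
  le : ∀ v : Str, k < v.length → M v ≤ occ T v

namespace IH

theorem mono (h : IH A M T k) {k' : ℕ} (hk : k ≤ k') : IH A M T k' :=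
  ⟨h.letters, fun v hv => h.le v (by omega)⟩

theorem ls_le (h : IH A M T k) {v : Str} (hv : k ≤ v.length) :
    LS A M v + (if v <+: T then 1 else 0) ≤ occ T v := by
  rw [occ_left A T v h.letters]
  exact Nat.add_le_add_right (Finset.sum_le_sum fun a _ => h.le _ (by simp; omega)) _

theorem rs_le (h : IH A M T k) {v : Str} (hv : k ≤ v.length) : RS A M v ≤ occ T v :=
  le_trans (Finset.sum_le_sum fun a _ => h.le _ (by simp; omega)) (occ_right A T v)

theorem ls_lt (h : IH A M T k) {v : Str} (hv : k ≤ v.length) {a : ℕ}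
    (hE : M (a :: v) < occ T (a :: v)) : LS A M v < occ T v := by
  rw [occ_left A T v h.letters]
  refine lt_of_lt_of_le (Finset.sum_lt_sum (fun a _ => h.le _ (by simp; omega)) ⟨a, ?_, hE⟩)
    (Nat.le_add_right _ _)
  exact h.letters a ((occ_pos_iff.1 (by omega : 0 < occ T (a :: v))).subset List.mem_cons_self)

theorem rs_lt (h : IH A M T k) {v : Str} (hv : k ≤ v.length) {b : ℕ}
    (hE : M (v ++ [b]) < occ T (v ++ [b])) : RS A M v < occ T v := by
  refine lt_of_lt_of_le (Finset.sum_lt_sum (fun a _ => h.le _ (by simp; omega)) ⟨b, ?_, hE⟩)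
    (occ_right A T v)
  exact h.letters b ((occ_pos_iff.1 (by omega : 0 < occ T (v ++ [b]))).subset (by simp))

theorem colDesc (h : IH A M T k) (ξ : ℤ → ℕ) (z : Str) {a a' c : ℤ} (ha : a ≤ a') (hc : a' ≤ c)
    (hk : a' + k ≤ c + z.length) (hE : M (win ξ a c ++ z) < occ T (win ξ a c ++ z))
    (hU : ∀ i, a < i → i ≤ a' → ¬ Up A M (win ξ i c ++ z)) :
    M (win ξ a' c ++ z) < occ T (win ξ a' c ++ z) := by
  induction a', ha using Int.leInduction with
  | base => exact hE
  | succ i hi ih =>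
    have h1 := ih (by omega) (by omega) (fun j j1 j2 => hU j j1 (by omega))
    rw [win_eq_cons ξ (by omega), List.cons_append] at h1
    have h2 := h.ls_lt (by simp; omega) h1
    have h3 := hU (i + 1) (by omega) le_rfl
    unfold Up at h3
    omega

theorem rowDesc (h : IH A M T k) (ξ : ℤ → ℕ) (z : Str) {a c c' : ℤ} (hc : c' ≤ c) (ha : a ≤ c')
    (hk : a + k ≤ c' + z.length) (hE : M (z ++ win ξ a c) < occ T (z ++ win ξ a c))
    (hD : ∀ i, c' ≤ i → i < c → ¬ Dn A M (z ++ win ξ a i)) :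
    M (z ++ win ξ a c') < occ T (z ++ win ξ a c') := by
  induction c, hc using Int.leInduction with
  | base => exact hE
  | succ i hi ih =>
    apply ih _ (fun j j1 j2 => hD j j1 (by omega))
    rw [win_succ_right ξ (by omega), ← List.append_assoc] at hE
    have h2 := h.rs_lt (by simp; omega) hE
    have h3 := hD i hi (by omega)
    unfold Dn at h3
    omega

end IH

section Claims
variable (A M T)

def ClaimL (y : Str) (ξ : ℤ → ℕ) : Prop :=
  ∃ a c, Cn A M y (win ξ a c) ∧ (∀ c', Cn A M y (win ξ a c') → c ≤ c') ∧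
    ((∃ a', a' ≠ ξ (a - 1) ∧ M (a' :: win ξ a c) < occ T (a' :: win ξ a c)) ∨ win ξ a c <+: T)

def ClaimR (y : Str) (ξ : ℤ → ℕ) : Prop :=
  ∃ a c, Cn A M y (win ξ a c) ∧ (∀ a', Cn A M y (win ξ a' c) → a' ≤ a) ∧
    ∃ b', b' ≠ ξ c ∧ M (win ξ a c ++ [b']) < occ T (win ξ a c ++ [b'])

variable (V)

def Claim (y : Str) : Prop := ∀ ξ, Cyl A V M y ξ → ClaimL A M T y ξ ∨ ClaimR A M T y ξ

end Claims

namespace Seed
variable {y : Str} {ξ : ℤ → ℕ}

theorem lvl (hs : Seed A V M Y y) {a b : ℤ} (hc : Cn A M y (win ξ a b)) :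
    (y.length : ℤ) ≤ b - a := by
  have := hs.1.le hc
  have := hs.2.2.1
  simp only [length_win] at *
  omega

theorem toClaimL (hs : Seed A V M Y y) (h : Cyl A V M y ξ) (ih : IH A M T k) (hk : k ≤ y.length)
    {a b : ℤ} {a' : ℕ} (ho : Over A M y (win ξ a b)) (ha : a' ≠ ξ (a - 1))
    (hE : M (a' :: win ξ a b) < occ T (a' :: win ξ a b))
    (hD : ∀ i, i < b → Over A M y (win ξ a i) → ¬ Dn A M (a' :: win ξ a i)) :
    ClaimL A M T y ξ := by
  obtain ⟨c, h1, h2⟩ := h.exists_first a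
  obtain ⟨b', h3, h4⟩ := h.over_row ho
  have := h2 _ h4
  have := hs.lvl h1
  exact ⟨a, c, h1, h2, Or.inl ⟨a', ha, ih.rowDesc ξ [a'] (by omega) (by omega) (by simp; omega) hE
    (fun i i1 i2 => hD i i2 (Over.of_pos h1 le_rfl i1))⟩⟩

theorem toClaimL' (h : Cyl A V M y ξ) {a b : ℤ} (ho : Over A M y (win ξ a b))
    (hp : win ξ a b <+: T) : ClaimL A M T y ξ := by
  obtain ⟨c, h1, h2⟩ := h.exists_first a
  obtain ⟨b', h3, h4⟩ := h.over_row ho
  have := h2 _ h4
  exact ⟨a, c, h1, h2, Or.inr ((win_prefix ξ (by omega)).trans hp)⟩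

theorem toClaimR (hs : Seed A V M Y y) (h : Cyl A V M y ξ) (ih : IH A M T k) (hk : k ≤ y.length)
    {a c : ℤ} {b' : ℕ} (ho : Over A M y (win ξ a c)) (hb : b' ≠ ξ c)
    (hE : M (win ξ a c ++ [b']) < occ T (win ξ a c ++ [b']))
    (hU : ∀ i, a < i → Over A M y (win ξ i c) → ¬ Up A M (win ξ i c ++ [b'])) :
    ClaimR A M T y ξ := by
  obtain ⟨a₁, h1, h2⟩ := h.exists_last c
  obtain ⟨a₂, h3, h4⟩ := h.over_col ho
  have := h2 _ h4
  have := hs.lvl h1
  exact ⟨a₁, c, h1, h2, b', hb, ih.colDesc ξ [b'] (by omega) (by omega) (by simp; omega) hE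
    (fun i i1 i2 => hU i i1 (Over.of_pos h1 i2 le_rfl))⟩

theorem start (hs : Seed A V M Y y) (h : Cyl A V M y ξ) (ih : IH A M T k) (hk : k ≤ y.length)
    (hc : ClaimL A M T y ξ ∨ ClaimR A M T y ξ) :
    ∃ a c, Cn A M y (win ξ a c) ∧ ¬ Over A M y (win ξ (a + 1) (c - 1)) ∧
      M (win ξ a c) < occ T (win ξ a c) := by
  rcases hc with ⟨a, c, h1, h2, h3⟩ | ⟨a, c, h1, h2, b', _, h3⟩
  · have h4 := hs.lvl h1
    have h5 := h.len h1
    refine ⟨a, c, h1, fun h6 => ?_, ?_⟩
    · obtain ⟨b', h7, h8⟩ := h.over_row (a := a) (h6.mono (by omega) le_rfl)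
      have := h2 _ h8
      omega
    · have h6 : LS A M (win ξ a c) < occ T (win ξ a c) := by
        rcases h3 with ⟨a', _, h3⟩ | h3
        · exact ih.ls_lt (by simp; omega) h3
        · have := ih.ls_le (v := win ξ a c) (by simp; omega)
          rw [if_pos h3] at this
          omega
      by_contra h7
      have h8 : Up A M (win ξ a c) := by unfold Up; omega
      have h9 := h8.adj.cn.symm
      rw [win_eq_concat ξ (by omega : a < c), List.dropLast_concat,
        ← win_eq_concat ξ (by omega)] at h9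
      have := h2 _ (h1.trans h9)
      omega
  · have h4 := hs.lvl h1
    have h5 := h.len h1
    refine ⟨a, c, h1, fun h6 => ?_, ?_⟩
    · obtain ⟨a', h7, h8⟩ := h.over_col (b := c) (h6.mono le_rfl (by omega))
      have := h2 _ h8
      omega
    · have h6 := ih.rs_lt (by simp; omega) h3
      by_contra h7
      have h8 : Dn A M (win ξ a c) := by unfold Dn; omega
      have h9 := h8.adj.cn
      rw [win_eq_cons ξ (by omega : a < c), List.tail_cons,
        ← win_eq_cons ξ (by omega)] at h9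
      have := h2 _ (h1.trans h9)
      omega

theorem descent (hs : Seed A V M Y y) (h : Cyl A V M y ξ) {l r : ℤ} (hy : y = win ξ l r)
    (ih : IH A M T k) (hk : k ≤ y.length) (n : ℕ) :
    ∀ a b, l ≤ a → a ≤ l + Wt A V M y → r ≤ b → b ≤ r + Wt A V M y → b - a = r - l + n →
      ¬ Over A M y (win ξ (a + 1) (b - 1)) → ¬ Bad A V M Y y ξ a b →
      M (win ξ a b) < occ T (win ξ a b) →
      ∃ l₀, l ≤ l₀ ∧ l₀ ≤ l + Wt A V M y ∧
        M (win ξ l₀ (l₀ + (r - l))) < occ T (win ξ l₀ (l₀ + (r - l))) := by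
  have h7 : y.length = (r - l).toNat := by rw [hy]; simp
  have h8 := hs.2.2.1
  induction n with
  | zero =>
    intro a b h1 h2 _ _ h5 _ _ hE
    exact ⟨a, h1, h2, by rwa [show a + (r - l) = b by omega]⟩
  | succ n ihn =>
    intro a b h1 h2 h3 h4 h5 hI hB hE
    rcases hs.descent_step h hy h1 h2 h3 h4 (by omega) hI hB with ⟨c1, c2⟩ | ⟨c1, c2⟩
    · refine ihn (a + 1) b (by omega) (by omega) h3 h4 (by omega)
        (fun e => hI (e.mono (by omega) le_rfl)) c2 ?_
      simpa using ih.colDesc ξ [] (a := a) (a' := a + 1) (c := b) (by omega) (by omega)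
        (by simp; omega) (by simpa using hE)
        (fun i i1 i2 => by rw [show i = a + 1 by omega]; simpa using c1)
    · refine ihn a (b - 1) h1 h2 (by omega) (by omega) (by omega)
        (fun e => hI (e.mono le_rfl (by omega))) c2 ?_
      simpa using ih.rowDesc ξ [] (a := a) (c := b) (c' := b - 1) (by omega) (by omega)
        (by simp; omega) (by simpa using hE)
        (fun i i1 i2 => by rw [show i = b - 1 by omega]; simpa using c1)

theorem claim2 (hs : Seed A V M Y y) (h : Cyl A V M y ξ) {l r : ℤ} (hy : y = win ξ l r)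
    (ih : IH A M T (y.length - Wt A V M y)) (hc : ClaimL A M T y ξ ∨ ClaimR A M T y ξ) :
    ∃ l₀, l ≤ l₀ ∧ l₀ ≤ l + Wt A V M y ∧ ∀ l₁ r₁, l₀ ≤ l₁ → l₁ ≤ l + Wt A V M y → r ≤ r₁ →
      r₁ ≤ l₀ + (r - l) → r - l - Wt A V M y < r₁ - l₁ →
      M (win ξ l₁ r₁) < occ T (win ξ l₁ r₁) := by
  have h7 : y.length = (r - l).toNat := by rw [hy]; simp
  have h8 := hs.2.2.1
  have hy' : Cn A M y (win ξ l r) := hy ▸ Cn.refl y
  obtain ⟨a, c, h1, h2, h3⟩ := hs.start h ih (by omega) hc
  obtain ⟨j, j1, j2⟩ := exists_shift _ h.wpos l a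
  rw [← h.per.win_shift j] at h1 h2 h3
  rw [show a + 1 + j * Wt A V M y = a + j * Wt A V M y + 1 by ring,
    show c - 1 + j * Wt A V M y = c + j * Wt A V M y - 1 by ring] at h2
  generalize a + j * Wt A V M y = a' at *
  generalize c + j * Wt A V M y = c' at *
  have h4 := hs.lvl h1
  have h5 : c' ≤ r + Wt A V M y := by
    by_contra h6
    exact h2 (Over.of_pos (h.win_add l r ▸ hy') (by omega) (by omega))
  obtain ⟨l₀, e1, e2, e3⟩ := hs.descent h hy ih (by omega) (c' - a' - (r - l)).toNat a' c' j1 j2.le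
    (by omega) h5 (by omega) h2 (hs.start_not_bad h hy h1 h2 h5) h3
  refine ⟨l₀, e1, e2, fun l₁ r₁ i1 i2 i3 i4 i5 => ?_⟩
  have e4 := ih.colDesc ξ [] (a := l₀) (a' := l₁) (c := l₀ + (r - l)) i1 (by omega)
    (by simp; omega) (by simpa using e3) (fun i j1 j2 hu => hs.inactive h hy (a := i)
      (b := l₀ + (r - l)) (by omega) (by omega) (by omega) (by omega) (by omega) (by omega)
      (by simpa using hu.act))
  simpa using ih.rowDesc ξ [] (a := l₁) (c := l₀ + (r - l)) (c' := r₁) i4 (by omega)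
    (by simp; omega) (by simpa using e4) (fun i j1 j2 hu => hs.inactive h hy (a := l₁)
      (b := i) (by omega) (by omega) (by omega) (by omega) (by omega) (by omega)
      (by simpa using hu.act))

theorem exists_cyl (hs : Seed A V M Y y) (hC : Circ A V M) (l : ℤ) :
    ∃ ξ, Cyl A V M y ξ ∧ y = win ξ l (l + y.length) := by
  obtain ⟨ζ, hζ⟩ := exists_win y l
  have hE := hs.exp
  have hA := hs.2.1
  rw [← hζ] at hE hA
  obtain ⟨ξ, h1, h2⟩ := hC.exists_cyl hA hE le_rfl le_rfl (hC.per_win hE)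
  rw [hζ] at h1
  exact ⟨ξ, h1, by rw [win_congr h2, hζ]⟩

/-- The seed is forced. -/
theorem forced (hs : Seed A V M Y y) (hC : Circ A V M) (ih : IH A M T (y.length - Wt A V M y))
    (hc : Claim A V M T y) :
    min (LS A M (y.drop (Wt A V M y))) (RS A M (y.drop (Wt A V M y))) <
      occ T (y.drop (Wt A V M y)) := by
  obtain ⟨ξ, h, hy⟩ := hs.exists_cyl hC 0
  obtain ⟨l₀, h1, h2, h3⟩ := hs.claim2 h hy ih (hc ξ h)
  have hW := h.wpos
  have h8 := hs.2.2.1
  have hx : y.drop (Wt A V M y) = win ξ (0 + Wt A V M y) (0 + y.length) := by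
    conv_lhs => rw [hy, drop_win, ← hy]
  rw [hx]
  by_cases h4 : l₀ < 0 + Wt A V M y
  · have h5 := h3 (0 + Wt A V M y - 1) (0 + y.length) (by omega) (by omega) le_rfl (by omega)
      (by omega)
    rw [win_pred_left ξ (by omega)] at h5
    have := ih.ls_lt (by simp) h5
    omega
  · have h5 := h3 (0 + Wt A V M y) (0 + y.length + 1) (by omega) (by omega) (by omega) (by omega)
      (by omega)
    rw [win_succ_right ξ (by omega)] at h5
    have := ih.rs_lt (by simp) h5
    omega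

/-- No active side entry above the component. -/
theorem caseA (hs : Seed A V M Y y) (h : Cyl A V M y ξ) (ih : IH A M T k) (hk : k ≤ y.length)
    (hD : ∀ a b a', Over A M y (win ξ a b) → a' ≠ ξ (a - 1) → ¬ Dn A M (a' :: win ξ a b)) :
    ClaimL A M T y ξ := by
  by_contra hc
  obtain ⟨l, r, hy⟩ := h.lift (Cn.refl y)
  have hy' : Cn A M y (win ξ l r) := hy ▸ Cn.refl y
  have h7 : y.length = (r - l).toNat := by rw [hy]; simp
  have h8 := hs.2.2.1
  have step : ∀ a b, Over A M y (win ξ a b) → occ T (win ξ (a - 1) b) ≤ M (win ξ (a - 1) b) →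
      occ T (win ξ a b) ≤ LS A M (win ξ a b) := by
    intro a b ho he
    have hab : a ≤ b := by
      obtain ⟨a', b', h1, h2, h3⟩ := ho.pos
      have := h.len h3
      omega
    rw [occ_left A T _ ih.letters, if_neg (fun hp => hc (toClaimL' h ho hp)), add_zero]
    refine Finset.sum_le_sum fun a' _ => ?_
    by_cases ha : a' = ξ (a - 1)
    · rw [ha, ← win_pred_left ξ hab]; exact he
    · by_contra h1
      exact hc (hs.toClaimL h ih hk ho ha (by omega) (fun i _ hi => hD _ _ _ hi ha))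
  have key : ∀ a, min (l - 1) (r - T.length) ≤ a → a ≤ l - 1 →
      occ T (win ξ a (r + 1)) ≤ M (win ξ a (r + 1)) := by
    intro a ha
    induction a, ha using Int.leInduction with
    | base =>
      intro _
      by_contra h1
      have := (occ_pos_iff.1 (by omega : 0 < occ T (win ξ (min (l - 1) (r - T.length))
        (r + 1)))).length_le
      simp only [length_win] at this
      omega
    | succ a _ iha =>
      intro h1
      refine (step _ _ (Over.of_pos hy' (by omega) (by omega))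
        (by simpa using iha (by omega))).trans (h.circ.ls _ ?_)
      intro h2
      have := congrArg List.length h2
      simp at this
      omega
  have h1 := step l (r + 1) (Over.of_pos hy' le_rfl (by omega))
    (key _ (min_le_left _ _) le_rfl)
  rcases h.out_step hy' with ⟨_, h2⟩ | ⟨h2, _⟩
  · have := hs.lvl h2
    omega
  · have := ih.le (win ξ l (r + 1)) (by simp; omega)
    unfold Up at h2
    omega

end Seed

section CaseB
variable {y y₀ : Str} {ξ ξ₀ : ℤ → ℕ} {lq rq : ℤ}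

theorem trouble_row (h : Cyl A V M y ξ) (h₀ : Cyl A V M y₀ ξ₀) (hq : Cn A M y (win ξ lq rq))
    (hY : (y₀, win ξ lq rq) ∈ Y) (hy₀ : y₀ = win ξ₀ (lq - Wt A V M y₀) rq)
    (he : ∀ i, lq ≤ i → i < rq → ξ₀ i = ξ i) {a b : ℤ} (h1 : lq - Wt A V M y₀ ≤ a) (h2 : rq ≤ b)
    (h3 : b < rq + Wt A V M y) (he' : ∀ i, a ≤ i → i < rq → ξ₀ i = ξ i)
    (ho : Over A M y (win ξ a b)) :
    Near A V M y (win ξ a b) ∨ Trouble A V M Y y (win ξ a b) := by
  by_cases hn : Near A V M y (win ξ a b)
  · exact Or.inl hn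
  right
  have hl := h.len hq
  have h4 : a ≤ lq + Wt A V M y := by
    by_contra h5
    have := h.above' hn ho (h.win_add lq rq ▸ hq) (by omega)
    omega
  refine ⟨_, hY, hq, Or.inl ?_⟩
  have e1 := dist_win_le (ξ := ξ) (ζ := ξ₀) (l := lq) (r := rq) (l' := lq)
    (r' := rq + Wt A V M y₀) le_rfl (by omega) (fun i a b => (he i a b).symm)
  have e2 := dist_win_le (ξ := ξ₀) (ζ := ξ) h1 h2 he'
  have e3 := dist_win_le' ξ h4 h3.le
  rw [h.win_add] at e3
  rw [← h₀.win_sub, show rq + Wt A V M y₀ - Wt A V M y₀ = rq by ring, ← hy₀] at e1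
  rw [← hy₀] at e2
  have e4 : y₀.length = (rq - (lq - Wt A V M y₀)).toNat := by
    conv_lhs => rw [hy₀]
    simp
  simp only [cyc, length_win]
  omega

theorem trouble_col (h : Cyl A V M y ξ) (h₀ : Cyl A V M y₀ ξ₀) (hq : Cn A M y (win ξ lq rq))
    (hY : (y₀, win ξ lq rq) ∈ Y) (hy₀ : y₀ = win ξ₀ (lq - Wt A V M y₀) rq)
    (he : ∀ i, lq ≤ i → i < rq → ξ₀ i = ξ i) {a c : ℤ} (h1 : lq - Wt A V M y < a) (h2 : a ≤ lq)
    (h3 : c ≤ rq + Wt A V M y₀) (he' : ∀ i, lq ≤ i → i < c → ξ₀ i = ξ i)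
    (ho : Over A M y (win ξ a c)) :
    Near A V M y (win ξ a c) ∨ Trouble A V M Y y (win ξ a c) := by
  by_cases hn : Near A V M y (win ξ a c)
  · exact Or.inl hn
  right
  have hl := h.len hq
  have h4 := h.above' hn ho (h.win_sub lq rq ▸ hq) h1.le
  refine ⟨_, hY, hq, Or.inr ?_⟩
  have e1 := dist_win_le (ξ := ξ₀) (ζ := ξ) (l := lq - Wt A V M y₀) (r := rq) (l' := lq)
    (r' := rq) (by omega) le_rfl he
  have e2 := dist_win_le' ξ h1.le h4.le
  have e3 := dist_win_le (ξ := ξ) (ζ := ξ₀) h2 h3 (fun i a b => (he' i a b).symm)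
  rw [h.win_sub] at e2
  rw [← h₀.win_sub lq, show rq + Wt A V M y₀ - Wt A V M y₀ = rq by ring, ← hy₀] at e3
  rw [← hy₀] at e1
  have e4 : y₀.length = (rq - (lq - Wt A V M y₀)).toNat := by
    conv_lhs => rw [hy₀]
    simp
  simp only [cyc, length_win]
  omega

theorem caseB (hs : Seed A V M Y y) (h : Cyl A V M y ξ) (ih : IH A M T k) (hk : k ≤ y.length)
    (hs₀ : Seed A V M Y y₀) (hq : Cn A M y (win ξ lq rq)) (hY : (y₀, win ξ lq rq) ∈ Y)
    (hx : win ξ lq rq = y₀.drop (Wt A V M y₀)) (hc : Claim A V M T y₀) :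
    ClaimL A M T y ξ ∨ ClaimR A M T y ξ := by
  obtain ⟨ξ₀, h₀, hy₀⟩ := hs₀.exists_cyl h.circ (lq - Wt A V M y₀)
  have hl := h.len hq
  have hW := h.wpos
  have hW₀ := h₀.wpos
  have hlv := hs.lvl hq
  have hlen := congrArg List.length hx
  simp only [length_win, List.length_drop] at hlen
  rw [show lq - Wt A V M y₀ + y₀.length = rq by omega] at hy₀
  have he : ∀ i, lq ≤ i → i < rq → ξ₀ i = ξ i := by
    have e : win ξ₀ lq rq = win ξ lq rq := by
      rw [hx]; conv_rhs => rw [hy₀, drop_win, ← hy₀]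
      simp
    simpa using (win_eq_iff rfl).1 e
  by_cases hξ : ξ₀ = ξ
  · subst hξ
    have hy₀' : Cn A M y₀ (win ξ₀ (lq - Wt A V M y₀) rq) := hy₀ ▸ Cn.refl y₀
    have hne : ¬ Cn A M y y₀ := fun e => by
      have := hs₀.lvl (e.symm.trans hq)
      omega
    have hov : Over A M y y₀ := by
      rw [hy₀]; exact Over.of_pos hq (by omega) le_rfl
    have between : ∀ a b, Over A M y (win ξ₀ a b) → ¬ Over A M y₀ (win ξ₀ a b) →
        Near A V M y (win ξ₀ a b) ∨ Trouble A V M Y y (win ξ₀ a b) := by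
      intro a b h1 h2
      obtain ⟨j, j1, j2⟩ := exists_shift _ hW rq b
      rw [← h.per.win_shift j] at h1 h2 ⊢
      refine trouble_row h h₀ hq hY hy₀ he ?_ j1 j2 (fun _ _ _ => rfl) h1
      by_contra h3
      exact h2 (Over.of_pos hy₀' (by omega) j1)
    rcases hc ξ₀ h₀ with ⟨a, c, h1, h2, h3⟩ | ⟨a, c, h1, h2, b', h3, h4⟩
    · left
      have ho := h.all_over h₀ hne hov h1
      rcases h3 with ⟨a', h3, h4⟩ | h3
      · refine hs.toClaimL h ih hk ho h3 h4 (fun i i1 i2 i3 => ?_)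
        refine hs.snr h i2 (Or.inl ⟨a', h3, i3⟩) (between _ _ i2 (fun e => ?_))
        obtain ⟨b', e1, e2⟩ := h₀.over_row e
        have := h2 _ e2
        omega
      · exact Seed.toClaimL' h ho h3
    · right
      have ho := h.all_over h₀ hne hov h1
      refine hs.toClaimR h ih hk ho h3 h4 (fun i i1 i2 i3 => ?_)
      refine hs.snr h i2 (Or.inr ⟨b', h3, i3⟩) (between _ _ i2 (fun e => ?_))
      obtain ⟨b', e1, e2⟩ := h₀.over_col e
      have := h2 _ e2
      omega
  · obtain ⟨l₀, h1, h2, h3⟩ := hs₀.claim2 h₀ hy₀ (ih.mono (by omega)) (hc ξ₀ h₀)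
    obtain ⟨i, i1, i2, i3⟩ : ∃ i, l₀ ≤ i ∧ i < l₀ + Wt A V M y₀ + Wt A V M y ∧ ξ₀ i ≠ ξ i := by
      by_contra h4
      push Not at h4
      exact hξ (Per.fine_wilf hW₀ hW h₀.per h.per l₀ h4)
    classical
    by_cases h4 : i < lq
    · left
      obtain ⟨i, ⟨i1, i2, i3⟩, i4⟩ := Int.exists_greatest_of_bdd
        (P := fun i => l₀ ≤ i ∧ i < lq ∧ ξ₀ i ≠ ξ i) ⟨lq, fun z hz => hz.2.1.le⟩ ⟨i, i1, h4, i3⟩
      have he' : ∀ j, i + 1 ≤ j → j < rq → ξ₀ j = ξ j := by
        intro j j1 j2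
        by_contra j3
        by_cases j4 : j < lq
        · have := i4 j ⟨by omega, j4, j3⟩
          omega
        · exact j3 (he j (by omega) j2)
      have hE := h3 i rq i1 (by omega) le_rfl (by omega) (by omega)
      rw [win_eq_cons ξ₀ (by omega), win_congr he'] at hE
      have hne : ξ₀ i ≠ ξ (i + 1 - 1) := by simpa using i3
      refine hs.toClaimL h ih hk (Over.of_pos hq (by omega) le_rfl) hne hE (fun b b1 b2 b3 => ?_)
      refine hs.snr h b2 (Or.inl ⟨_, hne, b3⟩) ?_
      obtain ⟨j, j1, j2⟩ := exists_shift _ hW rq b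
      rw [← h.per.win_shift j] at b2 ⊢
      exact trouble_row h h₀ hq hY hy₀ he (by omega) j1 j2
        (fun m m1 m2 => he' m (by omega) m2) b2
    · right
      have h5 : rq ≤ i := by
        by_contra h5
        exact i3 (he i (by omega) (by omega))
      obtain ⟨i, ⟨i1, i2, i3⟩, i4⟩ := Int.exists_least_of_bdd
        (P := fun i => rq ≤ i ∧ i < l₀ + Wt A V M y₀ + Wt A V M y ∧ ξ₀ i ≠ ξ i)
        ⟨rq, fun z hz => hz.1⟩ ⟨i, h5, i2, i3⟩
      have he' : ∀ j, lq ≤ j → j < i → ξ₀ j = ξ j := by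
        intro j j1 j2
        by_contra j3
        by_cases j4 : rq ≤ j
        · have := i4 j ⟨j4, by omega, j3⟩
          omega
        · exact j3 (he j j1 (by omega))
      have hE := h3 lq (i + 1) (by omega) (by omega) (by omega) (by omega) (by omega)
      rw [win_succ_right ξ₀ (by omega), win_congr he'] at hE
      refine hs.toClaimR h ih hk (Over.of_pos hq le_rfl i1) i3 hE (fun a a1 a2 a3 => ?_)
      refine hs.snr h a2 (Or.inr ⟨_, i3, a3⟩) ?_
      obtain ⟨j, j1, j2⟩ := exists_shift _ hW (lq - Wt A V M y + 1) a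
      rw [← h.per.win_shift j] at a2 ⊢
      exact trouble_col h h₀ hq hY hy₀ he (by omega) (by omega) (by omega)
        (fun m m1 m2 => he' m m1 (by omega)) a2

end CaseB

theorem Spec.claim_step (sp : Spec A V M Y S) {y : Str} (hs : Seed A V M Y y) (ih : IH A M T k)
    (hk : k < y.length) (ih2 : ∀ p ∈ Y, k < p.2.length → Claim A V M T p.1) :
    Claim A V M T y := by
  intro ξ h
  by_cases hD : ∀ a b a', Over A M y (win ξ a b) → a' ≠ ξ (a - 1) → ¬ Dn A M (a' :: win ξ a b)
  · exact Or.inl (hs.caseA h ih hk.le hD)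
  push Not at hD
  obtain ⟨a, b, a', h1, h2, h3⟩ := hD
  have hn : ¬ Near A V M y (win ξ a b) := fun e => hs.snr h h1 (Or.inl ⟨a', h2, h3⟩) (Or.inl e)
  obtain ⟨q, q1, q2, q3⟩ := h.exists_top
  obtain ⟨lq, rq, rfl⟩ := h.lift q1
  obtain ⟨j, j1, j2⟩ := exists_shift _ h.wpos a lq
  rw [← h.per.win_shift j] at q1 q2 q3
  generalize lq + j * Wt A V M y = lq' at *
  generalize rq + j * Wt A V M y = rq' at *
  have h4 := h.above' hn h1 (h.win_sub lq' rq' ▸ q1) (by omega)
  have h5 : rq' ≤ b := by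
    by_contra h5
    exact hn (h.near_of_rect (h.win_sub lq' rq' ▸ q1) (by omega) (by omega) (by omega) (by omega))
  unfold Up at q2
  unfold Dn at q3
  rcases sp.m6 (win ξ lq' rq') with h6 | h6 | ⟨_, _, _, h6⟩ | ⟨y₀, h6, _⟩
  · omega
  · omega
  · obtain ⟨t, t1, t2⟩ := sp.inf _ (sp.circ.supp _ h3.pos)
    have t3 := win_infix ξ j1 h5
    have t4 := h6 t t1 ((t3.trans (List.suffix_cons _ _).isInfix).trans t2)
    have := t2.length_le
    have := t3.length_le
    simp only [List.length_cons] at *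
    omega
  · obtain ⟨h7, h8⟩ := sp.y1 _ h6
    exact caseB hs h ih hk.le h7 q1 h6 h8 (ih2 _ h6 (lt_of_lt_of_le hk (hs.1.le q1)))

/-- **Theorem A.** -/
theorem Spec.le_occ (sp : Spec A V M Y S) (hT : ∀ s ∈ S, s <:+: T) (hA : ∀ a ∈ T, a ∈ A)
    (v : Str) : M v ≤ occ T v := by
  obtain ⟨N, hN⟩ : ∃ N, ∀ v ∈ V, v.length < N :=
    ⟨(V.map List.length).sum + 1, fun v hv =>
      Nat.lt_succ_of_le (List.single_le_sum (by simp) _ (List.mem_map_of_mem hv))⟩
  have key : ∀ n k, N ≤ k + n → (∀ v : Str, k ≤ v.length → M v ≤ occ T v) ∧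
      ∀ p ∈ Y, k ≤ p.2.length → Claim A V M T p.1 := by
    intro n
    induction n with
    | zero =>
      intro k hk
      refine ⟨fun v hv => ?_, fun p hp hv => ?_⟩
      · by_contra h1
        have := hN v (sp.circ.supp v (by omega))
        omega
      · have := sp.m5 p hp
        have := hN _ (sp.circ.supp p.2 (by omega))
        omega
    | succ n ihn =>
      intro k hk
      obtain ⟨h1, h2⟩ := ihn (k + 1) (by omega)
      have ih : IH A M T k := ⟨hA, h1⟩
      have h3 : ∀ p ∈ Y, k ≤ p.2.length → Claim A V M T p.1 := by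
        intro p hp hv
        obtain ⟨h4, h5⟩ := sp.y1 p hp
        have h6 := sp.circ.wt_pos h4.2.1
        have h7 := h4.2.2.1
        rw [h5, List.length_drop] at hv
        exact sp.claim_step h4 ih (by omega) h2
      refine ⟨fun v hv => ?_, h3⟩
      rcases sp.m6 v with h6 | h6 | ⟨h6, h7, _⟩ | ⟨y, h6, h7⟩
      · have := ih.ls_le hv
        omega
      · have := ih.rs_le hv
        omega
      · have := occ_pos_iff.2 (hT v h7)
        omega
      · obtain ⟨h4, h5⟩ := sp.y1 _ h6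
        simp only at h4 h5
        have := h4.forced sp.circ (ih.mono (by rw [h5, List.length_drop] at hv; exact hv))
          (h3 _ h6 hv)
        rw [← h5] at this
        omega
  exact (key N 0 (by omega)).1 v (Nat.zero_le _)

end Crest.Agent.R287
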