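import Crest.Agent.R287.Spec

/-! Geometry of an unblocked component on its cylinder. -/

set_option autoImplicit false

namespace Crest.Agent.R287

variable {A : Finset ℕ} {V : List Str} {M : Str → ℕ} {Y : List (Str × Str)}

/-- `v` contains a vertex of the component of `y`. -/
def Over (A : Finset ℕ) (M : Str → ℕ) (y v : Str) : Prop := ∃ τ, Cn A M y τ ∧ τ <:+: v

theorem infix_win {τ : Str} {ξ : ℤ → ℕ} {a b : ℤ} (h : τ <:+: win ξ a b) :
    ∃ a' b', a ≤ a' ∧ b' ≤ b ∧ τ = win ξ a' b' := by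
  obtain ⟨s, t, h⟩ := h
  have hl := congrArg List.length h
  simp only [List.length_append, length_win] at hl
  by_cases hab : a ≤ b
  · refine ⟨a + s.length, a + s.length + τ.length, by omega, by omega, ?_⟩
    rw [← take_win ξ (r := b) τ.length (by omega), ← drop_win, ← h]
    simp
  · refine ⟨a, b, le_rfl, le_rfl, ?_⟩
    have h1 : τ = [] := List.eq_nil_of_length_eq_zero (by omega)
    have h2 : win ξ a b = [] := List.eq_nil_of_length_eq_zero (by simp; omega)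
    rw [h1, h2]

theorem Over.pos {y : Str} {ξ : ℤ → ℕ} {a b : ℤ} (h : Over A M y (win ξ a b)) :
    ∃ a' b', a ≤ a' ∧ b' ≤ b ∧ Cn A M y (win ξ a' b') := by
  obtain ⟨τ, h1, h2⟩ := h
  obtain ⟨a', b', h3, h4, rfl⟩ := infix_win h2
  exact ⟨a', b', h3, h4, h1⟩

theorem Over.of_pos {y : Str} {ξ : ℤ → ℕ} {a b a' b' : ℤ} (h : Cn A M y (win ξ a' b'))
    (ha : a ≤ a') (hb : b' ≤ b) : Over A M y (win ξ a b) := ⟨_, h, win_infix ξ ha hb⟩

theorem Over.mono {y : Str} {ξ : ℤ → ℕ} {a b a' b' : ℤ} (h : Over A M y (win ξ a' b'))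
    (ha : a ≤ a') (hb : b' ≤ b) : Over A M y (win ξ a b) := by
  obtain ⟨τ, h1, h2⟩ := h
  exact ⟨τ, h1, h2.trans (win_infix ξ ha hb)⟩

theorem Joint.symm {u v : Str} (h : Joint A V M u v) : Joint A V M v u := by
  obtain ⟨a, h1, b, h2, h3⟩ := h
  exact ⟨b, h2, a, h1, by omega⟩

namespace Cyl
variable {y : Str} {ξ : ℤ → ℕ}

theorem over_row (h : Cyl A V M y ξ) {a b : ℤ} (ho : Over A M y (win ξ a b)) :
    ∃ b', b' ≤ b ∧ Cn A M y (win ξ a b') := by
  obtain ⟨a', b', h1, h2, h3⟩ := ho.pos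
  obtain ⟨b'', h4, h5⟩ := h.backward h3 h1
  exact ⟨b'', by omega, h5⟩

theorem over_col (h : Cyl A V M y ξ) {a b : ℤ} (ho : Over A M y (win ξ a b)) :
    ∃ a', a ≤ a' ∧ Cn A M y (win ξ a' b) := by
  obtain ⟨a', b', h1, h2, h3⟩ := ho.pos
  obtain ⟨a'', h4, h5⟩ := h.forward h3 h2
  exact ⟨a'', by omega, h5⟩

theorem over_left (h : Cyl A V M y ξ) {a b : ℤ} (ho : Over A M y (win ξ a b))
    (hn : ¬ Cn A M y (win ξ a b)) : Over A M y (win ξ (a + 1) b) := by
  obtain ⟨a', h1, h2⟩ := h.over_col ho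
  have : a' ≠ a := by rintro rfl; exact hn h2
  exact Over.of_pos h2 (by omega) le_rfl

theorem over_right (h : Cyl A V M y ξ) {a b : ℤ} (ho : Over A M y (win ξ a b))
    (hn : ¬ Cn A M y (win ξ a b)) : Over A M y (win ξ a (b - 1)) := by
  obtain ⟨b', h1, h2⟩ := h.over_row ho
  have : b' ≠ b := by rintro rfl; exact hn h2
  exact Over.of_pos h2 le_rfl (by omega)

theorem win_add (h : Cyl A V M y ξ) (l r : ℤ) :
    win ξ (l + Wt A V M y) (r + Wt A V M y) = win ξ l r := by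
  simpa using h.per.win_shift 1 l r

theorem win_sub (h : Cyl A V M y ξ) (l r : ℤ) :
    win ξ (l - Wt A V M y) (r - Wt A V M y) = win ξ l r := by
  rw [← h.win_add]; simp

/-- Another component on the same cylinder with a vertex below the component of `y` is low. -/
theorem sameCyl (h : Cyl A V M y ξ) {l r : ℤ} (hy : y = win ξ l r) {u : Str}
    (hu : Cyl A V M u ξ) (hne : ¬ Cn A M y u) {a b : ℤ} (hab : Cn A M u (win ξ a b))
    (hno : ¬ Over A M y (win ξ a b)) (hb : b ≤ r + Wt A V M y) : Low A M y.length u := by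
  obtain ⟨a', _, h2, h3⟩ := hu.forward_ind (fun a b => ¬ Over A M y (win ξ a b))
    (fun a b _ h1 _ h2 => h1 (h2.mono (by omega) le_rfl))
    (fun a b _ h1 h2 h3 => h1 (by
      simpa using h.over_right h3 (fun h4 => hne (h4.trans h2.symm)))) hab hno hb
  have h4 : Cn A M y (win ξ l r) := hy ▸ Cn.refl y
  have h5 := h.len h4
  refine ⟨_, h2, ?_⟩
  by_contra h6
  apply h3
  have h7 : y.length = (r - l).toNat := by rw [hy]; simp
  simp only [length_win] at h6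
  exact Over.of_pos (h.win_add l r ▸ h4) (by omega) le_rfl

/-- Another component on the same cylinder with a vertex above is above. -/
theorem all_over (h : Cyl A V M y ξ) {u : Str} (hu : Cyl A V M u ξ) (hne : ¬ Cn A M y u)
    (ho : Over A M y u) {v : Str} (hv : Cn A M u v) : Over A M y v := by
  refine hv.ind (Over A M y) ho ?_
  intro a b ha h1 hab
  obtain ⟨l, r, rfl⟩ := hu.lift ha
  have hn : ¬ Cn A M y (win ξ l r) := fun h2 => hne (h2.trans ha.symm)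
  rcases hu.adj_lift ha hab with rfl | rfl | rfl | rfl
  · exact h.over_left h1 hn
  · exact h1.mono le_rfl (by omega)
  · exact h1.mono (by omega) le_rfl
  · exact h.over_right h1 hn

theorem near_of_rect (h : Cyl A V M y ξ) {l r a b : ℤ} (hτ : Cn A M y (win ξ l r))
    (h1 : l ≤ a) (h2 : a ≤ l + Wt A V M y) (h3 : r ≤ b) (h4 : b ≤ r + Wt A V M y) :
    Near A V M y (win ξ a b) := by
  refine ⟨_, hτ, ?_⟩
  have e1 := dist_win_le' ξ h1 h3
  have e2 := dist_win_le' ξ h2 h4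
  rw [h.win_add] at e2
  simp only [cyc, dist_self]
  omega

theorem above' (h : Cyl A V M y ξ) {a b : ℤ} (hn : ¬ Near A V M y (win ξ a b))
    (ho : Over A M y (win ξ a b)) {l r : ℤ} (hc : Cn A M y (win ξ l r)) (hl : l ≤ a) : r < b := by
  obtain ⟨a', b', h1, h2, h3⟩ := ho.pos
  refine h.above ?_ h3 h1 h2 l r hc hl
  intro l r h4 h5 h6 h7
  by_contra h8
  exact hn (h.near_of_rect h4 h5 h6 h7 (by omega))

theorem joint_of (h : Cyl A V M y ξ) {ζ : ℤ → ℕ} {u : Str} {a₁ b₁ a₂ b₂ c : ℤ}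
    (h1 : Cn A M y (win ξ a₁ b₁)) (h2 : Cn A M u (win ζ a₂ b₂)) (ha : a₂ ≤ a₁) (hab : a₂ ≤ b₂)
    (he : ∀ i, a₁ ≤ i → i < b₂ → ζ i = ξ i) (hb₁ : b₁ ≤ c) (hb₂ : b₂ ≤ c)
    (hc : c - a₂ ≤ Wt A V M y + Wt A V M u) : Joint A V M y u := by
  obtain ⟨a', h3, h4⟩ := h.forward h1 hb₁
  refine ⟨_, h4, _, h2, Or.inr ?_⟩
  have e1 := dist_win_le (ξ := ζ) (ζ := ξ) (l := a₂) (r := b₂) (l' := a') (r' := c) (by omega) hb₂
    (fun i a b => he i (by omega) b)
  have e2 := dist_le_length [] (win ζ a₂ b₂)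
  simp only [length_win] at e2
  simp only [cyc, dist_nil_right]
  omega

end Cyl

/-- `ξ` has period `W` on `[a, b)`. -/
def PerOn (ξ : ℤ → ℕ) (W : ℕ) (a b : ℤ) : Prop := ∀ i, a ≤ i → i + W < b → ξ (i + W) = ξ i

namespace Seed
variable {y : Str} {ξ : ℤ → ℕ}

theorem not_low (hs : Seed A V M Y y) {u : Str} (hu : Rs A V M Y y u) :
    ¬ Low A M y.length u := fun h => hs.2.2.2 ⟨u, hu, Or.inl h⟩

theorem rs_exp (hs : Seed A V M Y y) {u : Str} (hu : Rs A V M Y y u) : Exp A V M u :=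
  exp_of_not_low fun h => hs.2.2.2 ⟨u, hu, Or.inr (Or.inl h)⟩

theorem short_self (hs : Seed A V M Y y) (h : Cyl A V M y ξ) :
    Low A M (y.length + Wt A V M y) y := ⟨y, Cn.refl _, by have := h.wpos; omega⟩

theorem fw_short (hs : Seed A V M Y y) (h : Cyl A V M y ξ) {l r : ℤ} (hy : y = win ξ l r)
    {v : Str} (hv : Rs A V M Y y v) {ζ : ℤ → ℕ} (hζ : Cyl A V M v ζ) {a b a₁ b₁ : ℤ}
    (he : ∀ i, a ≤ i → i < b → ζ i = ξ i) (hc : Cn A M v (win ξ a₁ b₁))
    (hno : ¬ Over A M y (win ξ a₁ b₁)) (hb : b₁ ≤ r + Wt A V M y) :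
    b < a + Wt A V M y + Wt A V M v := by
  by_contra h1
  have h2 := Per.fine_wilf h.wpos hζ.wpos h.per hζ.per a
    (fun i h2 h3 => (he i h2 (by omega)).symm)
  subst h2
  exact hs.not_low hv (h.sameCyl hy hζ hv.2.2.1 hc hno hb)

/-- A side entry or exit above the component is out of reach. -/
theorem snr (hs : Seed A V M Y y) (h : Cyl A V M y ξ) {a b : ℤ}
    (ho : Over A M y (win ξ a b))
    (hside : (∃ a', a' ≠ ξ (a - 1) ∧ Dn A M (a' :: win ξ a b)) ∨
      (∃ b', b' ≠ ξ b ∧ Up A M (win ξ a b ++ [b'])))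
    (hr : Near A V M y (win ξ a b) ∨ Trouble A V M Y y (win ξ a b)) : False := by
  have hW := h.wpos
  have hy := hs.2.2.1
  obtain ⟨a₁, b₁, h1, h2, h3⟩ := ho.pos
  have h4 := hs.1.le h3
  simp only [length_win] at h4
  have hR : Rs A V M Y y (win ξ a b) := by
    refine ⟨by simp only [length_win]; omega, ?_, ?_, hr⟩
    · rcases hside with ⟨a', _, h6⟩ | ⟨b', _, h6⟩
      · exact ⟨_, Or.inr (by simpa using h6.adj)⟩
      · exact ⟨_, Or.inl (by simpa using h6.adj)⟩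
    · intro h5
      rcases hside with ⟨a', h6, h7⟩ | ⟨b', h6, h7⟩
      · exact h6 (h.dnAl h5 h7)
      · exact h6 (h.upAl h5 h7)
  have hE := hs.rs_exp hR
  obtain ⟨ζ, hζ, he⟩ := h.circ.exists_cyl hR.2.1 hE le_rfl le_rfl (h.circ.per_win hE)
  have e1 : win ζ a b = win ξ a b := win_congr he
  by_cases h5 : a + Wt A V M y + Wt A V M (win ξ a b) ≤ b
  · have h6 := Per.fine_wilf h.wpos hζ.wpos h.per hζ.per a
      (fun i h2 h3 => (he i h2 (by omega)).symm)
    subst h6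
    rcases hside with ⟨a', h6, h7⟩ | ⟨b', h6, h7⟩
    · exact h6 (hζ.dnAl (Cn.refl _) h7)
    · exact h6 (hζ.upAl (Cn.refl _) h7)
  · refine hs.2.2.2 ⟨_, hR, Or.inr (Or.inr ⟨y, Or.inl rfl, fun h6 => hR.2.2.1 h6.symm,
      ⟨_, Cn.refl _, by simp only [length_win]; omega⟩, hs.short_self h, ?_⟩)⟩
    exact (h.joint_of h3 (Cn.refl (win ξ a b)) h1 (by omega) (fun _ _ _ => rfl) h2 le_rfl
      (by omega)).symm

/-- Positions of the rectangle below the level of `y` are inactive. -/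
theorem inactive (hs : Seed A V M Y y) (h : Cyl A V M y ξ) {l r : ℤ} (hy : y = win ξ l r)
    {a b : ℤ} (h1 : l ≤ a) (h2 : a ≤ l + Wt A V M y) (h3 : r ≤ b) (h4 : b ≤ r + Wt A V M y)
    (h5 : r - l - Wt A V M y < b - a) (h6 : b - a < r - l) : ¬ Act A M (win ξ a b) := by
  intro ha
  have h7 : y.length = (r - l).toNat := by rw [hy]; simp
  have h8 := hs.2.2.1
  by_cases hc : Cn A M y (win ξ a b)
  · have := hs.1.le hc
    simp only [length_win] at this
    omega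
  · refine hs.not_low (u := win ξ a b) ⟨by simp only [length_win]; omega, ha, hc,
      Or.inl (h.near_of_rect (hy ▸ Cn.refl y) h1 h2 h3 h4)⟩ ⟨_, Cn.refl _, ?_⟩
    simp only [length_win]; omega

end Seed

/-- A reachable component strictly inside `(a, b)` whose period extends to `(a, b)`. -/
def Bad (A : Finset ℕ) (V : List Str) (M : Str → ℕ) (Y : List (Str × Str)) (y : Str) (ξ : ℤ → ℕ)
    (a b : ℤ) : Prop :=
  ∃ a₁ b₁, a < a₁ ∧ b₁ < b ∧ Rs A V M Y y (win ξ a₁ b₁) ∧ PerOn ξ (Wt A V M (win ξ a₁ b₁)) a b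

namespace Seed
variable {y : Str} {ξ : ℤ → ℕ}

theorem start_not_bad (hs : Seed A V M Y y) (h : Cyl A V M y ξ) {l r : ℤ} (hy : y = win ξ l r)
    {a c : ℤ} (hc : Cn A M y (win ξ a c)) (hI : ¬ Over A M y (win ξ (a + 1) (c - 1)))
    (hcr : c ≤ r + Wt A V M y) : ¬ Bad A V M Y y ξ a c := by
  rintro ⟨a₁, b₁, h1, h2, h3, h4⟩
  have hE := hs.rs_exp h3
  obtain ⟨ζ, hζ, he⟩ := h.circ.exists_cyl h3.2.1 hE h1.le h2.le h4
  have h5 := hs.fw_short h hy h3 hζ he (Cn.refl _)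
    (fun h5 => hI (h5.mono (by omega) (by omega))) (by omega)
  have h6 := hs.2.2.1
  have h7 := h.len hc
  have e1 : win ζ a₁ b₁ = win ξ a₁ b₁ := win_congr (fun i a b => he i (by omega) (by omega))
  refine hs.2.2.2 ⟨_, h3, Or.inr (Or.inr ⟨y, Or.inl rfl, fun h6 => h3.2.2.1 h6.symm,
    ⟨_, Cn.refl _, by simp only [length_win]; omega⟩, hs.short_self h, ?_⟩)⟩
  exact hζ.joint_of (e1 ▸ Cn.refl _) hc h1.le (by omega)
    (fun i a b => (he i (by omega) b).symm) h2.le le_rfl (by omega)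

theorem descent_step (hs : Seed A V M Y y) (h : Cyl A V M y ξ) {l r : ℤ} (hy : y = win ξ l r)
    {a b : ℤ} (h1 : l ≤ a) (h2 : a ≤ l + Wt A V M y) (h3 : r ≤ b) (h4 : b ≤ r + Wt A V M y)
    (h5 : r - l < b - a) (hI : ¬ Over A M y (win ξ (a + 1) (b - 1)))
    (hB : ¬ Bad A V M Y y ξ a b) :
    (¬ Up A M (win ξ (a + 1) b) ∧ ¬ Bad A V M Y y ξ (a + 1) b) ∨
    (¬ Dn A M (win ξ a (b - 1)) ∧ ¬ Bad A V M Y y ξ a (b - 1)) := by
  have hy' : Cn A M y (win ξ l r) := hy ▸ Cn.refl y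
  have hl := h.len hy'
  have hW := h.wpos
  have h7 : y.length = (r - l).toNat := by rw [hy]; simp
  -- a neighbour of the middle position in the same component
  have key : ∀ a' b', l ≤ a' → a' ≤ l + Wt A V M y → r ≤ b' → b' ≤ r + Wt A V M y →
      r - l ≤ b' - a' → Act A M (win ξ a' b') →
      Cn A M (win ξ a' b') (win ξ (a + 1) (b - 1)) →
      Rs A V M Y y (win ξ (a + 1) (b - 1)) ∧
        PerOn ξ (Wt A V M (win ξ (a + 1) (b - 1))) a' b' := by
    intro a' b' e1 e2 e3 e4 e5 e6 e7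
    have e8 : ¬ Cn A M y (win ξ (a + 1) (b - 1)) := fun e => hI ⟨_, e, List.infix_rfl⟩
    have e9 : Rs A V M Y y (win ξ a' b') := ⟨by simp only [length_win]; omega, e6,
      fun e => e8 (e.trans e7), Or.inl (h.near_of_rect hy' e1 e2 e3 e4)⟩
    have e10 : y.length ≤ (win ξ (a + 1) (b - 1)).length := by
      by_contra e; exact hs.not_low e9 ⟨_, e7, by omega⟩
    refine ⟨⟨by omega, e7.act e6, e8,
      Or.inl (h.near_of_rect hy' (by omega) (by omega) (by omega) (by omega))⟩, ?_⟩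
    rw [← e7.wt]
    exact h.circ.per_win (hs.rs_exp e9)
  by_contra hcon
  rw [not_or, not_and_or, not_and_or, not_not, not_not, not_not, not_not] at hcon
  obtain ⟨c1, c2⟩ := hcon
  obtain ⟨a₁, b₁, p1, p2, p3, p4⟩ : ∃ a₁ b₁, a + 1 ≤ a₁ ∧ b₁ ≤ b - 1 ∧
      Rs A V M Y y (win ξ a₁ b₁) ∧ PerOn ξ (Wt A V M (win ξ a₁ b₁)) (a + 1) b := by
    rcases c1 with c1 | ⟨a₁, b₁, e1, e2, e3⟩
    · refine ⟨a + 1, b - 1, le_rfl, le_rfl, key _ _ (by omega) (by omega) h3 h4 (by omega)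
        c1.act ?_⟩
      have := c1.adj.cn.symm
      rwa [win_eq_concat ξ (l := a + 1) (r := b) (by omega), List.dropLast_concat,
        ← win_eq_concat ξ (by omega)] at this
    · exact ⟨a₁, b₁, by omega, by omega, e3⟩
  obtain ⟨a₂, b₂, q1, q2, q3, q4⟩ : ∃ a₁ b₁, a + 1 ≤ a₁ ∧ b₁ ≤ b - 1 ∧
      Rs A V M Y y (win ξ a₁ b₁) ∧ PerOn ξ (Wt A V M (win ξ a₁ b₁)) a (b - 1) := by
    rcases c2 with c2 | ⟨a₁, b₁, e1, e2, e3⟩
    · refine ⟨a + 1, b - 1, le_rfl, le_rfl, key _ _ h1 h2 (by omega) (by omega) (by omega)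
        c2.act ?_⟩
      have := c2.adj.cn
      rwa [win_eq_cons ξ (l := a) (r := b - 1) (by omega), List.tail_cons,
        ← win_eq_cons ξ (by omega)] at this
    · exact ⟨a₁, b₁, by omega, by omega, e3⟩
  have pE := hs.rs_exp p3
  have qE := hs.rs_exp q3
  have pl := pE.len (Cn.refl _)
  have ql := qE.len (Cn.refl _)
  obtain ⟨ζ₁, z1, e1⟩ := h.circ.exists_cyl p3.2.1 pE p1 (by omega) p4
  obtain ⟨ζ₂, z2, e2⟩ := h.circ.exists_cyl q3.2.1 qE (by omega) q2 q4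
  have bad : ξ (a + Wt A V M (win ξ a₁ b₁)) = ξ a → False := by
    intro e
    refine hB ⟨a₁, b₁, by omega, by omega, p3, fun i i1 i2 => ?_⟩
    rcases eq_or_lt_of_le i1 with rfl | i3
    · exact e
    · exact p4 i (by omega) i2
  by_cases c3 : Cn A M (win ξ a₁ b₁) (win ξ a₂ b₂)
  · apply bad
    rw [c3.wt] at pl ⊢
    exact q4 a le_rfl (by omega)
  by_cases c4 : a + 1 + Wt A V M (win ξ a₁ b₁) + Wt A V M (win ξ a₂ b₂) ≤ b - 1
  · apply bad
    have e3 := Per.fine_wilf z1.wpos z2.wpos z1.per z2.per (a + 1)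
      (fun i i1 i2 => by rw [e1 i i1 (by omega), e2 i (by omega) (by omega)])
    subst e3
    have := z1.wpos
    rw [← e2 _ (by omega) (by omega), z1.per, e2 _ le_rfl (by omega)]
  have s1 := hs.fw_short h hy p3 z1 e1 (Cn.refl _)
    (fun e => hI (e.mono (by omega) (by omega))) (by omega)
  have s2 := hs.fw_short h hy q3 z2 e2 (Cn.refl _)
    (fun e => hI (e.mono (by omega) (by omega))) (by omega)
  have w1 : win ζ₁ a₁ b₁ = win ξ a₁ b₁ := win_congr (fun i a b => e1 i (by omega) (by omega))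
  have w2 : win ζ₂ a₂ b₂ = win ξ a₂ b₂ := win_congr (fun i a b => e2 i (by omega) (by omega))
  refine hs.2.2.2 ⟨_, p3, Or.inr (Or.inr ⟨_, Or.inr q3, c3,
    ⟨_, Cn.refl _, by simp only [length_win]; omega⟩,
    ⟨_, Cn.refl _, by simp only [length_win]; omega⟩, ?_⟩)⟩
  rcases le_total a₂ a₁ with c5 | c5
  · exact z1.joint_of (c := b - 1) (w1 ▸ Cn.refl _) (Cn.refl _) c5 (by omega)
      (fun i a b => (e1 i (by omega) (by omega)).symm) p2 q2 (by omega)
  · exact (z2.joint_of (c := b - 1) (w2 ▸ Cn.refl _) (Cn.refl _) c5 (by omega)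
      (fun i a b => (e2 i (by omega) (by omega)).symm) q2 p2 (by omega)).symm

end Seed

end Crest.Agent.R287
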