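import Crest.Agent.R287.Alg
import Crest.Agent.Lib.PT.All

/-! Polynomial time: strings, connected components. -/

set_option autoImplicit false

namespace Crest.Agent.R287

open Crest.Agent.Lib.PT

section Parts
variable {β : Type} [DecidableEq β]

/-- Merge the blocks containing the two ends of an edge. -/
def merge (P : List (List β)) (e : β × β) : List (List β) :=
  (e.1 :: e.2 :: (P.filter (fun c => decide (e.1 ∈ c ∨ e.2 ∈ c))).flatten) ::
    P.filter (fun c => !decide (e.1 ∈ c ∨ e.2 ∈ c))

def parts (E : List (β × β)) : List (List β) := E.foldl merge []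

theorem parts_spec (E : List (β × β)) (u v : β) :
    Relation.EqvGen (fun a b => (a, b) ∈ E) u v ↔ u = v ∨ ∃ c ∈ parts E, u ∈ c ∧ v ∈ c := by
  induction E using List.reverseRecOn generalizing u v with
  | nil =>
    simp only [parts, List.foldl_nil, List.not_mem_nil, false_and, exists_false, or_false]
    refine ⟨fun h => ?_, fun h => h ▸ Relation.EqvGen.refl _⟩
    induction h with
    | rel _ _ h => exact h.elim
    | refl => rfl
    | symm _ _ _ ih => exact ih.symm
    | trans _ _ _ _ _ ih1 ih2 => exact ih1.trans ih2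
  | append_singleton E e ih =>
    obtain ⟨a, b⟩ := e
    have hp : parts (E ++ [(a, b)]) = merge (parts E) (a, b) := by simp [parts]
    set R := Relation.EqvGen (fun a b => (a, b) ∈ E) with hR
    have hE : Equivalence R := Relation.EqvGen.is_equivalence _
    have key : (u = v ∨ ∃ c ∈ parts (E ++ [(a, b)]), u ∈ c ∧ v ∈ c) ↔
        R u v ∨ ((R u a ∨ R u b) ∧ (R v a ∨ R v b)) := by
      have m : ∀ w, w ∈ (a :: b :: ((parts E).filter
          (fun c => decide (a ∈ c ∨ b ∈ c))).flatten) ↔ R w a ∨ R w b := by
        intro w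
        simp only [List.mem_cons, List.mem_flatten, List.mem_filter, decide_eq_true_eq, ih]
        constructor
        · rintro (h | h | ⟨c, ⟨h1, h2 | h2⟩, h3⟩)
          · exact Or.inl (Or.inl h)
          · exact Or.inr (Or.inl h)
          · exact Or.inl (Or.inr ⟨c, h1, h3, h2⟩)
          · exact Or.inr (Or.inr ⟨c, h1, h3, h2⟩)
        · rintro ((h | ⟨c, h1, h2, h3⟩) | (h | ⟨c, h1, h2, h3⟩))
          · exact Or.inl h
          · exact Or.inr (Or.inr ⟨c, ⟨h1, Or.inl h3⟩, h2⟩)
          · exact Or.inr (Or.inl h)
          · exact Or.inr (Or.inr ⟨c, ⟨h1, Or.inr h3⟩, h2⟩)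
      rw [hp, merge]
      simp only [List.mem_cons (b := _ :: _ :: _), exists_eq_or_imp, m, ih u v]
      constructor
      · rintro (h | h | ⟨c, h1, h2⟩)
        · exact Or.inl (Or.inl h)
        · exact Or.inr h
        · exact Or.inl (Or.inr ⟨c, (List.mem_filter.1 h1).1, h2⟩)
      · rintro ((h | ⟨c, h1, h2, h3⟩) | h)
        · exact Or.inl h
        · by_cases h4 : a ∈ c ∨ b ∈ c
          · right; left
            rcases h4 with h4 | h4
            · exact ⟨Or.inl ((ih _ _).2 (Or.inr ⟨c, h1, h2, h4⟩)),
                Or.inl ((ih _ _).2 (Or.inr ⟨c, h1, h3, h4⟩))⟩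
            · exact ⟨Or.inr ((ih _ _).2 (Or.inr ⟨c, h1, h2, h4⟩)),
                Or.inr ((ih _ _).2 (Or.inr ⟨c, h1, h3, h4⟩))⟩
          · exact Or.inr (Or.inr ⟨c, List.mem_filter.2 ⟨h1, by simpa using h4⟩, h2, h3⟩)
        · exact Or.inr (Or.inl h)
    rw [key]
    set R' := Relation.EqvGen (fun x y => (x, y) ∈ E ++ [(a, b)]) with hR'
    have hE' : Equivalence R' := Relation.EqvGen.is_equivalence _
    have mono : ∀ x y, R x y → R' x y := fun x y h =>
      Relation.EqvGen.mono (fun _ _ h => List.mem_append_left _ h) x y h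
    have hab : R' a b := Relation.EqvGen.rel _ _ (by simp)
    constructor
    · intro h
      clear key
      induction h with
      | rel x y h =>
        rcases List.mem_append.1 h with h | h
        · exact Or.inl (Relation.EqvGen.rel _ _ h)
        · simp only [List.mem_singleton, Prod.mk.injEq] at h
          obtain ⟨rfl, rfl⟩ := h
          exact Or.inr ⟨Or.inl (hE.refl _), Or.inr (hE.refl _)⟩
      | refl => exact Or.inl (hE.refl _)
      | symm _ _ _ ih => exact ih.imp hE.symm And.symm
      | trans x y z _ _ ih1 ih2 =>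
        rcases ih1 with h1 | h1 <;> rcases ih2 with h2 | h2
        · exact Or.inl (hE.trans h1 h2)
        · exact Or.inr ⟨h2.1.imp (hE.trans h1) (hE.trans h1), h2.2⟩
        · exact Or.inr ⟨h1.1, h1.2.imp (hE.trans (hE.symm h2)) (hE.trans (hE.symm h2))⟩
        · exact Or.inr ⟨h1.1, h2.2⟩
    · rintro (h | ⟨h1, h2⟩)
      · exact mono _ _ h
      · have f : ∀ w, R w a ∨ R w b → R' w a := by
          rintro w (h | h)
          · exact mono _ _ h
          · exact hE'.trans (mono _ _ h) (hE'.symm hab)
        exact hE'.trans (f _ h1) (hE'.symm (f _ h2))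

variable [Enc β]

omit [DecidableEq β] in
theorem sz_split (p : List β → Bool) (P : List (List β)) :
    sz (P.filter p).flatten + sz (P.filter (fun c => !p c)) ≤ sz P + 1 := by
  induction P with
  | nil => simp
  | cons c P ih =>
    have := sz_append c (P.filter p).flatten
    cases h : p c <;> simp [h] <;> omega

@[fun_prop] theorem parts_pt {α : Type} [Enc α] {E : α → List (β × β)} (hE : PT E) :
    PT fun a => parts (E a) := by
  refine PT.foldl_grow (f := fun _ => merge) hE (PT.const _) (by unfold merge; fun_prop)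
    (G := fun p => sz p.2 + 4) (by fun_prop) ?_
  rintro _ P ⟨x, y⟩ _
  have := sz_split (fun c => decide (x ∈ c ∨ y ∈ c)) P
  simp only [merge, sz_cons, sz_mk]
  omega

end Parts

variable {α : Type} [Enc α]

@[fun_prop] theorem ov_pt {u v : α → Str} (hu : PT u) (hv : PT v) : PT fun a => ov (u a) (v a) :=
  PT.foldl_select (f := fun _ => max) (by fun_prop) (PT.const _) (by fun_prop)
    (fun _ c b => max_choice c b)

@[fun_prop] theorem dist_pt {u v : α → Str} (hu : PT u) (hv : PT v) :
    PT fun a => dist (u a) (v a) := by unfold dist; fun_prop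

@[fun_prop] theorem cyc_pt {w u v : α → Str} (hw : PT w) (hu : PT u) (hv : PT v) :
    PT fun a => cyc (w a) (u a) (v a) := by unfold cyc; fun_prop

@[fun_prop] theorem path_pt {u v : α → Str} (hu : PT u) (hv : PT v) :
    PT fun a => path (u a) (v a) := by unfold path downs upsTo; fun_prop

@[fun_prop] theorem loop_pt {w u v : α → Str} (hw : PT w) (hu : PT u) (hv : PT v) :
    PT fun a => loop (w a) (u a) (v a) := by unfold loop; fun_prop

@[fun_prop] theorem src_pt {e : α → Arc} (he : PT e) : PT fun a => src (e a) := by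
  unfold src; fun_prop

@[fun_prop] theorem tgt_pt {e : α → Arc} (he : PT e) : PT fun a => tgt (e a) := by
  unfold tgt; fun_prop

@[fun_prop] theorem spell_pt {e : α → List Arc} (he : PT e) : PT fun a => spell (e a) := by
  unfold spell; fun_prop

@[fun_prop] theorem look_pt {t : α → Tab} {v : α → Str} (ht : PT t) (hv : PT v) :
    PT fun a => look (t a) (v a) := by unfold look; fun_prop

@[fun_prop] theorem subs_pt {S : α → List Str} (hS : PT S) : PT fun a => subs (S a) := by
  unfold subs; fun_prop

@[fun_prop] theorem infix_pt {u v : α → Str} (hu : PT u) (hv : PT v) :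
    PT fun a => u a <:+: v a :=
  (PT.bex (l := fun a => (v a).tails) (q := fun a t => u a <+: t) (by fun_prop)
    (by fun_prop)).of_iff fun a => by simp [List.infix_iff_prefix_suffix, and_comm]

@[fun_prop] theorem mx_pt {S : α → List Str} {v : α → Str} (hS : PT S) (hv : PT v) :
    PT fun a => Mx (S a) (v a) := by
  unfold Mx
  exact PT.and (by fun_prop) (PT.and (by fun_prop)
    (PT.ball hS (PT.imp (by fun_prop) (by fun_prop))))

section Hier
variable {γ δ : Type} [DecidableEq γ] [DecidableEq δ] {sr tg : γ → δ}

theorem hstep_perm (s : δ) (st : List γ × List γ × List γ) :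
    ((hstep sr tg s st).1 ++ (hstep sr tg s st).2.1 ++ (hstep sr tg s st).2.2).Perm
      (st.1 ++ st.2.1 ++ st.2.2) := by
  obtain ⟨a, b, c⟩ := st
  unfold hstep
  split
  · rename_i e h
    have h1 := List.perm_cons_erase (List.mem_of_find?_eq_some h)
    simp only [List.cons_append]
    exact (List.perm_middle.symm).trans (h1.symm.append_left _)
  · cases a with
    | nil => simp
    | cons x a => simp

variable [Enc γ] [Enc δ]

theorem hstep_pt (h1 : PT sr) (h2 : PT tg) {s : α → δ} {st : α → List γ × List γ × List γ}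
    (hs : PT s) (hst : PT st) : PT fun a => hstep sr tg (s a) (st a) := by
  refine PT.option_cases (o := fun a => (st a).2.2.find?
    (fun e => decide (sr e = curV tg (s a) (st a).1))) (by unfold curV; fun_prop)
    (f := fun a => ((st a).1.tail, (st a).1.take 1 ++ (st a).2.1, (st a).2.2))
    (g := fun a e => (e :: (st a).1, (st a).2.1, (st a).2.2.erase e)) (by fun_prop) (by fun_prop)
    (fun a h => by simp only [hstep, h]) (fun a b h => by simp only [hstep, h])

theorem hier_pt (h1 : PT sr) (h2 : PT tg) {s : α → δ} {E : α → List γ} (hs : PT s) (hE : PT E) :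
    PT fun a => hier sr tg (s a) (E a) := by
  refine PT.iterate_inv (f := fun a => hstep sr tg (s a)) (s := fun a => ([], [], E a))
    (fun a _ st => (st.1 ++ st.2.1 ++ st.2.2).Perm (E a)) (by fun_prop) (by fun_prop)
    (by fun_prop) (fun a => by simp) (fun a _ c _ h => (hstep_perm _ _).trans h)
    (hstep_pt h1 h2 (by fun_prop) (by fun_prop)) (B := fun a => sz (E a) + 4) (by fun_prop) ?_
  rintro a _ ⟨x, y, z⟩ _ h
  have h1 := PT.sz_perm h
  have h2 := sz_append (x ++ y) z
  have h3 := sz_append x y
  simp only [sz_mk] at *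
  omega

end Hier

end Crest.Agent.R287
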