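import Crest.Agent.R287.PT1

/-! Polynomial time: the predicates of the seeding rule and both phases. -/

set_option autoImplicit false

namespace Crest.Agent.R287

open Crest.Agent.Lib.PT

theorem mem_keys {t : Tab} {v : Str} (h : 0 < look t v) : v ∈ t.map Prod.fst := by
  induction t with
  | nil => simp [look] at h
  | cons e t ih =>
    obtain ⟨x, m⟩ := e
    by_cases h1 : v = x
    · simp [h1]
    · have : (v == x) = false := by simpa using h1
      simp only [look, List.lookup_cons, this] at h
      exact List.mem_cons_of_mem _ (ih h)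

open Classical in
/-- The arcs as pairs of vertices. -/
noncomputable def edges (A : Finset ℕ) (t : Tab) : List (Str × Str) :=
  ((t.map Prod.fst).filter fun v => decide (Up A (look t) v)).map (fun v => (v.dropLast, v)) ++
  ((t.map Prod.fst).filter fun v => decide (Dn A (look t) v)).map (fun v => (v, v.tail))

theorem mem_edges {A : Finset ℕ} {t : Tab} {u v : Str} :
    (u, v) ∈ edges A t ↔ Adj A (look t) u v := by
  simp only [edges, List.mem_append, List.mem_map (f := fun v : Str => (_, _)), List.mem_filter,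
    decide_eq_true_eq, Prod.mk.injEq, Adj]
  constructor
  · rintro (⟨w, h, rfl, rfl⟩ | ⟨w, h, rfl, rfl⟩)
    · exact Or.inl ⟨h.2, rfl⟩
    · exact Or.inr ⟨h.2, rfl⟩
  · rintro (⟨h, rfl⟩ | ⟨h, rfl⟩)
    · exact Or.inl ⟨v, ⟨mem_keys h.pos, h⟩, rfl, rfl⟩
    · exact Or.inr ⟨u, ⟨mem_keys h.pos, h⟩, rfl, rfl⟩

/-- The active vertices. -/
noncomputable def verts (A : Finset ℕ) (t : Tab) : List Str :=
  (edges A t).flatMap fun e => [e.1, e.2]

theorem mem_verts {A : Finset ℕ} {t : Tab} {u : Str} : u ∈ verts A t ↔ Act A (look t) u := by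
  simp only [verts, List.mem_flatMap, List.mem_cons, List.not_mem_nil, or_false, Act, ← mem_edges]
  constructor
  · rintro ⟨⟨a, b⟩, h, rfl | rfl⟩
    · exact ⟨b, Or.inl h⟩
    · exact ⟨a, Or.inr h⟩
  · rintro ⟨v, h | h⟩
    · exact ⟨_, h, Or.inl rfl⟩
    · exact ⟨_, h, Or.inr rfl⟩

variable {α : Type} [Enc α] {L : α → List ℕ} {V : α → List Str} {t : α → Tab}
  {Y : α → List (Str × Str)}

@[fun_prop] theorem LS_pt {v : α → Str} (hL : PT L) (ht : PT t) (hv : PT v) :
    PT fun a => LS (L a).toFinset (look (t a)) (v a) :=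
  PT.of_eq (g := fun a => ((L a).dedup.map fun x => look (t a) (x :: v a)).sum) (by fun_prop)
    fun a => by rw [LS, ← List.sum_toFinset _ (List.nodup_dedup _)]; congr 1; ext; simp

@[fun_prop] theorem RS_pt {v : α → Str} (hL : PT L) (ht : PT t) (hv : PT v) :
    PT fun a => RS (L a).toFinset (look (t a)) (v a) :=
  PT.of_eq (g := fun a => ((L a).dedup.map fun x => look (t a) (v a ++ [x])).sum) (by fun_prop)
    fun a => by rw [RS, ← List.sum_toFinset _ (List.nodup_dedup _)]; congr 1; ext; simp

@[fun_prop] theorem edges_pt (hL : PT L) (ht : PT t) :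
    PT fun a => edges (L a).toFinset (t a) := by
  unfold edges Up Dn; fun_prop

@[fun_prop] theorem verts_pt (hL : PT L) (ht : PT t) :
    PT fun a => verts (L a).toFinset (t a) := by
  unfold verts; fun_prop

@[fun_prop] theorem Act_pt {v : α → Str} (hL : PT L) (ht : PT t) (hv : PT v) :
    PT fun a => Act (L a).toFinset (look (t a)) (v a) :=
  PT.of_iff (q := fun a => v a ∈ verts (L a).toFinset (t a)) (by fun_prop) fun _ => mem_verts

@[fun_prop] theorem Cn_pt {u v : α → Str} (hL : PT L) (ht : PT t) (hu : PT u) (hv : PT v) :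
    PT fun a => Cn (L a).toFinset (look (t a)) (u a) (v a) := by
  refine PT.of_iff (q := fun a => u a = v a ∨ ∃ c ∈ parts (edges (L a).toFinset (t a)),
    u a ∈ c ∧ v a ∈ c) (PT.or (by fun_prop) (PT.bex (by fun_prop) (by fun_prop))) fun a => ?_
  rw [← parts_spec, Cn]
  simp only [mem_edges]

theorem exCn_pt {u : α → Str} {P : α → Str → Prop} (hL : PT L) (ht : PT t) (hu : PT u)
    (hP : PT fun x : α × Str => P x.1 x.2) :
    PT fun a => ∃ v, Cn (L a).toFinset (look (t a)) (u a) v ∧ P a v := by
  refine PT.of_iff (q := fun a => ∃ v ∈ u a :: verts (L a).toFinset (t a),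
    Cn (L a).toFinset (look (t a)) (u a) v ∧ P a v)
    (PT.bex (by fun_prop) (PT.and (by fun_prop) hP)) fun a =>
    ⟨fun ⟨v, _, h⟩ => ⟨v, h⟩, fun ⟨v, h⟩ => ⟨v, ?_, h⟩⟩
  rw [List.mem_cons, mem_verts]
  exact h.1.eq_or_act.imp Eq.symm id

@[fun_prop] theorem Wt_pt {v : α → Str} (hL : PT L) (hV : PT V) (ht : PT t) (hv : PT v) :
    PT fun a => Wt (L a).toFinset (V a) (look (t a)) (v a) := by
  unfold Wt; fun_prop

@[fun_prop] theorem Canon_pt {y : α → Str} (hL : PT L) (hV : PT V) (ht : PT t) (hy : PT y) :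
    PT fun a => Canon (L a).toFinset (V a) (look (t a)) (y a) := by
  refine PT.of_iff (PT.not (exCn_pt (P := fun a v => ¬ ((y a).length < v.length ∨
    ((y a).length = v.length ∧ (V a).idxOf (y a) ≤ (V a).idxOf v))) hL ht hy (by fun_prop)))
    fun a => ?_
  simp only [Canon, not_exists, not_and, not_not]

@[fun_prop] theorem Near_pt {y u : α → Str} (hL : PT L) (hV : PT V) (ht : PT t) (hy : PT y)
    (hu : PT u) : PT fun a => Near (L a).toFinset (V a) (look (t a)) (y a) (u a) :=
  exCn_pt hL ht hy (by fun_prop)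

@[fun_prop] theorem Trouble_pt {y u : α → Str} (hL : PT L) (hV : PT V) (ht : PT t) (hY : PT Y)
    (hy : PT y) (hu : PT u) :
    PT fun a => Trouble (L a).toFinset (V a) (look (t a)) (Y a) (y a) (u a) :=
  PT.bex hY (by fun_prop)

@[fun_prop] theorem Rs_pt {y u : α → Str} (hL : PT L) (hV : PT V) (ht : PT t) (hY : PT Y)
    (hy : PT y) (hu : PT u) :
    PT fun a => Rs (L a).toFinset (V a) (look (t a)) (Y a) (y a) (u a) := by
  unfold Rs; fun_prop

@[fun_prop] theorem Low_pt {n : α → ℕ} {u : α → Str} (hL : PT L) (ht : PT t) (hn : PT n)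
    (hu : PT u) : PT fun a => Low (L a).toFinset (look (t a)) (n a) (u a) :=
  exCn_pt hL ht hu (by fun_prop)

@[fun_prop] theorem Joint_pt {u v : α → Str} (hL : PT L) (hV : PT V) (ht : PT t)
    (hu : PT u) (hv : PT v) : PT fun a => Joint (L a).toFinset (V a) (look (t a)) (u a) (v a) :=
  exCn_pt hL ht hu (exCn_pt (L := fun x : α × Str => L x.1) (t := fun x : α × Str => t x.1)
    (by fun_prop) (by fun_prop) (by fun_prop) (by fun_prop))

@[fun_prop] theorem Blocked_pt {y : α → Str} (hL : PT L) (hV : PT V) (ht : PT t) (hY : PT Y)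
    (hy : PT y) : PT fun a => Blocked (L a).toFinset (V a) (look (t a)) (Y a) (y a) := by
  refine PT.of_iff (q := fun a => ∃ u ∈ verts (L a).toFinset (t a),
    Rs (L a).toFinset (V a) (look (t a)) (Y a) (y a) u ∧
    (Low (L a).toFinset (look (t a)) (y a).length u ∨
      Low (L a).toFinset (look (t a)) (Wt (L a).toFinset (V a) (look (t a)) u + 1) u ∨
    ∃ u' ∈ y a :: verts (L a).toFinset (t a),
      (u' = y a ∨ Rs (L a).toFinset (V a) (look (t a)) (Y a) (y a) u') ∧
      ¬ Cn (L a).toFinset (look (t a)) u u' ∧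
      Low (L a).toFinset (look (t a)) ((y a).length + Wt (L a).toFinset (V a) (look (t a)) u) u ∧
      Low (L a).toFinset (look (t a)) ((y a).length + Wt (L a).toFinset (V a) (look (t a)) u') u' ∧
      Joint (L a).toFinset (V a) (look (t a)) u u'))
    (PT.bex (by fun_prop) (PT.and (by fun_prop) (PT.or (by fun_prop) (PT.or (by fun_prop)
      (PT.bex (by fun_prop) (by fun_prop)))))) fun a => ?_
  constructor
  · rintro ⟨u, _, h1, h2⟩
    exact ⟨u, h1, h2.imp id (Or.imp id fun ⟨u', _, h⟩ => ⟨u', h⟩)⟩
  · rintro ⟨u, h1, h2⟩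
    refine ⟨u, mem_verts.2 h1.2.1, h1, h2.imp id (Or.imp id fun ⟨u', h⟩ => ⟨u', ?_, h⟩)⟩
    rw [List.mem_cons, mem_verts]
    exact h.1.imp id fun h => h.2.1

@[fun_prop] theorem Seed_pt {y : α → Str} (hL : PT L) (hV : PT V) (ht : PT t) (hY : PT Y)
    (hy : PT y) : PT fun a => Seed (L a).toFinset (V a) (look (t a)) (Y a) (y a) := by
  unfold Seed; fun_prop

@[fun_prop] theorem Rt_pt {T : α → List Tri} {x : α → Str} (hL : PT L) (ht : PT t) (hT : PT T)
    (hx : PT x) : PT fun a => Rt (L a).toFinset (look (t a)) (T a) (x a) :=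
  PT.or (by fun_prop) (PT.bex hT (by fun_prop))

@[fun_prop] theorem Good_pt {T : α → List Tri} {w u v : α → Str} (hL : PT L) (hV : PT V)
    (ht : PT t) (hY : PT Y) (hT : PT T) (hw : PT w) (hu : PT u) (hv : PT v) :
    PT fun a => Good (L a).toFinset (V a) (look (t a)) (Y a)
      (Rt (L a).toFinset (look (t a)) (T a)) (w a) (u a) (v a) :=
  PT.and (by fun_prop) (PT.and (by fun_prop) (PT.and (by fun_prop) (PT.and (by fun_prop)
    (PT.ball hY (PT.imp (by fun_prop) (by fun_prop))))))

@[fun_prop] theorem triples_pt (hV : PT V) : PT fun a => triples (V a) := by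
  unfold triples; fun_prop

theorem phase2_pt (hL : PT L) (hV : PT V) (ht : PT t) (hY : PT Y) :
    PT fun a => phase2 (L a).toFinset (V a) (look (t a)) (Y a) := by
  refine PT.iterate_grow (f := fun a => step2 (L a).toFinset (V a) (look (t a)) (Y a))
    (by fun_prop) (by fun_prop) (PT.const _) (by unfold step2; fun_prop)
    (G := fun a => sz (triples (V a))) (by fun_prop) fun a c => ?_
  unfold step2
  generalize hF : List.take 1 _ = F
  have h1 : sz F ≤ sz (triples (V a)) :=
    hF ▸ sz_sublist ((List.take_sublist _ _).trans List.filter_sublist)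
  have := sz_append F c
  omega

theorem output_pt (hL : PT L) (hV : PT V) (ht : PT t) (hY : PT Y)
    (hB : PB fun x : α × Str => look (t x.1) x.2) :
    PT fun a => output (L a).toFinset (V a) (look (t a)) (Y a) := by
  have h1 := phase2_pt hL hV ht hY
  have h2 : PT fun a => arcs (L a).toFinset (V a) (look (t a)) :=
    PT.flatMap hV (PT.append
      (PT.replicate (by fun_prop) (hB.sub _) (by fun_prop))
      (PT.replicate (by fun_prop) (hB.sub _) (by fun_prop)))
  refine spell_pt (hier_pt (src_pt PT.id) (tgt_pt PT.id) (PT.const _) ?_).snd.fst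
  exact h2.append (PT.flatMap h1 (by fun_prop))

variable {S : α → List Str} {st : α → St}

@[fun_prop] theorem newY_pt (hS : PT S) (hst : PT st) : PT fun a => newY (S a) (st a) := by
  unfold newY; fun_prop

@[fun_prop] theorem val_pt {v : α → Str} (hS : PT S) (hst : PT st) (hv : PT v) :
    PT fun a => val (S a) (st a) (v a) := by
  have h : PT fun a => ∃ p ∈ newY (S a) (st a), p.2 = v a := PT.bex (by fun_prop) (by fun_prop)
  unfold val
  exact PT.nat_max (by fun_prop) (PT.ite' h (by fun_prop) (by fun_prop))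

theorem step1_pt (hS : PT S) (hst : PT st) : PT fun a => step1 (S a) (st a) := by
  unfold step1; fun_prop

theorem st1_tab (S : List Str) (n : ℕ) (hn : n ≤ S.flatten.length) :
    (∀ e ∈ (st1 S n).2.1, e.1 ∈ subs S ∧ e.2 ≤ S.flatten.length + 1) ∧
      (st1 S n).2.1.length ≤ n * (subs S).length ∧
      (st1 S n).2.2.length ≤ n * (subs S).length := by
  induction n with
  | zero => simp [st1]
  | succ n ih =>
    obtain ⟨h1, h2, h3⟩ := ih (by omega)
    rw [st1_succ, step1]
    refine ⟨fun e he => ?_, ?_, ?_⟩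
    · rcases List.mem_append.1 he with he | he
      · simp only [List.mem_map, List.mem_filter, decide_eq_true_eq, st1_fst] at he
        obtain ⟨v, ⟨h4, h5⟩, rfl⟩ := he
        refine ⟨h4, ?_⟩
        have := finM_le S v
        rwa [finM_val h4, show S.flatten.length - v.length = n by omega] at this
      · exact h1 e he
    · simp only [List.length_append, List.length_map, Nat.succ_mul]
      have := List.length_filter_le (fun v : Str => decide (v.length = (st1 S n).1)) (subs S)
      omega
    · simp only [List.length_append, newY, List.length_map, Nat.succ_mul]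
      rw [add_comm]
      exact Nat.add_le_add h3 (List.length_filter_le _ _)

theorem st1_pt : PT fun S : List Str => st1 S S.flatten.length := by
  refine PT.iterate (f := fun S => step1 S) (by fun_prop) (by fun_prop) (by fun_prop)
    (step1_pt (by fun_prop) (by fun_prop))
    (B := fun S => 4 * S.flatten.length + 1 +
      (S.flatten.length * (subs S).length * (sz (subs S) + 4 * S.flatten.length + 6 + 1) + 1 +
      (S.flatten.length * (subs S).length * (2 * sz (subs S) + 1 + 1) + 1) + 1) + 1)
    (by fun_prop) fun S n hn => ?_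
  change sz (st1 S n) ≤ _
  obtain ⟨h1, h2, h3⟩ := st1_tab S n hn
  have e1 : sz (st1 S n).1 ≤ 4 * S.flatten.length + 1 := by
    have := sz_nat_le_self (st1 S n).1
    rw [st1_fst] at this ⊢
    omega
  have e2 := sz_list_le (l := (st1 S n).2.1) (B := sz (subs S) + 4 * S.flatten.length + 6) (by
    intro e he
    have := sz_le_of_mem (h1 e he).1
    have := sz_nat_le_self e.2
    have := (h1 e he).2
    rw [sz_prod]; omega)
  have e3 := sz_list_le (l := (st1 S n).2.2) (B := 2 * sz (subs S) + 1) (by
    intro p hp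
    obtain ⟨j, _, hj⟩ := mem_st1.1 hp
    obtain ⟨a1, _, a2⟩ := mem_newY.1 hj
    have := sz_le_of_mem a1
    have : sz p.2 ≤ sz p.1 := a2 ▸ sz_sublist (List.drop_sublist _ _)
    rw [sz_prod]; omega)
  have e4 := Nat.mul_le_mul_right (sz (subs S) + 4 * S.flatten.length + 6 + 1)
    (h2.trans (Nat.mul_le_mul_right _ hn))
  have e5 := Nat.mul_le_mul_right (2 * sz (subs S) + 1 + 1) (h3.trans (Nat.mul_le_mul_right _ hn))
  rw [sz_prod, sz_prod]
  omega

theorem scs_pt : PT scs :=
  output_pt (L := fun S : List Str => S.flatten) (V := subs) (by fun_prop) (by fun_prop)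
    st1_pt.snd.fst st1_pt.snd.snd
    (PB.mono (g := fun x : List Str × Str => x.1.flatten.length + 1) (by fun_prop)
      fun x => finM_le x.1 x.2)

end Crest.Agent.R287
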