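import Crest.Agent.R287.Forced

/-! Phase 2: joining the components to the root. -/

set_option autoImplicit false

namespace Crest.Agent.R287

abbrev Tri := Str × Str × Str

section Defs
variable (A : Finset ℕ) (V : List Str) (M : Str → ℕ) (Y : List (Str × Str))

/-- The closed walk `w → u → v → w` roots the components of `u` and `v`. -/
def Good (R : Str → Prop) (w u v : Str) : Prop :=
  R w ∧ ¬ R u ∧ ¬ R v ∧
    (cyc w u v ≤ Wt A V M u ∨ (¬ Cn A M u v ∧ cyc w u v ≤ Wt A V M u + Wt A V M v)) ∧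
    ∀ p ∈ Y, Cn A M u p.1 ∨ Cn A M v p.1 → R p.2 ∨ Cn A M u p.2 ∨ Cn A M v p.2

/-- Rooted vertices. -/
def Rt (L : List Tri) (x : Str) : Prop :=
  Cn A M [] x ∨ ∃ t ∈ L, Cn A M t.2.1 x ∨ Cn A M t.2.2 x

def triples : List Tri := ([] :: V).flatMap fun w => V.flatMap fun u => V.map fun v => (w, u, v)

open Classical in
noncomputable def step2 (L : List Tri) : List Tri :=
  ((triples V).filter fun t => decide (Good A V M Y (Rt A M L) t.1 t.2.1 t.2.2)).take 1 ++ L

noncomputable def phase2 : List Tri := (step2 A V M Y)^[V.length] []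

noncomputable def allArcs : List Arc :=
  arcs A V M ++ (phase2 A V M Y).flatMap fun t => loop t.1 t.2.1 t.2.2

noncomputable def output : Str := spell (hier src tgt [] (allArcs A V M Y)).2.1

end Defs

variable {S : List Str} {A : Finset ℕ} {V : List Str} {M : Str → ℕ} {Y : List (Str × Str)}

theorem Spec.seed_act (sp : Spec A V M Y S) {p : Str × Str} (hp : p ∈ Y) : Act A M p.2 := by
  have := sp.m5 p hp
  rcases le_total (LS A M p.2) (RS A M p.2) with h | h
  · exact Up.act (by unfold Up; omega)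
  · exact Dn.act (by unfold Dn; omega)

/-- **Theorem B.** -/
theorem Spec.exists_good (sp : Spec A V M Y S) (R : Str → Prop) (h0 : R [])
    (hR : ∀ u v, Cn A M u v → R u → R v) (hI : ∀ p ∈ Y, R p.1 → R p.2)
    (h : ∃ z, Act A M z ∧ ¬ R z) :
    ∃ w u v, w ∈ [] :: V ∧ u ∈ V ∧ v ∈ V ∧ Good A V M Y R w u v := by
  have hC := sp.circ
  have memV : ∀ u, Act A M u → ¬ R u → u ∈ V := by
    intro u h1 h2
    rcases hC.mem_of_act h1 with rfl | h3
    · exact absurd h0 h2
    · exact h3
  have memV' : ∀ u, Act A M u → u ∈ [] :: V := fun u h1 => List.mem_cons.2 (hC.mem_of_act h1)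
  have nR : ∀ u v, Cn A M u v → ¬ R u → ¬ R v := fun u v h1 h2 h3 => h2 (hR _ _ h1.symm h3)
  obtain ⟨y, ⟨ya, yr⟩, hm⟩ := (InvImage.wf (fun v : Str => toLex (v.length, V.idxOf v))
    wellFounded_lt).has_min {z | Act A M z ∧ ¬ R z} h
  simp only [Set.mem_ofPred_eq, InvImage, Prod.Lex.toLex_lt_toLex, and_imp] at hm
  have low : ∀ z, Act A M z → z.length < y.length → R z := by
    intro z h1 h2
    by_contra h3
    exact hm z h1 h3 (Or.inl h2)
  have can : Canon A V M y := by
    intro v hv
    have := hm v (hv.act ya) (nR _ _ hv yr)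
    omega
  have cheap : ∀ u, Act A M u → ¬ R u → Low A M (Wt A V M u + 1) u →
      ∃ w u v, w ∈ [] :: V ∧ u ∈ V ∧ v ∈ V ∧ Good A V M Y R w u v := by
    rintro u h1 h2 ⟨v, h3, h4⟩
    have h5 := memV v (h3.act h1) (nR _ _ h3 h2)
    refine ⟨[], v, v, List.mem_cons_self, h5, h5, h0, nR _ _ h3 h2, nR _ _ h3 h2, Or.inl ?_, ?_⟩
    · have := dist_le_length [] v
      simp only [cyc, dist_self, dist_nil_right, ← h3.wt]
      omega
    · intro p hp h6
      have h7 : Cn A M v p.1 := by tauto
      have := (sp.y1 p hp).1.exp v h7.symm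
      rw [← h7.wt, ← h3.wt] at this
      omega
  have uniq : ∀ y', ¬ R y' → ∀ p ∈ Y, Canon A V M y' → Act A M y' → Cn A M y' p.1 → p.1 = y' := by
    intro y' h0 p hp h1 h2 h3
    have h4 := h1 _ h3
    have h5 := (sp.y1 p hp).1.1 _ h3.symm
    exact (List.idxOf_inj (memV _ (h3.act h2) (nR _ _ h3 h0))).1 (by omega)
  by_cases c1 : Low A M (Wt A V M y + 1) y
  · exact cheap y ya yr c1
  have c2 : Wt A V M y < y.length := exp_of_not_low c1 y (Cn.refl y)
  have yV := memV y ya yr
  by_cases c3 : Blocked A V M Y y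
  swap
  · have hs : Seed A V M Y y := ⟨can, ya, c2, c3⟩
    have hp := sp.y2 y hs
    have xa := sp.seed_act hp
    have hW := hC.wt_pos ya
    have xr := low _ xa (by simp; omega)
    refine ⟨_, y, y, memV' _ xa, yV, yV, xr, yr, yr, Or.inl ?_, ?_⟩
    · obtain ⟨ξ, h1, h2⟩ := hs.exists_cyl hC 0
      have hx : y.drop (Wt A V M y) = win ξ 0 (0 + y.length - Wt A V M y) := by
        conv_lhs => rw [h2, drop_win, ← h2, ← h1.win_sub]
        simp
      have e1 := dist_win_le' ξ (l := 0) (r := 0 + y.length - Wt A V M y) (l' := 0)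
        (r' := 0 + y.length) le_rfl (by omega)
      rw [← hx, ← h2] at e1
      have e2 := dist_of_suffix (List.drop_suffix (Wt A V M y) y)
      simp only [cyc, dist_self]
      omega
    · intro p hp' h3
      have h4 := uniq y yr p hp' can ya (by tauto)
      left
      rw [(sp.y1 p hp').2, h4]
      exact xr
  have noseed : ∀ p ∈ Y, ¬ Cn A M y p.1 := by
    intro p hp h1
    have h2 := (sp.y1 p hp).1
    rw [uniq y yr p hp can ya h1] at h2
    exact h2.2.2.2 c3
  by_cases c4 : ∃ u, Rs A V M Y y u ∧ R u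
  · obtain ⟨u, ⟨_, h1, h2, ⟨τ, h3, h4⟩ | ⟨p, h3, h4, h5⟩⟩, h6⟩ := c4
    · have h7 := memV τ (h3.act ya) (nR _ _ h3 yr)
      refine ⟨u, τ, τ, memV' _ h1, h7, h7, h6, nR _ _ h3 yr, nR _ _ h3 yr, Or.inl ?_, ?_⟩
      · rw [← h3.wt]; simp only [cyc] at h4 ⊢; omega
      · intro p hp h8
        exact absurd (h3.trans (by tauto)) (noseed p hp)
    · obtain ⟨h7, h8⟩ := sp.y1 p h3
      have r2 := nR _ _ h4 yr
      have r1 : ¬ R p.1 := fun e => r2 (hI p h3 e)
      have m1 := memV _ h7.2.1 r1
      have m2 := memV _ (h4.act ya) r2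
      have h9 : p.1.length - p.2.length = Wt A V M p.1 := by
        have := h7.2.2.1
        rw [h8, List.length_drop]; omega
      have h10 : ¬ Cn A M p.1 p.2 := fun e => noseed p h3 (h4.trans e.symm)
      have h11 : ∀ p' ∈ Y, Cn A M p.2 p'.1 ∨ Cn A M p.1 p'.1 → Cn A M p.2 p'.2 := by
        rintro p' hp' (e | e)
        · exact absurd (h4.trans e) (noseed p' hp')
        · rw [(sp.y1 p' hp').2, uniq _ r1 p' hp' h7.1 h7.2.1 e, ← h8]
          exact Cn.refl _
      rw [h9, h4.wt] at h5
      rcases h5 with h5 | h5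
      · refine ⟨u, p.2, p.1, memV' _ h1, m2, m1, h6, r2, r1, Or.inr ⟨fun e => h10 e.symm, ?_⟩,
          fun p' hp' e => Or.inr (Or.inl (h11 p' hp' e))⟩
        simp only [cyc] at h5 ⊢; omega
      · refine ⟨u, p.1, p.2, memV' _ h1, m1, m2, h6, r1, r2, Or.inr ⟨h10, ?_⟩,
          fun p' hp' e => Or.inr (Or.inr (h11 p' hp' e.symm))⟩
        simp only [cyc] at h5 ⊢; omega
  push Not at c4
  obtain ⟨u, hu, ⟨v, h1, h2⟩ | h1 | ⟨u', h1, h2, h3, h4, v, h5, v', h6, h7⟩⟩ := c3
  · exact absurd (low v (h1.act hu.2.1) h2) (nR _ _ h1 (c4 u hu))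
  · exact cheap u hu.2.1 (c4 u hu) h1
  have short : ∀ u, Low A M (y.length + Wt A V M u) u → ∀ p ∈ Y, Cn A M u p.1 → R p.2 := by
    rintro u ⟨z, e1, e2⟩ p hp e3
    obtain ⟨e4, e5⟩ := sp.y1 p hp
    have := e4.1.le (e3.symm.trans e1)
    have := e4.2.2.1
    refine low _ (sp.seed_act hp) ?_
    rw [e5, List.length_drop, ← e3.wt] at *
    omega
  have a' : Act A M u' ∧ ¬ R u' := by
    rcases h1 with rfl | h1
    · exact ⟨ya, yr⟩
    · exact ⟨h1.2.1, c4 _ h1⟩
  have r1 := nR _ _ h5 (c4 u hu)
  have r2 := nR _ _ h6 a'.2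
  have m1 := memV _ (h5.act hu.2.1) r1
  have m2 := memV _ (h6.act a'.1) r2
  have h8 : ¬ Cn A M v v' := fun e => h2 ((h5.trans e).trans h6.symm)
  have h9 : ∀ p ∈ Y, Cn A M v p.1 ∨ Cn A M v' p.1 → R p.2 := by
    rintro p hp (e | e)
    · exact short u h3 p hp (h5.trans e)
    · exact short u' h4 p hp (h6.trans e)
  rw [h5.wt, h6.wt] at h7
  rcases h7 with h7 | h7
  · exact ⟨[], v, v', List.mem_cons_self, m1, m2, h0, r1, r2, Or.inr ⟨h8, h7⟩,
      fun p hp e => Or.inl (h9 p hp e)⟩
  · exact ⟨[], v', v, List.mem_cons_self, m2, m1, h0, r2, r1,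
      Or.inr ⟨fun e => h8 e.symm, by omega⟩, fun p hp e => Or.inl (h9 p hp e.symm)⟩

open Classical in
/-- Weighted count of the vertices satisfying `P`. -/
noncomputable def sw (V : List Str) (f : Str → ℕ) (P : Str → Prop) : ℕ :=
  ((V.filter (fun v => decide (P v))).map f).sum

theorem sw_add_le (V : List Str) (f : Str → ℕ) {P Q R : Str → Prop} (h1 : ∀ v, P v → ¬ Q v)
    (h2 : ∀ v, P v ∨ Q v → R v) : sw V f P + sw V f Q ≤ sw V f R := by
  unfold sw
  induction V with
  | nil => simp
  | cons v V ih =>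
    have := h1 v
    have := h2 v
    by_cases hp : P v <;> by_cases hq : Q v <;> by_cases hr : R v <;>
      simp_all <;> omega

theorem sw_pos (V : List Str) {P : Str → Prop} {v : Str} (hv : v ∈ V) (h : P v) :
    0 < sw V (fun _ => 1) P := by
  classical
  simp only [sw, List.map_const', List.sum_replicate, smul_eq_mul, mul_one]
  exact List.length_pos_of_mem (List.mem_filter.2 ⟨hv, by simpa using h⟩)

theorem sw_le_sum (V : List Str) (f : Str → ℕ) (P : Str → Prop) : sw V f P ≤ (V.map f).sum :=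
  (List.filter_sublist.map f).sum_le_sum (by simp)

theorem Rt.of_cn {L : List Tri} {u v : Str} (h : Cn A M u v) (hu : Rt A M L u) : Rt A M L v := by
  rcases hu with h1 | ⟨t, h1, h2 | h2⟩
  · exact Or.inl (h1.trans h)
  · exact Or.inr ⟨t, h1, Or.inl (h2.trans h)⟩
  · exact Or.inr ⟨t, h1, Or.inr (h2.trans h)⟩

theorem rt_cons {L : List Tri} {t : Tri} {x : Str} :
    Rt A M (t :: L) x ↔ Rt A M L x ∨ Cn A M t.2.1 x ∨ Cn A M t.2.2 x := by
  simp only [Rt, List.mem_cons, exists_eq_or_imp]
  rw [or_assoc (a := Cn A M [] x), or_comm (a := ∃ a ∈ L, _)]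

/-- The invariant of phase 2 after `n` rounds. -/
structure Inv2 (A : Finset ℕ) (V : List Str) (M : Str → ℕ) (Y : List (Str × Str)) (n : ℕ)
    (L : List Tri) : Prop where
  seeds : ∀ p ∈ Y, Rt A M L p.1 → Rt A M L p.2
  cost : (L.map fun t => cyc t.1 t.2.1 t.2.2).sum +
    sw V (fun v => M v - LS A M v) (fun v => ¬ Rt A M L v) ≤ (V.map fun v => M v - LS A M v).sum
  conn : ∀ X : Str → Prop, X [] → (∀ a b, Cn A M a b → X a → X b) →
    (∀ t ∈ L, X t.1 → X t.2.1 ∧ X t.2.2) → ∀ x, Rt A M L x → X x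
  prog : (∀ z, Act A M z → Rt A M L z) ∨
    sw V (fun _ => 1) (fun v => ¬ Rt A M L v) + n ≤ V.length

theorem Spec.inv2 (sp : Spec A V M Y S) (n : ℕ) : Inv2 A V M Y n ((step2 A V M Y)^[n] []) := by
  induction n with
  | zero =>
    refine ⟨?_, by simpa using sw_le_sum _ _ _, ?_, Or.inr ?_⟩
    · rintro p hp (h | ⟨t, h, _⟩)
      · have := (sp.y1 p hp).1.exp _ h.symm
        simp at this
      · simp at h
    · rintro X h0 h1 _ x (h | ⟨t, h, _⟩)
      · exact h1 _ _ h h0
      · simp at h
    · simpa using sw_le_sum V (fun _ => 1) _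
  | succ n ih =>
    rw [Function.iterate_succ_apply']
    generalize (step2 A V M Y)^[n] [] = L at ih
    obtain ⟨i1, i2, i3, i4⟩ := ih
    unfold step2
    generalize hf : List.filter _ (triples V) = F
    rcases F with _ | ⟨t, r⟩
    · simp only [List.take_nil, List.nil_append]
      refine ⟨i1, i2, i3, Or.inl ?_⟩
      by_contra h1
      push Not at h1
      obtain ⟨w, u, v, h2, h3, h4, h5⟩ := sp.exists_good (Rt A M L) (Or.inl (Cn.refl _))
        (fun _ _ => Rt.of_cn) i1 h1
      rw [List.filter_eq_nil_iff] at hf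
      refine hf (w, u, v) ?_ (by simpa using h5)
      simp only [triples, List.mem_flatMap, List.mem_map]
      exact ⟨w, h2, u, h3, v, h4, rfl⟩
    · have ht : t ∈ t :: r := List.mem_cons_self
      rw [← hf] at ht
      obtain ⟨w, u, v⟩ := t
      simp only [List.mem_filter, triples, List.mem_flatMap, List.mem_map, Prod.mk.injEq,
        decide_eq_true_eq] at ht
      obtain ⟨⟨w', _, u', hu, v', _, rfl, rfl, rfl⟩, g1, g2, g3, g4, g5⟩ := ht
      simp only [List.take_succ_cons, List.take_zero, List.singleton_append]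
      have key : ∀ f : Str → ℕ, sw V f (fun x => ¬ Rt A M ((w', u', v') :: L) x) +
          sw V f (fun x => Cn A M u' x ∨ Cn A M v' x) ≤ sw V f (fun x => ¬ Rt A M L x) := by
        intro f
        refine sw_add_le V f (fun x h1 h2 => h1 (rt_cons.2 (Or.inr h2))) ?_
        rintro x (h1 | h1 | h1) h2
        · exact h1 (rt_cons.2 (Or.inl h2))
        · exact g2 (h2.of_cn h1.symm)
        · exact g3 (h2.of_cn h1.symm)
      refine ⟨fun p hp h1 => ?_, ?_, fun X h0 h1 h2 x h3 => ?_, ?_⟩
      · rw [rt_cons] at h1 ⊢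
        rcases h1 with h1 | h1
        · exact Or.inl (i1 p hp h1)
        · exact g5 p hp h1
      · have k1 := key (fun v => M v - LS A M v)
        have k2 : cyc w' u' v' ≤
            sw V (fun v => M v - LS A M v) (fun x => Cn A M u' x ∨ Cn A M v' x) := by
          rcases g4 with g4 | ⟨g4, g6⟩
          · exact g4.trans (le_trans (Nat.le_add_right _ _)
              (sw_add_le V _ (P := Cn A M u') (Q := fun _ => False) (by simp)
                (fun _ h => Or.inl (by simpa using h))))
          · exact g6.trans (sw_add_le V _ (P := Cn A M u') (Q := Cn A M v')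
              (fun x h1 h2 => g4 (h1.trans h2.symm)) (fun _ h => h))
        simp only [List.map_cons, List.sum_cons]
        omega
      · have h4 := i3 X h0 h1 (fun t ht => h2 t (List.mem_cons_of_mem _ ht))
        have h5 := h2 _ List.mem_cons_self (h4 _ g1)
        rcases rt_cons.1 h3 with h3 | h3 | h3
        · exact h4 x h3
        · exact h1 _ _ h3 h5.1
        · exact h1 _ _ h3 h5.2
      · rcases i4 with i4 | i4
        · exact Or.inl fun z hz => rt_cons.2 (Or.inl (i4 z hz))
        · right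
          have k1 := key (fun _ => 1)
          have k2 := sw_pos V (P := fun x => Cn A M u' x ∨ Cn A M v' x) hu (Or.inl (Cn.refl _))
          omega

theorem exists_mx {s : Str} (hs : s ∈ S) (hne : s ≠ []) : ∃ t, Mx S t ∧ s <:+: t := by
  obtain ⟨t, h1, h2⟩ := Finset.exists_max_image (S.toFinset.filter (fun t => s <:+: t))
    List.length ⟨s, by simp [hs]⟩
  simp only [Finset.mem_filter, List.mem_toFinset, and_imp] at h1 h2
  refine ⟨t, ⟨h1.1, ?_, fun t' e1 e2 => h2 t' e1 (h1.2.trans e2)⟩, h1.2⟩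
  rintro rfl
  exact hne (List.infix_nil.1 h1.2)

/-- Correctness of the whole algorithm, given phase 1. -/
theorem Spec.output_spec (sp : Spec A V M Y S) (hA : ∀ s ∈ S, ∀ a ∈ s, a ∈ A) :
    (∀ s ∈ S, s <:+: output A V M Y) ∧
    ∀ T' : Str, (∀ s ∈ S, s <:+: T') → (output A V M Y).length ≤ 2 * T'.length := by
  have hC := sp.circ
  obtain ⟨_, i2, i3, i4⟩ : Inv2 A V M Y V.length (phase2 A V M Y) := sp.inv2 V.length
  have hbal : ((allArcs A V M Y).map src).Perm ((allArcs A V M Y).map tgt) := by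
    unfold allArcs
    rw [List.map_append, List.map_append]
    refine hC.balanced.append ?_
    induction phase2 A V M Y with
    | nil => simp
    | cons t L ih =>
      simp only [List.flatMap_cons, List.map_append]
      exact (isWalk_loop _ _ _).balanced.append ih
  obtain ⟨h1, ⟨rest, h2, _⟩, h4⟩ := hier_main (src := src) (tgt := tgt) [] _ hbal
  unfold output
  generalize (hier src tgt [] (allArcs A V M Y)).2.1 = post at h1 h2 h4
  have hrt : ∀ z, Act A M z → Rt A M (phase2 A V M Y) z := by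
    rcases i4 with i4 | i4
    · exact i4
    · intro z hz
      rcases hC.mem_of_act hz with rfl | h5
      · exact Or.inl (Cn.refl _)
      · by_contra h6
        have := sw_pos V (P := fun v => ¬ Rt A M (phase2 A V M Y) v) h5 h6
        omega
  have hX := i3 (fun v => v = [] ∨ ∃ f ∈ post, v = tgt f) (Or.inl rfl) (by
    intro a b hab ha
    refine hab.ind (fun v => v = [] ∨ ∃ f ∈ post, v = tgt f) ha ?_
    intro a b _ ha hab
    rcases hab with hab | hab
    · obtain ⟨e, he, rfl, rfl⟩ := hC.exists_arc hab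
      exact (h4 e (List.mem_append_left _ he) (Or.inl ha)).2.2
    · obtain ⟨e, he, rfl, rfl⟩ := hC.exists_arc hab
      exact (h4 e (List.mem_append_left _ he) (Or.inr ha)).2.1) (by
    intro t ht hw
    have hm : ∀ e ∈ loop t.1 t.2.1 t.2.2, e ∈ allArcs A V M Y := fun e he =>
      List.mem_append_right _ (List.mem_flatMap.2 ⟨t, ht, he⟩)
    have a1 := (isWalk_path t.1 t.2.1).closed (fun v => v = [] ∨ ∃ f ∈ post, v = tgt f)
      (fun e he hs => (h4 e (hm e (by simp [loop, he])) (Or.inl hs)).2.2) hw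
    exact ⟨a1, (isWalk_path t.2.1 t.2.2).closed (fun v => v = [] ∨ ∃ f ∈ post, v = tgt f)
      (fun e he hs => (h4 e (hm e (by simp [loop, he])) (Or.inl hs)).2.2) a1⟩)
  constructor
  · intro s hs
    by_cases hne : s = []
    · rw [hne]; exact List.nil_infix
    obtain ⟨t, h5, h6⟩ := exists_mx hs hne
    refine h6.trans ?_
    have h7 : Up A M t := by
      have h8 := sp.mx t h5
      have h9 : LS A M t = 0 := by
        refine Finset.sum_eq_zero fun a _ => ?_
        by_contra h10
        obtain ⟨t', e1, e2⟩ := sp.inf _ (hC.supp (a :: t) (by omega))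
        have := h5.2.2 t' e1 ((List.suffix_cons _ _).isInfix.trans e2)
        have := e2.length_le
        simp only [List.length_cons] at this
        omega
      unfold Up; omega
    have h8 : ((true, t) : Arc) ∈ allArcs A V M Y :=
      List.mem_append_left _ ((hC.mem_arcs _).2 (Or.inl ⟨rfl, h7⟩))
    simpa using h1.infix_spell [] List.suffix_rfl _
      (h4 _ h8 (Or.inr (hX t (hrt t h7.act)))).1
  · intro T' hT
    have e1 := length_spell_le post
    have e2 := ups_perm h2
    have e3 : ups ((phase2 A V M Y).flatMap fun t => loop t.1 t.2.1 t.2.2) =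
        ((phase2 A V M Y).map fun t => cyc t.1 t.2.1 t.2.2).sum := by
      induction phase2 A V M Y with
      | nil => simp
      | cons t L ih => simp [ih, ups_loop]
    have e4 : ups (arcs A V M) = (V.map fun v => M v - LS A M v).sum := by
      rw [ups, hC.countP_arcs, List.sum_toFinset _ hC.nodup]
      simp
    rw [allArcs, ups_append, ups_append, e3] at e2
    have e5 := hC.ups_arcs
    have hA' : ∀ a ∈ T'.filter (fun a => decide (a ∈ A)), a ∈ A := by simp
    have e6 : ∑ a ∈ A, M [a] ≤ (T'.filter (fun a => decide (a ∈ A))).length := by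
      rw [← sum_occ_letters A _ hA']
      refine Finset.sum_le_sum fun a _ => sp.le_occ (fun s hs => ?_) hA' _
      have := (hT s hs).filter (fun a => decide (a ∈ A))
      rwa [List.filter_eq_self.2 (by simpa using hA s hs)] at this
    have e7 := List.length_filter_le (fun a => decide (a ∈ A)) T'
    omega

end Crest.Agent.R287
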