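import Crest.Agent.R287.Cyl

/-! The seeding rule and the abstract specification of phase 1. -/

set_option autoImplicit false

namespace Crest.Agent.R287

section Defs
variable (A : Finset ℕ) (V : List Str) (M : Str → ℕ) (Y : List (Str × Str))

/-- `y` is the chosen shortest vertex of its component. -/
def Canon (y : Str) : Prop :=
  ∀ v, Cn A M y v → y.length < v.length ∨ (y.length = v.length ∧ V.idxOf y ≤ V.idxOf v)
def Near (y u : Str) : Prop := ∃ τ, Cn A M y τ ∧ cyc τ τ u ≤ Wt A V M y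
def Trouble (y u : Str) : Prop :=
  ∃ p ∈ Y, Cn A M y p.2 ∧ (cyc p.2 p.1 u ≤ Wt A V M y + (p.1.length - p.2.length) ∨
    cyc p.1 p.2 u ≤ Wt A V M y + (p.1.length - p.2.length))
def Rs (y u : Str) : Prop :=
  y.length - Wt A V M y < u.length ∧ Act A M u ∧ ¬ Cn A M y u ∧
    (Near A V M y u ∨ Trouble A V M Y y u)
def Low (n : ℕ) (u : Str) : Prop := ∃ v, Cn A M u v ∧ v.length < n
def Joint (u u' : Str) : Prop :=
  ∃ v, Cn A M u v ∧ ∃ v', Cn A M u' v' ∧
    (cyc [] v v' ≤ Wt A V M u + Wt A V M u' ∨ cyc [] v' v ≤ Wt A V M u + Wt A V M u')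
def Blocked (y : Str) : Prop :=
  ∃ u, Rs A V M Y y u ∧ (Low A M y.length u ∨ Low A M (Wt A V M u + 1) u ∨
    ∃ u', (u' = y ∨ Rs A V M Y y u') ∧ ¬ Cn A M u u' ∧ Low A M (y.length + Wt A V M u) u ∧
      Low A M (y.length + Wt A V M u') u' ∧ Joint A V M u u')
/-- The component of `y` gets a seed. -/
def Seed (y : Str) : Prop :=
  Canon A V M y ∧ Act A M y ∧ Wt A V M y < y.length ∧ ¬ Blocked A V M Y y

/-- Maximal input strings. -/
def Mx (S : List Str) (s : Str) : Prop :=
  s ∈ S ∧ s ≠ [] ∧ ∀ t ∈ S, s <:+: t → t.length ≤ s.length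

structure Spec (S : List Str) : Prop where
  circ : Circ A V M
  mx : ∀ s, Mx S s → 1 ≤ M s
  inf : ∀ v ∈ V, ∃ t ∈ S, v <:+: t
  m5 : ∀ p ∈ Y, min (LS A M p.2) (RS A M p.2) < M p.2
  m6 : ∀ v, M v ≤ LS A M v ∨ M v ≤ RS A M v ∨ (M v ≤ 1 ∧ Mx S v) ∨
    ∃ y, (y, v) ∈ Y ∧ M v ≤ min (LS A M v) (RS A M v) + 1
  y1 : ∀ p ∈ Y, Seed A V M Y p.1 ∧ p.2 = p.1.drop (Wt A V M p.1)
  y2 : ∀ y, Seed A V M Y y → (y, y.drop (Wt A V M y)) ∈ Y

end Defs

variable {A : Finset ℕ} {V : List Str} {M M' : Str → ℕ} {Y Y' : List (Str × Str)}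

theorem Canon.le {y v : Str} (h : Canon A V M y) (hv : Cn A M y v) : y.length ≤ v.length := by
  rcases h v hv with h | h <;> omega

theorem Seed.exp {y : Str} (h : Seed A V M Y y) : Exp A V M y :=
  fun _ hv => lt_of_lt_of_le h.2.2.1 (h.1.le hv)

theorem exp_of_not_low {u : Str} (h : ¬ Low A M (Wt A V M u + 1) u) : Exp A V M u := by
  intro v hv
  by_contra h1
  exact h ⟨v, hv, by omega⟩

theorem Low.of_cn {n : ℕ} {u v : Str} (h : Low A M n u) (hc : Cn A M u v) : Low A M n v := by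
  obtain ⟨w, h1, h2⟩ := h
  exact ⟨w, hc.symm.trans h1, h2⟩

/-! ### Locality: the seeding rule at level `k` only looks at levels above `k` -/

section Congr
variable {k : ℕ}

theorem LS_congr (h : ∀ v : Str, k < v.length → M v = M' v) {v : Str} (hv : k ≤ v.length) :
    LS A M v = LS A M' v :=
  Finset.sum_congr rfl (fun a _ => h _ (by simp; omega))

theorem RS_congr (h : ∀ v : Str, k < v.length → M v = M' v) {v : Str} (hv : k ≤ v.length) :
    RS A M v = RS A M' v :=
  Finset.sum_congr rfl (fun a _ => h _ (by simp; omega))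

theorem Up.congr (h : ∀ v : Str, k < v.length → M v = M' v) {v : Str} (hv : k < v.length)
    (hu : Up A M v) : Up A M' v := by
  unfold Up at *; rw [← h v hv, ← LS_congr h hv.le]; exact hu

theorem Dn.congr (h : ∀ v : Str, k < v.length → M v = M' v) {v : Str} (hv : k < v.length)
    (hu : Dn A M v) : Dn A M' v := by
  unfold Dn at *; rw [← h v hv, ← RS_congr h hv.le]; exact hu

theorem Adj.congr (h : ∀ v : Str, k < v.length → M v = M' v) {u v : Str}
    (hv : k < u.length ∨ k < v.length) (hu : Adj A M u v) : Adj A M' u v := by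
  rcases hu with ⟨h1, rfl⟩ | ⟨h1, rfl⟩
  · exact Or.inl ⟨h1.congr h (by simp at hv; omega), rfl⟩
  · exact Or.inr ⟨h1.congr h (by simp at hv; omega), rfl⟩

theorem Act.congr (h : ∀ v : Str, k < v.length → M v = M' v) {u : Str} (hv : k < u.length)
    (hu : Act A M u) : Act A M' u := by
  obtain ⟨v, h1 | h1⟩ := hu
  · exact ⟨v, Or.inl (h1.congr h (Or.inl hv))⟩
  · exact ⟨v, Or.inr (h1.congr h (Or.inr hv))⟩

theorem cn_congr (h : ∀ v : Str, k < v.length → M v = M' v) {u : Str}
    (hu : ¬ Low A M (k + 1) u) (v : Str) : Cn A M u v ↔ Cn A M' u v := by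
  have hk : ∀ a, Cn A M u a → k < a.length := by
    intro a ha; by_contra h1; exact hu ⟨a, ha, by omega⟩
  constructor
  · intro hv
    refine hv.ind (fun a => Cn A M' u a) (Cn.refl _) ?_
    intro a b ha ha' hab
    rcases hab with hab | hab
    · exact ha'.trans (hab.congr h (Or.inl (hk a ha))).cn
    · exact ha'.trans (hab.congr h (Or.inr (hk a ha))).cn.symm
  · intro hv
    refine hv.ind (fun a => Cn A M u a) (Cn.refl _) ?_
    intro a b _ ha hab
    have h' : ∀ v : Str, k < v.length → M' v = M v := fun v hv => (h v hv).symm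
    rcases hab with hab | hab
    · exact ha.trans (hab.congr h' (Or.inl (hk a ha))).cn
    · exact ha.trans (hab.congr h' (Or.inr (hk a ha))).cn.symm

theorem wt_congr (h : ∀ v : Str, k < v.length → M v = M' v) {u : Str}
    (hu : ¬ Low A M (k + 1) u) : Wt A V M u = Wt A V M' u := by
  classical
  unfold Wt
  rw [List.filter_congr (q := fun v => decide (Cn A M' u v))
    (fun v _ => by simp only [decide_eq_decide]; exact cn_congr h hu v)]
  congr 1
  apply List.map_congr_left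
  intro v hv
  simp only [List.mem_filter, decide_eq_true_eq] at hv
  have h1 : k < v.length := by
    by_contra h1; exact hu ⟨v, (cn_congr h hu v).2 hv.2, by omega⟩
  rw [h v h1, LS_congr h h1.le]

theorem low_congr (h : ∀ v : Str, k < v.length → M v = M' v) {u : Str}
    (hu : ¬ Low A M (k + 1) u) (n : ℕ) : Low A M n u ↔ Low A M' n u := by
  simp only [Low, cn_congr h hu]

theorem rs_congr (h : ∀ v : Str, k < v.length → M v = M' v)
    (hY : ∀ p : Str × Str, k < p.2.length → (p ∈ Y ↔ p ∈ Y')) {y u : Str}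
    (hy : ¬ Low A M (k + 1) y) (hk : y.length - Wt A V M y = k) (hu : Rs A V M' Y' y u) :
    Rs A V M Y y u := by
  have h' : ∀ v : Str, k < v.length → M' v = M v := fun v hv => (h v hv).symm
  obtain ⟨h1, h2, h3, h4⟩ := hu
  rw [← wt_congr h hy] at h1
  refine ⟨h1, h2.congr h' (by omega), by rwa [cn_congr h hy], ?_⟩
  rcases h4 with ⟨τ, h5, h6⟩ | ⟨p, h5, h6, h7⟩
  · left; exact ⟨τ, (cn_congr h hy _).2 h5, by rwa [wt_congr h hy]⟩
  · right
    have h8 := (cn_congr h hy _).2 h6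
    refine ⟨p, (hY p ?_).2 h5, h8, by rwa [wt_congr h hy]⟩
    by_contra h9
    exact hy ⟨_, h8, by omega⟩

theorem Seed.congr (h : ∀ v : Str, k < v.length → M v = M' v)
    (hY : ∀ p : Str × Str, k < p.2.length → (p ∈ Y ↔ p ∈ Y')) {y : Str}
    (hs : Seed A V M Y y) (hk : y.length - Wt A V M y = k) (hky : k < y.length) :
    Seed A V M' Y' y ∧ Wt A V M' y = Wt A V M y := by
  obtain ⟨h1, h2, h3, h4⟩ := hs
  have hy : ¬ Low A M (k + 1) y := by
    rintro ⟨v, h5, h6⟩
    have := h1.le h5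
    omega
  have hW := wt_congr (V := V) h hy
  refine ⟨⟨fun v hv => h1 v ((cn_congr h hy v).2 hv), h2.congr h hky, hW ▸ h3, ?_⟩, hW.symm⟩
  rintro ⟨u, hu, hb⟩
  have hu' := rs_congr h hY hy hk hu
  have high : ∀ w, Rs A V M Y y w → ¬ Low A M (k + 1) w := by
    rintro w hw ⟨v, h5, h6⟩
    exact h4 ⟨w, hw, Or.inl ⟨v, h5, by omega⟩⟩
  have hh := high u hu'
  apply h4
  refine ⟨u, hu', ?_⟩
  rw [← low_congr h hh, ← low_congr h hh, ← wt_congr h hh] at hb
  rcases hb with hb | hb | ⟨u', h5, h6, h7, h8, h9⟩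
  · exact Or.inl hb
  · exact Or.inr (Or.inl hb)
  · right; right
    have h10 : u' = y ∨ Rs A V M Y y u' := h5.imp id (rs_congr h hY hy hk)
    have hh' : ¬ Low A M (k + 1) u' := by
      rcases h10 with rfl | h10
      · exact hy
      · exact high _ h10
    refine ⟨u', h10, by rwa [cn_congr h hh], by rwa [low_congr h hh], ?_, ?_⟩
    · rwa [low_congr h hh', wt_congr h hh']
    · obtain ⟨v, a1, v', a2, a3⟩ := h9
      refine ⟨v, (cn_congr h hh _).2 a1, v', (cn_congr h hh' _).2 a2, ?_⟩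
      rwa [wt_congr h hh, wt_congr h hh']

end Congr

end Crest.Agent.R287
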