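import Crest.Agent.R287.Euler

/-! Strings: arcs of the hierarchical graph, overlaps, windows of bi-infinite words, occurrences. -/

set_option autoImplicit false

namespace Crest.Agent.R287

abbrev Str := List ℕ

/-- An arc: `(true, v)` goes up from `v.dropLast` to `v`; `(false, v)` goes down from `v` to
`v.tail`. -/
abbrev Arc := Bool × List ℕ

def src (e : Arc) : Str := if e.1 then e.2.dropLast else e.2
def tgt (e : Arc) : Str := if e.1 then e.2 else e.2.tail

@[simp] theorem src_true (v : Str) : src (true, v) = v.dropLast := rfl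
@[simp] theorem src_false (v : Str) : src (false, v) = v := rfl
@[simp] theorem tgt_true (v : Str) : tgt (true, v) = v := rfl
@[simp] theorem tgt_false (v : Str) : tgt (false, v) = v.tail := rfl

/-- Number of up arcs. -/
def ups (es : List Arc) : ℕ := es.countP (fun e => e.1)

@[simp] theorem ups_nil : ups [] = 0 := rfl
@[simp] theorem ups_append (a b : List Arc) : ups (a ++ b) = ups a + ups b := by simp [ups]
@[simp] theorem ups_cons_true (v : Str) (b : List Arc) : ups ((true, v) :: b) = ups b + 1 := by
  simp [ups]
@[simp] theorem ups_cons_false (v : Str) (b : List Arc) : ups ((false, v) :: b) = ups b := by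
  simp [ups]
theorem ups_perm {a b : List Arc} (h : a.Perm b) : ups a = ups b := h.countP_eq _

/-- The letters appended by a walk. -/
def spell (es : List Arc) : Str :=
  es.flatMap (fun e => if e.1 then e.2.drop (e.2.length - 1) else [])

theorem length_spell_le (es : List Arc) : (spell es).length ≤ ups es := by
  induction es with
  | nil => simp [spell]
  | cons e es ih =>
    obtain ⟨b, v⟩ := e
    cases b
    · simpa [spell] using ih
    · simp only [spell, List.flatMap_cons, if_true, List.length_append, List.length_drop,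
        ups_cons_true] at ih ⊢
      omega

theorem dropLast_append_drop (v : Str) : v.dropLast ++ v.drop (v.length - 1) = v := by
  rw [List.dropLast_eq_take]; exact List.take_append_drop _ _

theorem IsWalk.infix_spell {u v : Str} {es : List Arc} (h : IsWalk src tgt u es v) (P : Str)
    (hP : u <:+ P) : ∀ e ∈ es, tgt e <:+: P ++ spell es := by
  induction es generalizing u P with
  | nil => simp
  | cons e es ih =>
    obtain ⟨h1, h2⟩ := h
    obtain ⟨b, w⟩ := e
    cases b
    · simp only [src_false, tgt_false] at h1 h2
      subst h1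
      have h3 : w.tail <:+ P := (List.tail_suffix w).trans hP
      intro f hf
      have e1 : spell ((false, w) :: es) = spell es := by simp [spell]
      rw [e1]
      rcases List.mem_cons.1 hf with rfl | hf
      · exact h3.isInfix.trans (List.prefix_append _ _).isInfix
      · exact ih h2 P h3 f hf
    · simp only [src_true, tgt_true] at h1 h2
      subst h1
      have h3 : w <:+ P ++ w.drop (w.length - 1) := by
        obtain ⟨Q, rfl⟩ := hP
        rw [List.append_assoc, dropLast_append_drop]
        exact List.suffix_append _ _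
      intro f hf
      have e1 : P ++ spell ((true, w) :: es) = (P ++ w.drop (w.length - 1)) ++ spell es := by
        simp [spell]
      rw [e1]
      rcases List.mem_cons.1 hf with rfl | hf
      · exact h3.isInfix.trans (List.prefix_append _ _).isInfix
      · exact ih h2 _ h3 f hf

/-- The longest prefix of `v` that is a suffix of `u` (its length). -/
def ov (u v : Str) : ℕ :=
  ((List.range (v.length + 1)).filter (fun j => decide (v.take j = u.drop (u.length - j)))).foldl max 0

theorem foldl_max_spec (l : List ℕ) (a : ℕ) :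
    (l.foldl max a = a ∨ l.foldl max a ∈ l) ∧ a ≤ l.foldl max a ∧ ∀ j ∈ l, j ≤ l.foldl max a := by
  induction l generalizing a with
  | nil => simp
  | cons b l ih =>
    obtain ⟨h1, h2, h3⟩ := ih (max a b)
    simp only [List.foldl_cons, List.mem_cons, forall_eq_or_imp]
    refine ⟨?_, le_trans (le_max_left _ _) h2, le_trans (le_max_right _ _) h2, h3⟩
    rcases h1 with h1 | h1
    · rw [h1]; rcases le_total a b with h | h
      · right; left; exact max_eq_right h
      · left; exact max_eq_left h
    · right; right; exact h1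

theorem ov_spec (u v : Str) : ov u v ≤ v.length ∧ v.take (ov u v) <:+ u := by
  rcases (foldl_max_spec ((List.range (v.length + 1)).filter
    (fun j => decide (v.take j = u.drop (u.length - j)))) 0).1 with h | h
  · unfold ov; rw [h]; simp
  · change ov u v ∈ _ at h
    simp only [List.mem_filter, List.mem_range, decide_eq_true_eq] at h
    exact ⟨by omega, h.2 ▸ List.drop_suffix _ _⟩

theorem le_ov {u v : Str} {j : ℕ} (hj : j ≤ v.length) (h : v.take j <:+ u) : j ≤ ov u v := by
  apply (foldl_max_spec _ 0).2.2
  simp only [List.mem_filter, List.mem_range, decide_eq_true_eq]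
  refine ⟨by omega, ?_⟩
  have := List.suffix_iff_eq_drop.1 h
  rwa [List.length_take, min_eq_left hj] at this

/-- Cost of the cheapest walk from `u` to `v`. -/
def dist (u v : Str) : ℕ := v.length - ov u v

theorem dist_le_length (u v : Str) : dist u v ≤ v.length := Nat.sub_le _ _

theorem dist_le_of {u v : Str} {j : ℕ} (hj : j ≤ v.length) (h : v.take j <:+ u) :
    dist u v ≤ v.length - j := Nat.sub_le_sub_left (le_ov hj h) _

theorem dist_of_suffix {u v : Str} (h : v <:+ u) : dist u v = 0 := by
  have := dist_le_of (u := u) (v := v) le_rfl (by simpa using h)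
  omega

@[simp] theorem dist_self (u : Str) : dist u u = 0 := dist_of_suffix List.suffix_rfl
@[simp] theorem dist_nil_right (u : Str) : dist u [] = 0 := dist_of_suffix List.nil_suffix

/-- Cost of the closed walk `w → u → v → w`. -/
def cyc (w u v : Str) : ℕ := dist w u + dist u v + dist v w

/-- The down arcs from `u` to `u.drop n`. -/
def downs (u : Str) (n : ℕ) : List Arc := (List.range n).map (fun i => (false, u.drop i))

/-- The up arcs from `v.take j` to `v.take (j + n)`. -/
def upsTo (v : Str) (j n : ℕ) : List Arc := (List.range n).map (fun i => (true, v.take (j + i + 1)))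

theorem isWalk_downs (u : Str) (n : ℕ) : IsWalk src tgt u (downs u n) (u.drop n) := by
  induction n with
  | zero => simp [downs]
  | succ n ih =>
    simp only [downs, List.range_succ, List.map_append, List.map_cons, List.map_nil] at ih ⊢
    exact ih.append (by simp)

theorem isWalk_upsTo (v : Str) (j n : ℕ) (h : j + n ≤ v.length) :
    IsWalk src tgt (v.take j) (upsTo v j n) (v.take (j + n)) := by
  induction n with
  | zero => simp [upsTo]
  | succ n ih =>
    simp only [upsTo, List.range_succ, List.map_append, List.map_cons, List.map_nil] at ih ⊢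
    refine (ih (by omega)).append ?_
    simp only [isWalk_cons, src_true, tgt_true, isWalk_nil]
    refine ⟨?_, rfl⟩
    rw [List.dropLast_eq_take, List.take_take, List.length_take]
    congr 1; omega

theorem ups_downs (u : Str) (n : ℕ) : ups (downs u n) = 0 := by
  simp [ups, downs]

theorem ups_upsTo (v : Str) (j n : ℕ) : ups (upsTo v j n) = n := by
  simp [ups, upsTo, List.countP_map, Function.comp_def]

/-- The cheapest walk from `u` to `v`. -/
def path (u v : Str) : List Arc :=
  downs u (u.length - ov u v) ++ upsTo v (ov u v) (v.length - ov u v)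

theorem isWalk_path (u v : Str) : IsWalk src tgt u (path u v) v := by
  obtain ⟨h1, h2⟩ := ov_spec u v
  have h3 := List.suffix_iff_eq_drop.1 h2
  rw [List.length_take, min_eq_left h1] at h3
  refine (isWalk_downs _ _).append ?_
  rw [← h3]
  have := isWalk_upsTo v (ov u v) (v.length - ov u v) (by omega)
  rwa [show ov u v + (v.length - ov u v) = v.length by omega, List.take_length] at this

theorem ups_path (u v : Str) : ups (path u v) = dist u v := by
  simp [path, ups_downs, ups_upsTo, dist]

/-- The closed walk `w → u → v → w`. -/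
def loop (w u v : Str) : List Arc := path w u ++ path u v ++ path v w

theorem isWalk_loop (w u v : Str) : IsWalk src tgt w (loop w u v) w :=
  ((isWalk_path _ _).append (isWalk_path _ _)).append (isWalk_path _ _)

theorem ups_loop (w u v : Str) : ups (loop w u v) = cyc w u v := by
  simp [loop, ups_path, cyc, Nat.add_assoc]

/-! ### Windows -/

/-- The window `[l, r)` of a bi-infinite word. -/
def win (ξ : ℤ → ℕ) (l r : ℤ) : Str := (List.range (r - l).toNat).map (fun i : ℕ => ξ (l + i))

@[simp] theorem length_win (ξ : ℤ → ℕ) (l r : ℤ) : (win ξ l r).length = (r - l).toNat := by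
  simp [win]

theorem getElem_win (ξ : ℤ → ℕ) (l r : ℤ) (i : ℕ) (h : i < (win ξ l r).length) :
    (win ξ l r)[i] = ξ (l + i) := by
  simp [win]

theorem win_eq_iff {ξ ζ : ℤ → ℕ} {l r l' r' : ℤ} (h : r - l = r' - l') :
    win ξ l r = win ζ l' r' ↔ ∀ i, l ≤ i → i < r → ξ i = ζ (i + (l' - l)) := by
  constructor
  · intro he i h1 h2
    have a1 : (i - l).toNat < (win ξ l r).length := by simp; omega
    have a2 : (i - l).toNat < (win ζ l' r').length := by simp; omega
    have a3 : (win ξ l r)[(i - l).toNat] = (win ζ l' r')[(i - l).toNat] := by simp [he]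
    rw [getElem_win, getElem_win] at a3
    rw [show l + ((i - l).toNat : ℕ) = i by omega,
      show l' + ((i - l).toNat : ℕ) = i + (l' - l) by omega] at a3
    exact a3
  · intro he
    apply List.ext_getElem
    · simp [h]
    · intro i h1 h2
      rw [getElem_win, getElem_win, he (l + i) (by omega) (by simp at h1; omega)]
      congr 1; ring

theorem win_congr {ξ ζ : ℤ → ℕ} {l r : ℤ} (h : ∀ i, l ≤ i → i < r → ξ i = ζ i) :
    win ξ l r = win ζ l r := (win_eq_iff rfl).2 (by simpa using h)

theorem win_succ_right (ξ : ℤ → ℕ) {l r : ℤ} (h : l ≤ r) :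
    win ξ l (r + 1) = win ξ l r ++ [ξ r] := by
  unfold win
  rw [show (r + 1 - l).toNat = (r - l).toNat + 1 by omega, List.range_succ]
  simp only [List.map_append, List.map_cons, List.map_nil]
  congr 3; omega

theorem win_eq_cons (ξ : ℤ → ℕ) {l r : ℤ} (h : l < r) :
    win ξ l r = ξ l :: win ξ (l + 1) r := by
  unfold win
  rw [show (r - l).toNat = (r - (l + 1)).toNat + 1 by omega, List.range_succ_eq_map]
  simp only [List.map_cons, List.map_map, Nat.cast_zero, add_zero, List.cons.injEq, true_and]
  apply List.map_congr_left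
  intro i _
  simp only [Function.comp]; congr 1; push_cast; ring

theorem win_pred_left (ξ : ℤ → ℕ) {l r : ℤ} (h : l ≤ r) :
    win ξ (l - 1) r = ξ (l - 1) :: win ξ l r := by
  rw [win_eq_cons ξ (by omega)]; simp

theorem win_eq_concat (ξ : ℤ → ℕ) {l r : ℤ} (h : l < r) :
    win ξ l r = win ξ l (r - 1) ++ [ξ (r - 1)] := by
  rw [← win_succ_right ξ (by omega)]; simp

theorem take_win (ξ : ℤ → ℕ) {l r : ℤ} (j : ℕ) (h : l + j ≤ r) :
    (win ξ l r).take j = win ξ l (l + j) := by
  apply List.ext_getElem
  · simp; omega
  · intro i h1 h2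
    simp [getElem_win]

theorem drop_win (ξ : ℤ → ℕ) {l r : ℤ} (j : ℕ) :
    (win ξ l r).drop j = win ξ (l + j) r := by
  apply List.ext_getElem
  · simp; omega
  · intro i h1 h2
    simp only [List.getElem_drop, getElem_win]
    congr 1; push_cast; ring

theorem win_suffix (ξ : ℤ → ℕ) {l l' r : ℤ} (h : l ≤ l') : win ξ l' r <:+ win ξ l r := by
  have := drop_win ξ (l := l) (r := r) (l' - l).toNat
  rw [show l + ((l' - l).toNat : ℕ) = l' by omega] at this
  rw [← this]; exact List.drop_suffix _ _

theorem win_prefix (ξ : ℤ → ℕ) {l r r' : ℤ} (h : r' ≤ r) : win ξ l r' <+: win ξ l r := by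
  by_cases h1 : l ≤ r'
  · have := take_win ξ (l := l) (r := r) (r' - l).toNat (by omega)
    rw [show l + ((r' - l).toNat : ℕ) = r' by omega] at this
    rw [← this]; exact List.take_prefix _ _
  · have : win ξ l r' = [] := by
      apply List.eq_nil_of_length_eq_zero; simp; omega
    rw [this]; exact List.nil_prefix

theorem win_infix (ξ : ℤ → ℕ) {l l' r r' : ℤ} (h : l ≤ l') (h' : r' ≤ r) :
    win ξ l' r' <:+: win ξ l r :=
  (win_suffix ξ h).isInfix.trans (win_prefix ξ h').isInfix

/-- The basic distance bound between windows of two words that agree on the overlap. -/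
theorem dist_win_le {ξ ζ : ℤ → ℕ} {l r l' r' : ℤ} (hl : l ≤ l') (hr : r ≤ r')
    (h : ∀ i, l' ≤ i → i < r → ξ i = ζ i) :
    (dist (win ξ l r) (win ζ l' r') : ℤ) ≤ r' - r := by
  by_cases h1 : l' ≤ r
  · have a1 : (win ζ l' r').take (r - l').toNat <:+ win ξ l r := by
      rw [take_win _ _ (by omega), show l' + ((r - l').toNat : ℕ) = r by omega,
        ← win_congr h]
      exact win_suffix ξ hl
    have := dist_le_of (by simp; omega) a1
    simp only [length_win] at this
    omega
  · have := dist_le_length (win ξ l r) (win ζ l' r')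
    simp only [length_win] at this
    omega

theorem dist_win_le' (ξ : ℤ → ℕ) {l r l' r' : ℤ} (hl : l ≤ l') (hr : r ≤ r') :
    (dist (win ξ l r) (win ξ l' r') : ℤ) ≤ r' - r := dist_win_le hl hr (fun _ _ _ => rfl)

/-! ### Periodic words -/

/-- `ξ` has period `W`. -/
def Per (ξ : ℤ → ℕ) (W : ℕ) : Prop := ∀ i : ℤ, ξ (i + W) = ξ i

theorem Per.mul {ξ : ℤ → ℕ} {W : ℕ} (h : Per ξ W) (j i : ℤ) : ξ (i + j * W) = ξ i := by
  have hp : Function.Periodic ξ (W : ℤ) := h
  exact (hp.int_mul j) i

theorem Per.win_shift {ξ : ℤ → ℕ} {W : ℕ} (h : Per ξ W) (j l r : ℤ) :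
    win ξ (l + j * W) (r + j * W) = win ξ l r := by
  symm
  rw [win_eq_iff (by ring)]
  intro i _ _
  rw [show i + (l + j * W - l) = i + j * W by ring, h.mul]

theorem exists_shift (W : ℕ) (hW : 0 < W) (a i : ℤ) : ∃ j : ℤ, a ≤ i + j * W ∧ i + j * W < a + W := by
  refine ⟨-((i - a) / W), ?_, ?_⟩
  · have := Int.emod_nonneg (i - a) (show (W : ℤ) ≠ 0 by omega)
    have := Int.emod_add_mul_ediv (i - a) W
    nlinarith
  · have := Int.emod_lt_of_pos (i - a) (show (0 : ℤ) < W by omega)
    have := Int.emod_add_mul_ediv (i - a) W
    nlinarith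

/-- Two words of period `W` that agree on a window of length `W` are equal. -/
theorem Per.ext {ξ ζ : ℤ → ℕ} {W : ℕ} (hW : 0 < W) (h : Per ξ W) (h' : Per ζ W) (a : ℤ)
    (he : ∀ i, a ≤ i → i < a + W → ξ i = ζ i) : ξ = ζ := by
  funext i
  obtain ⟨j, h1, h2⟩ := exists_shift W hW a i
  rw [← h.mul j i, ← h'.mul j i, he _ h1 h2]

/-- The weak Fine–Wilf theorem for bi-infinite words. -/
theorem Per.fine_wilf {ξ ζ : ℤ → ℕ} {W W' : ℕ} (hW : 0 < W) (hW' : 0 < W') (h : Per ξ W)
    (h' : Per ζ W') (a : ℤ) (he : ∀ i, a ≤ i → i < a + W + W' → ξ i = ζ i) : ξ = ζ := by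
  have h1 : (fun i => ζ (i + W)) = ζ := by
    apply Per.ext hW' (fun i => by rw [← h' (i + W)]; congr 1; ring) h' a
    intro i h1 h2
    rw [← he _ (by omega) (by omega), h, he _ h1 (by omega)]
  exact Per.ext hW h (fun i => congrFun h1 i) a (fun i h1 h2 => he i h1 (by omega))

/-- The periodic extension of a window. -/
theorem exists_per_ext (ξ : ℤ → ℕ) (W : ℕ) (hW : 0 < W) (a b : ℤ)
    (h : ∀ i, a ≤ i → i + W < b → ξ (i + W) = ξ i) :
    ∃ ζ : ℤ → ℕ, Per ζ W ∧ ∀ i, a ≤ i → i < b → ζ i = ξ i := by
  refine ⟨fun i => ξ (a + (i - a) % W), fun i => ?_, ?_⟩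
  · simp only
    rw [show i + W - a = (i - a) + W by ring, Int.add_emod_right]
  · have key : ∀ n : ℕ, a + n < b → ξ (a + (n : ℤ) % W) = ξ (a + n) := by
      intro n
      induction n using Nat.strong_induction_on with
      | _ n ih =>
        intro hn
        by_cases h1 : n < W
        · rw [Int.emod_eq_of_lt (by omega) (by omega)]
        · have := ih (n - W) (by omega) (by omega)
          rw [show ((n - W : ℕ) : ℤ) = n - W by omega, Int.sub_emod_right] at this
          rw [this, ← h (a + (n - W)) (by omega) (by omega)]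
          congr 1; ring
    intro i h1 h2
    have := key (i - a).toNat (by omega)
    rw [show (((i - a).toNat : ℕ) : ℤ) = i - a by omega] at this
    simp only
    rw [this]; congr 1; ring

/-- Every string is a window. -/
theorem exists_win (v : Str) (l : ℤ) : ∃ ξ : ℤ → ℕ, win ξ l (l + v.length) = v := by
  refine ⟨fun i => v.getD (i - l).toNat 0, ?_⟩
  apply List.ext_getElem
  · simp
  · intro i h1 h2
    rw [getElem_win]
    simp [h2]

/-! ### Occurrences -/

/-- Number of occurrences of `v` in `T`. -/
def occ (T v : Str) : ℕ := T.tails.countP (fun t => decide (v <+: t))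

theorem occ_cons (t : ℕ) (T v : Str) :
    occ (t :: T) v = occ T v + if v <+: t :: T then 1 else 0 := by
  simp [occ, List.countP_cons]

theorem occ_left (A : Finset ℕ) (T v : Str) (hA : ∀ a ∈ T, a ∈ A) :
    occ T v = ∑ a ∈ A, occ T (a :: v) + if v <+: T then 1 else 0 := by
  induction T with
  | nil => simp [occ, List.countP_cons]
  | cons t T ih =>
    have ih := ih (fun a ha => hA a (List.mem_cons_of_mem _ ha))
    simp only [occ_cons, Finset.sum_add_distrib, List.cons_prefix_cons]
    have : ∑ a ∈ A, (if a = t ∧ v <+: T then 1 else 0) = if v <+: T then 1 else 0 := by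
      by_cases h : v <+: T
      · simp [h, hA t List.mem_cons_self]
      · simp [h]
    omega

theorem occ_right (A : Finset ℕ) (T v : Str) : ∑ b ∈ A, occ T (v ++ [b]) ≤ occ T v := by
  have key : ∀ t : Str, ∑ b ∈ A, (if v ++ [b] <+: t then 1 else 0) ≤ if v <+: t then 1 else 0 := by
    intro t
    by_cases h : v <+: t
    · rw [if_pos h, Finset.sum_boole, Nat.cast_id, Finset.card_le_one]
      intro a ha b hb
      simp only [Finset.mem_filter] at ha hb
      have := List.prefix_of_prefix_length_le ha.2 hb.2 (by simp)
      have := this.eq_of_length (by simp)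
      simpa using this
    · rw [if_neg h]
      apply le_of_eq
      apply Finset.sum_eq_zero
      intro b _
      rw [if_neg]
      intro h'
      exact h ((List.prefix_append _ _).trans h')
  induction T with
  | nil =>
    simp [occ, List.countP_cons]
  | cons t T ih =>
    simp only [occ_cons, Finset.sum_add_distrib]
    have := key (t :: T)
    omega

theorem occ_pos_iff {T v : Str} : 0 < occ T v ↔ v <:+: T := by
  simp only [occ, List.countP_pos_iff, List.mem_tails, decide_eq_true_eq]
  constructor
  · rintro ⟨t, h1, h2⟩; exact h2.isInfix.trans h1.isInfix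
  · intro h
    obtain ⟨t, h1, h2⟩ := List.infix_iff_prefix_suffix.1 h
    exact ⟨t, h2, h1⟩

theorem occ_nil (T : Str) : occ T [] = T.length + 1 := by simp [occ]

theorem sum_occ_letters (A : Finset ℕ) (T : Str) (hA : ∀ a ∈ T, a ∈ A) :
    ∑ a ∈ A, occ T [a] = T.length := by
  have := occ_left A T [] hA
  simp [occ_nil] at this
  omega

end Crest.Agent.R287
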